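import Vale.Agent.P184.H856.PDefs

/-!
# P184: nuclear operators over `ℓ¹(L)`
-/

noncomputable section

namespace Vale.Agent.P184.H856

open Filter Topology
open Vale.Agent.P184 (IsIdem tau)
open Vale.Agent.P184.H13 (E dl co E_summable E_norm Emk Emk_apply E_ext dl_apply dl_self
  norm_apply_le)
open Vale.Agent.P184.H847 (hasSum_dl hasSum_clm hasSum_nrm norm_dl)

universe u v

variable {Y : Type u} {L : Type v}

/-! ### ideals -/

theorem nucL_add {K T : E (Y × L) →L[ℂ] E (Y × L)} (hK : NucL K) (hT : NucL T) :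
    NucL (K + T) := by
  refine Summable.of_nonneg_of_le (fun y => norm_nonneg _) (fun y => ?_) (Summable.add hK hT)
  rw [ContinuousLinearMap.comp_add]
  exact norm_add_le _ _

theorem nucL_neg {K : E (Y × L) →L[ℂ] E (Y × L)} (hK : NucL K) : NucL (-K) := by
  refine Summable.of_nonneg_of_le (fun y => norm_nonneg _) (fun y => ?_) hK
  rw [ContinuousLinearMap.comp_neg, norm_neg]

theorem nucL_sub {K T : E (Y × L) →L[ℂ] E (Y × L)} (hK : NucL K) (hT : NucL T) :
    NucL (K - T) := by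
  rw [sub_eq_add_neg]
  exact nucL_add hK (nucL_neg hT)

theorem nucL_mul {K : E (Y × L) →L[ℂ] E (Y × L)} (hK : NucL K)
    (B : E (Y × L) →L[ℂ] E (Y × L)) : NucL (K * B) := by
  refine Summable.of_nonneg_of_le (fun y => norm_nonneg _) (fun y => ?_)
    (Summable.mul_right ‖B‖ hK)
  have : (pr y).comp (K * B) = ((pr y).comp K).comp B := rfl
  rw [this]
  exact ContinuousLinearMap.opNorm_comp_le _ _

section Group

variable [Group L]

theorem summable_beta (B : E (Y × L) →L[ℂ] E (Y × L)) (z : Y) :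
    Summable (fun y => ‖pr y (B (dl (z, 1)))‖) ∧
      ∑' y, ‖pr y (B (dl (z, 1)))‖ ≤ ‖B‖ := by
  have h := hasSum_pr (B (dl (z, 1)))
  refine ⟨h.summable, ?_⟩
  rw [h.tsum_eq]
  have h2 := B.le_opNorm (dl (z, 1))
  rwa [norm_dl, mul_one] at h2

theorem summable_KB {K : E (Y × L) →L[ℂ] E (Y × L)} (hK : NucL K)
    (B : E (Y × L) →L[ℂ] E (Y × L)) : Summable fun p : Y × Y =>
      ‖(pr p.1).comp K‖ * ‖pr p.2 (B (dl (p.1, 1)))‖ := by
  have h0 : ∀ z, Summable fun y => ‖(pr z).comp K‖ * ‖pr y (B (dl (z, 1)))‖ :=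
    fun z => (summable_beta B z).1.mul_left _
  have h00 : Summable fun z => ∑' y, ‖(pr z).comp K‖ * ‖pr y (B (dl (z, 1)))‖ := by
    refine Summable.of_nonneg_of_le (fun z => tsum_nonneg fun y =>
      mul_nonneg (norm_nonneg _) (norm_nonneg _)) (fun z => ?_) (Summable.mul_right ‖B‖ hK)
    rw [tsum_mul_left]
    exact mul_le_mul_of_nonneg_left (summable_beta B z).2 (norm_nonneg _)
  exact (summable_prod_of_nonneg
    (fun p : Y × Y => mul_nonneg (norm_nonneg _) (norm_nonneg _))).2 ⟨h0, h00⟩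

theorem norm_pr_mul_le {B : E (Y × L) →L[ℂ] E (Y × L)} (hB : Eqv B) (y : Y) (w : E (Y × L)) :
    (Summable fun z => ‖pr z w‖ * ‖pr y (B (dl (z, 1)))‖) ∧
      ‖pr y (B w)‖ ≤ ∑' z, ‖pr z w‖ * ‖pr y (B (dl (z, 1)))‖ := by
  have hs : Summable fun r : Y × L => ‖w r‖ * ‖pr y (B (dl (r.1, 1)))‖ := by
    refine Summable.of_nonneg_of_le (fun r => mul_nonneg (norm_nonneg _) (norm_nonneg _))
      (fun r => ?_) ((E_summable w).mul_right ‖B‖)
    refine mul_le_mul_of_nonneg_left ?_ (norm_nonneg _)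
    refine (norm_pr_apply_le y _).trans ?_
    have h := B.le_opNorm (dl (r.1, 1))
    rwa [norm_dl, mul_one] at h
  have hf : ∀ z, ∑' l : L, ‖w (z, l)‖ * ‖pr y (B (dl (z, 1)))‖ =
      ‖pr z w‖ * ‖pr y (B (dl (z, 1)))‖ := fun z =>
    ((hasSum_nrm (pr z w)).mul_right _).tsum_eq
  have h2 : ∑' r : Y × L, ‖w r‖ * ‖pr y (B (dl (r.1, 1)))‖ =
      ∑' z, ‖pr z w‖ * ‖pr y (B (dl (z, 1)))‖ := by
    rw [hs.tsum_prod]
    exact tsum_congr hf
  have h3 : Summable fun z => ‖pr z w‖ * ‖pr y (B (dl (z, 1)))‖ := by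
    have := hs.prod
    refine this.congr fun z => ?_
    exact (hf z)
  refine ⟨h3, ?_⟩
  rw [← h2]
  have h1 := hasSum_clm ((pr y).comp B) w
  rw [show pr y (B w) = ∑' r, w r • ((pr y).comp B) (dl r) from h1.tsum_eq.symm]
  refine tsum_of_norm_bounded hs.hasSum fun r => ?_
  rw [norm_smul]
  obtain ⟨z, a⟩ := r
  change ‖w (z, a)‖ * ‖pr y (B (dl (z, a)))‖ ≤ _
  rw [norm_col hB]

theorem nucL_mul_left {K : E (Y × L) →L[ℂ] E (Y × L)} (hK : NucL K)
    {B : E (Y × L) →L[ℂ] E (Y × L)} (hB : Eqv B) : NucL (B * K) := by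
  have hsum := summable_KB hK B
  have hswap : Summable fun p : Y × Y =>
      ‖(pr p.2).comp K‖ * ‖pr p.1 (B (dl (p.2, 1)))‖ :=
    (Equiv.prodComm Y Y).summable_iff.2 hsum
  have hfib : ∀ y, Summable fun z => ‖(pr z).comp K‖ * ‖pr y (B (dl (z, 1)))‖ :=
    fun y => hswap.prod_factor y
  have houter : Summable fun y => ∑' z, ‖(pr z).comp K‖ * ‖pr y (B (dl (z, 1)))‖ := hswap.prod
  refine Summable.of_nonneg_of_le (fun y => norm_nonneg _) (fun y => ?_) houter
  refine ContinuousLinearMap.opNorm_le_bound _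
    (tsum_nonneg fun z => mul_nonneg (norm_nonneg _) (norm_nonneg _)) fun v => ?_
  change ‖pr y (B (K v))‖ ≤ _
  obtain ⟨h3, h4⟩ := norm_pr_mul_le hB y (K v)
  refine h4.trans ?_
  rw [← tsum_mul_right]
  refine h3.tsum_le_tsum (fun z => ?_) ((hfib y).mul_right ‖v‖)
  have h5 : ‖pr z (K v)‖ ≤ ‖(pr z).comp K‖ * ‖v‖ := ((pr z).comp K).le_opNorm v
  calc ‖pr z (K v)‖ * ‖pr y (B (dl (z, 1)))‖
      ≤ (‖(pr z).comp K‖ * ‖v‖) * ‖pr y (B (dl (z, 1)))‖ :=
        mul_le_mul_of_nonneg_right h5 (norm_nonneg _)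
    _ = _ := by ring

/-! ### the trace -/

theorem summable_trD {K : E (Y × L) →L[ℂ] E (Y × L)} (hK : NucL K) (D : ConjClasses L) :
    Summable fun y => tD D (pr y (K (dl (y, 1)))) := by
  refine Summable.of_norm_bounded hK fun y => ?_
  refine (norm_tD_le D _).trans ?_
  have h := ((pr y).comp K).le_opNorm (dl (y, 1))
  rwa [norm_dl, mul_one] at h

theorem trD_add {K T : E (Y × L) →L[ℂ] E (Y × L)} (hK : NucL K) (hT : NucL T)
    (D : ConjClasses L) : trD D (K + T) = trD D K + trD D T := by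
  rw [trD_eq, trD_eq, trD_eq, ← (summable_trD hK D).tsum_add (summable_trD hT D)]
  refine tsum_congr fun y => ?_
  rw [← map_add, ← map_add]
  rfl

theorem trD_neg (K : E (Y × L) →L[ℂ] E (Y × L)) (D : ConjClasses L) :
    trD D (-K) = - trD D K := by
  rw [trD_eq, trD_eq, ← tsum_neg]
  refine tsum_congr fun y => ?_
  rw [← map_neg, ← map_neg]
  rfl

theorem trD_norm_le {K : E (Y × L) →L[ℂ] E (Y × L)} (hK : NucL K)
    (B : E (Y × L) →L[ℂ] E (Y × L)) (D : ConjClasses L) :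
    ‖trD D (K * B)‖ ≤ (∑' y, ‖(pr y).comp K‖) * ‖B‖ := by
  rw [trD_eq, ← tsum_mul_right]
  refine tsum_of_norm_bounded (Summable.hasSum (Summable.mul_right ‖B‖ hK)) (fun y => ?_)
  refine (norm_tD_le D _).trans ?_
  refine (((pr y).comp K).le_opNorm (B (dl (y, 1)))).trans ?_
  refine mul_le_mul_of_nonneg_left ?_ (norm_nonneg _)
  have h := B.le_opNorm (dl (y, 1))
  rwa [norm_dl, mul_one] at h

end Group

end Vale.Agent.P184.H856
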