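import Vale.Agent.P184.H856.Trunc

/-!
# P184: the doubling trick
-/

noncomputable section

namespace Vale.Agent.P184.H856

open Filter Topology
open Vale.Agent.P184 (IsIdem tau)
open Vale.Agent.P184.H13 (E dl co E_summable E_norm Emk Emk_apply E_ext dl_apply dl_self
  norm_apply_le)
open Vale.Agent.P184.H847 (hasSum_dl hasSum_clm hasSum_nrm norm_dl)

universe u v

variable {Y : Type u} {L : Type v}

/-! ### inclusions and projections -/

theorem emb_inj (b : Bool) : Function.Injective fun p : Y × L => ((b, p.1), p.2) := by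
  rintro ⟨y, l⟩ ⟨z, m⟩ h
  simp only [Prod.mk.injEq, true_and] at h
  rw [h.1, h.2]

/-- restriction to the copy `b`, linear map -/
def piL (b : Bool) : E ((Bool × Y) × L) →ₗ[ℂ] E (Y × L) where
  toFun v := Emk (fun p => v ((b, p.1), p.2)) ((E_summable v).comp_injective (emb_inj b))
  map_add' _ _ := rfl
  map_smul' _ _ := rfl

/-- restriction to the copy `b` -/
def pi2 (b : Bool) : E ((Bool × Y) × L) →L[ℂ] E (Y × L) :=
  LinearMap.mkContinuous (piL b) 1 (fun v => by
    rw [one_mul]
    have h : ‖piL b v‖ = ∑' p : Y × L, ‖v ((b, p.1), p.2)‖ := E_norm _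
    rw [h, E_norm]
    exact ((E_summable v).comp_injective (emb_inj b)).tsum_le_tsum_of_inj _ (emb_inj b)
      (fun _ _ => norm_nonneg _) (fun _ => le_rfl) (E_summable v))

theorem pi2_apply (b : Bool) (v : E ((Bool × Y) × L)) (p : Y × L) :
    pi2 b v p = v ((b, p.1), p.2) := rfl

/-- the values of the inclusion -/
def iofn (b : Bool) (w : Y × L → ℂ) (p : (Bool × Y) × L) : ℂ :=
  if p.1.1 = b then w (p.1.2, p.2) else 0

/-- the indices -/
def bE : (Bool × Y) × L ≃ Bool × (Y × L) := Equiv.prodAssoc Bool Y L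

theorem iofn_hasSum (b : Bool) (w : E (Y × L)) :
    HasSum (fun p => ‖iofn b w p‖) ‖w‖ := by
  have h1 : HasSum (fun r : Bool × (Y × L) => ‖iofn b w ((r.1, r.2.1), r.2.2)‖) ‖w‖ := by
    have h2 : HasSum (fun p : Y × L => ‖iofn b w ((b, p.1), p.2)‖) ‖w‖ := by
      have h3 := hasSum_nrm w
      have h4 : (fun p : Y × L => ‖iofn b w ((b, p.1), p.2)‖) = fun p => ‖w p‖ := by
        funext p
        unfold iofn
        rw [if_pos rfl]
      rw [h4]
      exact h3
    have hinj : Function.Injective fun p : Y × L => (b, p) := fun _ _ h => (Prod.mk.inj h).2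
    refine (hinj.hasSum_iff (f := fun r : Bool × (Y × L) =>
      ‖iofn b w ((r.1, r.2.1), r.2.2)‖) ?_).1 h2
    rintro ⟨c, p⟩ hc
    have hcb : c ≠ b := by
      intro h
      exact hc ⟨p, by rw [h]⟩
    change ‖iofn b w ((c, p.1), p.2)‖ = 0
    unfold iofn
    rw [if_neg hcb, norm_zero]
  have h5 := (bE : (Bool × Y) × L ≃ Bool × (Y × L)).hasSum_iff.2 h1
  exact h5

/-- inclusion as the copy `b`, linear map -/
def ioL (b : Bool) : E (Y × L) →ₗ[ℂ] E ((Bool × Y) × L) where
  toFun w := Emk (iofn b w) (iofn_hasSum b w).summable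
  map_add' v w := E_ext fun p => by
    change iofn b (v + w) p = iofn b v p + iofn b w p
    unfold iofn
    split_ifs
    · rfl
    · rw [add_zero]
  map_smul' c v := E_ext fun p => by
    change iofn b (c • v) p = c * iofn b v p
    unfold iofn
    split_ifs
    · rfl
    · rw [mul_zero]

/-- inclusion as the copy `b` -/
def io (b : Bool) : E (Y × L) →L[ℂ] E ((Bool × Y) × L) :=
  LinearMap.mkContinuous (ioL b) 1 (fun w => by
    rw [one_mul]
    have h : ‖ioL b w‖ = ∑' p, ‖iofn b w p‖ := E_norm _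
    rw [h, (iofn_hasSum b w).tsum_eq])

theorem io_apply (b : Bool) (w : E (Y × L)) (p : (Bool × Y) × L) :
    io b w p = if p.1.1 = b then w (p.1.2, p.2) else 0 := rfl

theorem pi_io_same (b : Bool) (w : E (Y × L)) : pi2 b (io b w) = w := by
  refine E_ext fun p => ?_
  rw [pi2_apply, io_apply, if_pos rfl]

theorem pi_io_ne {b c : Bool} (h : b ≠ c) (w : E (Y × L)) : pi2 c (io b w) = 0 := by
  refine E_ext fun p => ?_
  rw [pi2_apply, io_apply, if_neg (Ne.symm h)]
  rfl

theorem io_pi (v : E ((Bool × Y) × L)) : io true (pi2 true v) + io false (pi2 false v) = v := by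
  refine E_ext fun p => ?_
  obtain ⟨⟨b, y⟩, l⟩ := p
  change io true (pi2 true v) ((b, y), l) + io false (pi2 false v) ((b, y), l) = v ((b, y), l)
  rw [io_apply, io_apply, pi2_apply, pi2_apply]
  cases b <;> simp

theorem io_dl [Group L] (b : Bool) (y : Y) (l : L) :
    io b (dl (y, l) : E (Y × L)) = dl ((b, y), l) := by
  classical
  refine E_ext fun p => ?_
  obtain ⟨⟨c, z⟩, a⟩ := p
  rw [io_apply, dl_apply, dl_apply]
  simp only [Prod.mk.injEq]
  by_cases h : c = b <;> simp [h]

theorem pi_dl_same (b : Bool) (y : Y) (l : L) :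
    pi2 b (dl ((b, y), l) : E ((Bool × Y) × L)) = dl (y, l) := by
  classical
  refine E_ext fun p => ?_
  obtain ⟨z, a⟩ := p
  rw [pi2_apply, dl_apply, dl_apply]
  simp only [Prod.mk.injEq, true_and]

theorem pi_dl_ne {b c : Bool} (h : b ≠ c) (y : Y) (l : L) :
    pi2 c (dl ((b, y), l) : E ((Bool × Y) × L)) = 0 := by
  classical
  refine E_ext fun p => ?_
  obtain ⟨z, a⟩ := p
  rw [pi2_apply, dl_apply]
  simp only [Prod.mk.injEq]
  rw [if_neg fun h2 => h h2.1.1.symm]
  rfl

/-! ### block operators -/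

/-- the block operator with one nonzero block -/
def blk (b c : Bool) (T : E (Y × L) →L[ℂ] E (Y × L)) :
    E ((Bool × Y) × L) →L[ℂ] E ((Bool × Y) × L) := (io b).comp (T.comp (pi2 c))

theorem blk_apply (b c : Bool) (T : E (Y × L) →L[ℂ] E (Y × L)) (v : E ((Bool × Y) × L)) :
    blk b c T v = io b (T (pi2 c v)) := rfl

theorem blk_mul_same (a b c : Bool) (T W : E (Y × L) →L[ℂ] E (Y × L)) :
    blk a b T * blk b c W = blk a c (T * W) := by
  refine ContinuousLinearMap.ext fun v => ?_
  change io a (T (pi2 b (io b (W (pi2 c v))))) = io a (T (W (pi2 c v)))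
  rw [pi_io_same]

theorem blk_mul_ne {b b' : Bool} (h : b ≠ b') (a c : Bool) (T W : E (Y × L) →L[ℂ] E (Y × L)) :
    blk a b T * blk b' c W = 0 := by
  refine ContinuousLinearMap.ext fun v => ?_
  change io a (T (pi2 b (io b' (W (pi2 c v))))) = 0
  rw [pi_io_ne (Ne.symm h), map_zero, map_zero]

theorem blk_add (b c : Bool) (T W : E (Y × L) →L[ℂ] E (Y × L)) :
    blk b c T + blk b c W = blk b c (T + W) := by
  refine ContinuousLinearMap.ext fun v => ?_
  change io b (T (pi2 c v)) + io b (W (pi2 c v)) = io b (T (pi2 c v) + W (pi2 c v))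
  rw [map_add]

theorem blk_sub (b c : Bool) (T W : E (Y × L) →L[ℂ] E (Y × L)) :
    blk b c T - blk b c W = blk b c (T - W) := by
  refine ContinuousLinearMap.ext fun v => ?_
  change io b (T (pi2 c v)) - io b (W (pi2 c v)) = io b (T (pi2 c v) - W (pi2 c v))
  rw [map_sub]

theorem blk_zero (b c : Bool) : blk b c (0 : E (Y × L) →L[ℂ] E (Y × L)) = 0 := by
  refine ContinuousLinearMap.ext fun v => ?_
  change io b (0 : E (Y × L)) = 0
  rw [map_zero]

theorem blk_one : blk true true (1 : E (Y × L) →L[ℂ] E (Y × L)) + blk false false 1 = 1 := by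
  refine ContinuousLinearMap.ext fun v => ?_
  exact io_pi v

theorem blk_P0 : blk true true (1 : E (Y × L) →L[ℂ] E (Y × L)) = P0 {z | z.1 = true} := by
  classical
  refine ContinuousLinearMap.ext fun v => E_ext fun p => ?_
  obtain ⟨⟨b, y⟩, l⟩ := p
  change io true (pi2 true v) ((b, y), l) = _
  rw [io_apply, P0_apply, pi2_apply]
  cases b <;> simp

theorem blk_entry_same [Group L] (b c : Bool) (T : E (Y × L) →L[ℂ] E (Y × L)) (y z : Y) (l a : L) :
    blk b c T (dl ((c, y), l)) ((b, z), a) = T (dl (y, l)) (z, a) := by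
  rw [blk_apply, pi_dl_same, io_apply, if_pos rfl]

theorem blk_entry_ne [Group L] (b c : Bool) (T : E (Y × L) →L[ℂ] E (Y × L)) (b' c' : Bool)
    (h : b ≠ b' ∨ c ≠ c') (y z : Y) (l a : L) :
    blk b c T (dl ((c', y), l)) ((b', z), a) = 0 := by
  rw [blk_apply, io_apply]
  rcases h with h | h
  · rw [if_neg (Ne.symm h)]
  · rw [pi_dl_ne (Ne.symm h), map_zero]
    split_ifs <;> rfl

theorem eqv_blk [Group L] (b c : Bool) {T : E (Y × L) →L[ℂ] E (Y × L)} (hT : Eqv T) :
    Eqv (blk b c T) := by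
  rintro ⟨c', y⟩ l ⟨b', z⟩ a m
  by_cases h : b = b' ∧ c = c'
  · obtain ⟨rfl, rfl⟩ := h
    rw [blk_entry_same, blk_entry_same, hT]
  · have h2 : b ≠ b' ∨ c ≠ c' := by
      by_contra h3
      push Not at h3
      exact h h3
    rw [blk_entry_ne b c T b' c' h2, blk_entry_ne b c T b' c' h2]

theorem pr_blk (b c : Bool) (T : E (Y × L) →L[ℂ] E (Y × L)) (z : Y) (v : E ((Bool × Y) × L)) :
    pr (b, z) (blk b c T v) = pr z (T (pi2 c v)) := by
  refine E_ext fun l => ?_
  rw [pr_apply, blk_apply, io_apply, if_pos rfl]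
  rfl

theorem pr_blk_ne {b b' : Bool} (h : b ≠ b') (c : Bool) (T : E (Y × L) →L[ℂ] E (Y × L)) (z : Y)
    (v : E ((Bool × Y) × L)) : pr (b', z) (blk b c T v) = 0 := by
  refine E_ext fun l => ?_
  rw [pr_apply, blk_apply, io_apply, if_neg (Ne.symm h)]
  rfl

theorem norm_pi2_le (c : Bool) (v : E ((Bool × Y) × L)) : ‖pi2 c v‖ ≤ ‖v‖ := by
  have h := (pi2 c : E ((Bool × Y) × L) →L[ℂ] E (Y × L)).le_of_opNorm_le
    (LinearMap.mkContinuous_norm_le _ zero_le_one _) v
  rwa [one_mul] at h

theorem nucL_blk (b c : Bool) {T : E (Y × L) →L[ℂ] E (Y × L)} (hT : NucL T) :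
    NucL (blk b c T) := by
  have hinj : Function.Injective fun y : Y => (b, y) := fun _ _ h => (Prod.mk.inj h).2
  have h1 : Summable fun y : Y => ‖(pr (b, y)).comp (blk b c T)‖ := by
    refine Summable.of_nonneg_of_le (fun y => norm_nonneg _) (fun y => ?_) hT
    refine ContinuousLinearMap.opNorm_le_bound _ (norm_nonneg _) fun v => ?_
    change ‖pr (b, y) (blk b c T v)‖ ≤ _
    rw [pr_blk]
    refine (((pr y).comp T).le_opNorm (pi2 c v)).trans ?_
    exact mul_le_mul_of_nonneg_left (norm_pi2_le c v) (norm_nonneg _)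
  refine (hinj.summable_iff (f := fun y : Bool × Y => ‖(pr y).comp (blk b c T)‖) ?_).1 h1
  rintro ⟨b', y⟩ hb
  have hne : b ≠ b' := by
    intro h
    exact hb ⟨y, by rw [h]⟩
  have h2 : (pr (b', y)).comp (blk b c T) = 0 := by
    refine ContinuousLinearMap.ext fun v => ?_
    exact pr_blk_ne hne c T y v
  rw [h2, norm_zero]

theorem trD_blk [Group L] (b : Bool) (T : E (Y × L) →L[ℂ] E (Y × L)) (D : ConjClasses L) :
    trD D (blk b b T) = trD D T := by
  have hinj : Function.Injective fun y : Y => (b, y) := fun _ _ h => (Prod.mk.inj h).2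
  rw [trD_eq, trD_eq]
  have h1 := hinj.tsum_eq (f := fun y : Bool × Y =>
    tD D (pr y (blk b b T (dl (y, 1))))) (by
      rintro ⟨b', y⟩ hy
      by_contra h
      have hne : b ≠ b' := fun h2 => h ⟨y, by rw [h2]⟩
      refine hy ?_
      change tD D (pr (b', y) (blk b b T (dl ((b', y), 1)))) = 0
      rw [pr_blk_ne hne, map_zero])
  rw [← h1]
  refine tsum_congr fun y => ?_
  rw [pr_blk, pi_dl_same]

/-! ### the main theorem -/

/-- cyclicity -/
def Cyc (Y : Type u) (L : Type v) [Group L] : Prop :=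
  ∀ K B : E (Y × L) →L[ℂ] E (Y × L), NucL K → Eqv K → Eqv B → ∀ D : ConjClasses L,
    trD D (B * K) = trD D (K * B)

theorem pOp_of [Group L] (hnear : Near (Bool × Y) L) (hcyc : Cyc (Bool × Y) L)
    (P P' : E (Y × L) →L[ℂ] E (Y × L)) (hP : P * P = P) (hP' : P' * P' = P')
    (eP : Eqv P) (eP' : Eqv P') (hN : NucL (P' - P)) :
    ∃ (N : ℕ) (f f' : Matrix (Fin N) (Fin N) (L → ℂ)), IsIdem f ∧ IsIdem f' ∧
      ∀ D, tau D f' - tau D f = trD D (P' - P) := by
  have tf : true ≠ false := Bool.noConfusion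
  have ft : false ≠ true := Bool.noConfusion
  set R : E (Y × L) →L[ℂ] E (Y × L) := 1 - P with hR
  have hPR : P * R = 0 := by rw [hR, mul_sub, mul_one, hP, sub_self]
  have hRP : R * P = 0 := by rw [hR, sub_mul, one_mul, hP, sub_self]
  have hRR : R * R = R := by
    have : R * R = R - P * R := by rw [hR]; noncomm_ring
    rw [this, hPR, sub_zero]
  have hPpR : P + R = 1 := by rw [hR]; abel
  have eR : Eqv R := eqv_sub eqv_one eP
  set U : E ((Bool × Y) × L) →L[ℂ] E ((Bool × Y) × L) :=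
    blk true true P + blk true false R + blk false true R + blk false false P with hU
  have eU : Eqv U := eqv_add (eqv_add (eqv_add (eqv_blk _ _ eP) (eqv_blk _ _ eR))
    (eqv_blk _ _ eR)) (eqv_blk _ _ eP)
  have hUU : U * U = 1 := by
    rw [hU]
    simp only [mul_add, add_mul, blk_mul_same, blk_mul_ne tf, blk_mul_ne ft, hP, hPR, hRP, hRR,
      blk_zero, add_zero, zero_add]
    rw [← blk_one (Y := Y) (L := L), ← hPpR, ← blk_add, ← blk_add]
    abel
  set W : E ((Bool × Y) × L) →L[ℂ] E ((Bool × Y) × L) :=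
    blk true true P' + blk false false R with hW
  have eW : Eqv W := eqv_add (eqv_blk _ _ eP') (eqv_blk _ _ eR)
  have hWW : W * W = W := by
    rw [hW]
    simp only [mul_add, add_mul, blk_mul_same, blk_mul_ne tf, blk_mul_ne ft, hP', hRR,
      add_zero, zero_add]
  have hW0 : U * (blk true true P + blk false false R) * U = P0 {z | z.1 = true} := by
    rw [← blk_P0, hU]
    simp only [mul_add, add_mul, blk_mul_same, blk_mul_ne tf, blk_mul_ne ft, hP, hPR, hRP, hRR,
      blk_zero, add_zero, zero_add]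
    rw [← hPpR, ← blk_add]
  set Q := U * W * U with hQ
  have hQQ : Q * Q = Q := by
    have : Q * Q = U * W * (U * U) * W * U := by rw [hQ]; noncomm_ring
    rw [this, hUU, mul_one]
    have : U * W * W * U = U * (W * W) * U := by noncomm_ring
    rw [this, hWW]
  have eQ : Eqv Q := eqv_mul (eqv_mul eU eW) eU
  have hdiff : Q - P0 {z | z.1 = true} = U * (blk true true (P' - P) * U) := by
    have h5 := blk_sub true true P' P
    rw [← hW0, hQ, hW, ← h5]
    noncomm_ring
  have hNb : NucL (blk true true (P' - P)) := nucL_blk true true hN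
  have eNb : Eqv (blk true true (P' - P)) := eqv_blk _ _ (eqv_sub eP' eP)
  have hN1 : NucL (blk true true (P' - P) * U) := nucL_mul hNb U
  have hNQ : NucL (Q - P0 {z | z.1 = true}) := by
    rw [hdiff]
    exact nucL_mul_left hN1 eU
  obtain ⟨N, f, f', hf, hf', h⟩ := pOp1 hnear {z | z.1 = true} Q hQQ eQ hNQ
  refine ⟨N, f, f', hf, hf', fun D => ?_⟩
  rw [h D, hdiff, hcyc _ U hN1 (eqv_mul eNb eU) eU, mul_assoc, hUU, mul_one, trD_blk]

end Vale.Agent.P184.H856
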