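import Vale.Agent.P184.H856.POp
import Vale.Agent.P184.H847.Newt

/-!
# P184: Newton's method in a closed corner
-/

noncomputable section

namespace Vale.Agent.P184.H856

open Filter Topology
open Vale.Agent.P184.H13 (E dl co E_summable E_norm Emk E_ext dl_apply dl_self)
open Vale.Agent.P184.H847 (nw nwS nwS_defect nwS_step)

universe u v w

section Ring

variable {R : Type*} [NormedRing R]

theorem nw_coset {E₀ : R} (hE : E₀ * E₀ = E₀) (C : AddSubgroup R)
    (hmul : ∀ a ∈ C, ∀ b ∈ C, a * b ∈ C) (hl : ∀ a ∈ C, E₀ * a ∈ C) (hr : ∀ a ∈ C, a * E₀ ∈ C)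
    {x : R} (hx : x - E₀ ∈ C) : nw x - E₀ ∈ C := by
  obtain ⟨n, hn, hxn⟩ : ∃ n ∈ C, x = E₀ + n := ⟨x - E₀, hx, by abel⟩
  have hm : E₀ * n + n * E₀ + n * n ∈ C :=
    C.add_mem (C.add_mem (hl n hn) (hr n hn)) (hmul n hn n hn)
  set m := E₀ * n + n * E₀ + n * n with hmdef
  have h2 : x * x = E₀ + m := by
    rw [hxn, hmdef, add_mul, mul_add, mul_add, hE]
    abel
  have h3 : x * x * x = E₀ + (E₀ * n + m * E₀ + m * n) := by
    rw [h2, hxn, add_mul, mul_add, mul_add, hE]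
    abel
  have hk : E₀ * n + m * E₀ + m * n ∈ C :=
    C.add_mem (C.add_mem (hl n hn) (hr m hm)) (hmul m hm n hn)
  set k := E₀ * n + m * E₀ + m * n with hkdef
  have h4 : nw x - E₀ = m + m + m - (k + k) := by
    unfold nw
    rw [h3, h2]
    noncomm_ring
  rw [h4]
  exact C.sub_mem (C.add_mem (C.add_mem hm hm) hm) (C.add_mem hk hk)

theorem newton_coset [NormOneClass R] [CompleteSpace R] {E₀ : R} (hE : E₀ * E₀ = E₀)
    (C : AddSubgroup R) (hC : IsClosed (C : Set R))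
    (hmul : ∀ a ∈ C, ∀ b ∈ C, a * b ∈ C) (hl : ∀ a ∈ C, E₀ * a ∈ C) (hr : ∀ a ∈ C, a * E₀ ∈ C)
    {x : R} (hx : x - E₀ ∈ C) (h : ‖x * x - x‖ ≤ 1 / 16) :
    ∃ z : R, z * z = z ∧ z - E₀ ∈ C ∧ ‖z - x‖ ≤ 3 * (2 * ‖x‖ + 1) * ‖x * x - x‖ := by
  set A : ℝ := 2 * (2 * ‖x‖ + 1) * ‖x * x - x‖ with hA
  have hA0 : 0 ≤ A := by positivity
  have hstep : ∀ n, dist (nwS x n) (nwS x (n + 1)) ≤ A * (1 / 4) ^ n := by
    intro n
    rw [dist_comm, dist_eq_norm]
    exact nwS_step x h n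
  have hcau : CauchySeq (nwS x) :=
    cauchySeq_of_le_geometric (1 / 4 : ℝ) A (by norm_num) hstep
  obtain ⟨z, hz⟩ := cauchySeq_tendsto_of_complete hcau
  have hmem : ∀ n, nwS x n - E₀ ∈ C := by
    intro n
    induction n with
    | zero => exact hx
    | succ n ih => exact nw_coset hE C hmul hl hr ih
  refine ⟨z, ?_, ?_, ?_⟩
  · have h1 : Tendsto (fun n => nwS x n * nwS x n - nwS x n) atTop (𝓝 (z * z - z)) :=
      (hz.mul hz).sub hz
    have h2 : Tendsto (fun n => nwS x n * nwS x n - nwS x n) atTop (𝓝 0) := by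
      refine squeeze_zero_norm (fun n => nwS_defect x h n) ?_
      have h3 : Tendsto (fun n : ℕ => (1 / 4 : ℝ) ^ n) atTop (𝓝 0) :=
        tendsto_pow_atTop_nhds_zero_of_lt_one (by norm_num) (by norm_num)
      have h4 := h3.mul_const ‖x * x - x‖
      rwa [zero_mul] at h4
    exact sub_eq_zero.1 (tendsto_nhds_unique h1 h2)
  · exact hC.mem_of_tendsto (hz.sub_const E₀) (Eventually.of_forall hmem)
  · have h1 := dist_le_of_le_geometric_of_tendsto₀ (1 / 4 : ℝ) A (by norm_num) hstep hz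
    rw [dist_comm, dist_eq_norm] at h1
    refine h1.trans ?_
    rw [hA]
    have h5 : 0 ≤ (2 * ‖x‖ + 1) * ‖x * x - x‖ := by positivity
    change A / (1 - 1 / 4) ≤ _
    rw [hA]
    have h6 : 2 * (2 * ‖x‖ + 1) * ‖x * x - x‖ / (1 - 1 / 4) =
        8 / 3 * ((2 * ‖x‖ + 1) * ‖x * x - x‖) := by ring
    rw [h6]
    nlinarith

end Ring

section Corner

variable {Y : Type u} {L : Type v} [Group L]

/-- equivariant operators supported on `F`, with entries in `N` -/
def cornerG (F : Set Y) (N : Subgroup L) :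
    AddSubgroup (E ((Bool × Y) × L) →L[ℂ] E ((Bool × Y) × L)) where
  carrier := {S | Eqv S ∧ ∀ (b c : Bool) (y z : Y) (l : L),
    S (dl ((b, y), 1)) ((c, z), l) ≠ 0 → y ∈ F ∧ z ∈ F ∧ l ∈ N}
  zero_mem' := ⟨fun _ _ _ _ _ => rfl, fun b c y z l h => absurd rfl h⟩
  add_mem' := by
    rintro S T ⟨eS, hS⟩ ⟨eT, hT⟩
    refine ⟨eqv_add eS eT, fun b c y z l h => ?_⟩
    by_cases h1 : S (dl ((b, y), 1)) ((c, z), l) = 0
    · refine hT b c y z l fun h2 => h ?_
      change S (dl ((b, y), 1)) ((c, z), l) + T (dl ((b, y), 1)) ((c, z), l) = 0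
      rw [h1, h2, add_zero]
    · exact hS b c y z l h1
  neg_mem' := by
    rintro S ⟨eS, hS⟩
    refine ⟨eqv_neg eS, fun b c y z l h => hS b c y z l fun h2 => h ?_⟩
    change -S (dl ((b, y), 1)) ((c, z), l) = 0
    rw [h2, neg_zero]

theorem mem_cornerG {F : Set Y} {N : Subgroup L} {S : E ((Bool × Y) × L) →L[ℂ] E ((Bool × Y) × L)} :
    S ∈ cornerG F N ↔ Eqv S ∧ ∀ (b c : Bool) (y z : Y) (l : L),
      S (dl ((b, y), 1)) ((c, z), l) ≠ 0 → y ∈ F ∧ z ∈ F ∧ l ∈ N := Iff.rfl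

/-- the entries out of an arbitrary point -/
theorem cornerG_entry {F : Set Y} {N : Subgroup L}
    {S : E ((Bool × Y) × L) →L[ℂ] E ((Bool × Y) × L)} (hS : S ∈ cornerG F N)
    {b c : Bool} {y z : Y} {l a : L} (h : S (dl ((b, y), l)) ((c, z), a) ≠ 0) :
    y ∈ F ∧ z ∈ F ∧ a * l⁻¹ ∈ N := by
  refine hS.2 b c y z (a * l⁻¹) ?_
  have h1 := hS.1 (b, y) 1 (c, z) (a * l⁻¹) l
  rw [one_mul, inv_mul_cancel_right] at h1
  rwa [← h1]

theorem cornerG_closed (F : Set Y) (N : Subgroup L) :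
    IsClosed (cornerG F N : Set (E ((Bool × Y) × L) →L[ℂ] E ((Bool × Y) × L))) := by
  have h : (cornerG F N : Set (E ((Bool × Y) × L) →L[ℂ] E ((Bool × Y) × L))) =
      {S | Eqv S} ∩ ⋂ (b : Bool) (c : Bool) (y : Y) (z : Y) (l : L)
        (_ : ¬ (y ∈ F ∧ z ∈ F ∧ l ∈ N)),
        {S : E ((Bool × Y) × L) →L[ℂ] E ((Bool × Y) × L) | S (dl ((b, y), 1)) ((c, z), l) = 0} := by
    ext S
    simp only [SetLike.mem_coe, mem_cornerG, Set.mem_inter_iff, Set.mem_setOf_eq, Set.mem_iInter]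
    refine and_congr_right fun _ => ⟨fun h b c y z l h1 => ?_, fun h b c y z l h1 => ?_⟩
    · by_contra h2
      exact h1 (h b c y z l h2)
    · by_contra h2
      exact h1 (h b c y z l h2)
  rw [h]
  refine eqv_closed.inter ?_
  refine isClosed_iInter fun b => isClosed_iInter fun c => isClosed_iInter fun y =>
    isClosed_iInter fun z => isClosed_iInter fun l => isClosed_iInter fun _ => ?_
  refine isClosed_eq ?_ continuous_const
  exact (co ((c, z), l)).continuous.comp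
    (ContinuousLinearMap.apply ℂ (E ((Bool × Y) × L)) (dl ((b, y), 1))).continuous

theorem cornerG_mul {F : Set Y} {N : Subgroup L}
    {S T : E ((Bool × Y) × L) →L[ℂ] E ((Bool × Y) × L)} (hS : S ∈ cornerG F N)
    (hT : T ∈ cornerG F N) : S * T ∈ cornerG F N := by
  refine ⟨eqv_mul hS.1 hT.1, fun b c y z l h => ?_⟩
  have h1 : ∃ r : (Bool × Y) × L, T (dl ((b, y), 1)) r * S (dl r) ((c, z), l) ≠ 0 := by
    by_contra h2
    push Not at h2
    refine h ?_
    rw [← (mul_entry S T ((b, y), 1) ((c, z), l)).tsum_eq]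
    exact (tsum_congr h2).trans tsum_zero
  obtain ⟨⟨⟨d, x⟩, a⟩, h1⟩ := h1
  obtain ⟨h3, h4, h5⟩ := cornerG_entry hT (left_ne_zero_of_mul h1)
  obtain ⟨h6, h7, h8⟩ := cornerG_entry hS (right_ne_zero_of_mul h1)
  refine ⟨h3, h7, ?_⟩
  have h9 : l = l * a⁻¹ * (a * 1⁻¹) := by group
  rw [h9]
  exact N.mul_mem h8 h5

theorem eqv_E0 : Eqv (blk true true (1 : E (Y × L) →L[ℂ] E (Y × L))) := eqv_blk _ _ eqv_one

theorem E0_idem : blk true true (1 : E (Y × L) →L[ℂ] E (Y × L)) * blk true true 1 =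
    blk true true 1 := by
  rw [blk_mul_same, one_mul]

theorem E0_entry (v : E ((Bool × Y) × L)) (c : Bool) (z : Y) (l : L) :
    blk true true (1 : E (Y × L) →L[ℂ] E (Y × L)) v ((c, z), l) =
      if c = true then v ((c, z), l) else 0 := by
  rw [blk_apply, io_apply]
  split_ifs with h
  · change pi2 true v (z, l) = _
    rw [pi2_apply, ← h]
  · rfl

theorem E0_dl (b : Bool) (y : Y) (l : L) :
    blk true true (1 : E (Y × L) →L[ℂ] E (Y × L)) (dl ((b, y), l)) =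
      if b = true then dl ((b, y), l) else 0 := by
  rw [blk_apply]
  split_ifs with h
  · subst h
    rw [pi_dl_same]
    exact io_dl true y l
  · rw [pi_dl_ne h, map_zero, map_zero]

theorem cornerG_left {F : Set Y} {N : Subgroup L}
    {S : E ((Bool × Y) × L) →L[ℂ] E ((Bool × Y) × L)} (hS : S ∈ cornerG F N) :
    blk true true 1 * S ∈ cornerG F N := by
  refine ⟨eqv_mul eqv_E0 hS.1, fun b c y z l h => hS.2 b c y z l fun h1 => h ?_⟩
  change blk true true (1 : E (Y × L) →L[ℂ] E (Y × L)) (S (dl ((b, y), 1))) ((c, z), l) = 0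
  rw [E0_entry, h1, ite_self]

theorem cornerG_right {F : Set Y} {N : Subgroup L}
    {S : E ((Bool × Y) × L) →L[ℂ] E ((Bool × Y) × L)} (hS : S ∈ cornerG F N) :
    S * blk true true 1 ∈ cornerG F N := by
  refine ⟨eqv_mul hS.1 eqv_E0, fun b c y z l h => hS.2 b c y z l fun h1 => h ?_⟩
  change S (blk true true (1 : E (Y × L) →L[ℂ] E (Y × L)) (dl ((b, y), 1))) ((c, z), l) = 0
  rw [E0_dl]
  split_ifs
  · exact h1
  · rw [map_zero]; rfl

/-- Newton's method in a corner, general index sets -/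
theorem newt_corner (F : Set Y) (N : Subgroup L)
    {S : E ((Bool × Y) × L) →L[ℂ] E ((Bool × Y) × L)} (hS : S ∈ cornerG F N)
    (h : ‖(blk true true 1 + S) * (blk true true 1 + S) - (blk true true 1 + S)‖ ≤ 1 / 16) :
    ∃ S' ∈ cornerG F N, (blk true true 1 + S') * (blk true true 1 + S') = blk true true 1 + S' ∧
      ‖S' - S‖ ≤ 3 * (2 * ‖blk true true 1 + S‖ + 1) *
        ‖(blk true true 1 + S) * (blk true true 1 + S) - (blk true true 1 + S)‖ := by
  rcases subsingleton_or_nontrivial (E ((Bool × Y) × L)) with hs | hs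
  · refine ⟨S, hS, ?_, ?_⟩
    · exact Subsingleton.elim _ _
    · rw [sub_self, norm_zero]
      positivity
  · obtain ⟨z, hz1, hz2, hz3⟩ := newton_coset (E₀ := blk true true (1 : E (Y × L) →L[ℂ] E (Y × L)))
      E0_idem (cornerG F N) (cornerG_closed F N) (fun a ha b hb => cornerG_mul ha hb)
      (fun a ha => cornerG_left ha) (fun a ha => cornerG_right ha)
      (x := blk true true 1 + S) (by rw [add_sub_cancel_left]; exact hS) h
    refine ⟨z - blk true true 1, hz2, ?_, ?_⟩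
    · rw [add_sub_cancel]
      exact hz1
    · rw [sub_sub]
      exact hz3

/-- **Row (C).** -/
theorem locC {X : Type u} {q : ℕ} (F : Set X) (N : Subgroup L)
    {S : E ((Bool × (X × Fin q)) × L) →L[ℂ] E ((Bool × (X × Fin q)) × L)} (eS : Eqv S)
    (hS : ∀ (b c : Bool) (x z : X) (i j : Fin q) (l : L),
      S (dl ((b, (x, i)), 1)) ((c, (z, j)), l) ≠ 0 → x ∈ F ∧ z ∈ F ∧ l ∈ N)
    (h : ‖(blk true true 1 + S) * (blk true true 1 + S) - (blk true true 1 + S)‖ ≤ 1 / 16) :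
    ∃ S' : E ((Bool × (X × Fin q)) × L) →L[ℂ] E ((Bool × (X × Fin q)) × L), Eqv S' ∧
      (∀ (b c : Bool) (x z : X) (i j : Fin q) (l : L),
        S' (dl ((b, (x, i)), 1)) ((c, (z, j)), l) ≠ 0 → x ∈ F ∧ z ∈ F ∧ l ∈ N) ∧
      (blk true true 1 + S') * (blk true true 1 + S') = blk true true 1 + S' ∧
      ‖S' - S‖ ≤ 3 * (2 * ‖blk true true 1 + S‖ + 1) *
        ‖(blk true true 1 + S) * (blk true true 1 + S) - (blk true true 1 + S)‖ := by
  obtain ⟨S', h1, h2, h3⟩ := newt_corner {p : X × Fin q | p.1 ∈ F} N (S := S)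
    ⟨eS, fun b c y z l h => by
      obtain ⟨x, i⟩ := y
      obtain ⟨z, j⟩ := z
      exact hS b c x z i j l h⟩ h
  exact ⟨S', h1.1, fun b c x z i j l h => h1.2 b c (x, i) (z, j) l h, h2, h3⟩

end Corner

end Vale.Agent.P184.H856
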