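import Vale.Agent.P184.H856.POp

/-!
# P184: cyclicity of the trace, near idempotents, the operator theorem
-/

noncomputable section

namespace Vale.Agent.P184.H856

open Filter Topology
open Vale.Agent.P184 (IsIdem tau)
open Vale.Agent.P184.H13 (E dl co E_summable E_norm Emk Emk_apply E_ext dl_apply dl_self
  norm_apply_le)
open Vale.Agent.P184.H847 (hasSum_dl hasSum_clm hasSum_nrm norm_dl)

universe u v

variable {Y : Type u} {L : Type v} [Group L]

/-- the indicator of the class `D` -/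
def ind (D : ConjClasses L) (l : L) : ℂ := by
  classical exact if ConjClasses.mk l = D then 1 else 0

theorem norm_ind_le (D : ConjClasses L) (l : L) : ‖ind D l‖ ≤ 1 := by
  unfold ind
  split_ifs
  · rw [norm_one]
  · rw [norm_zero]; exact zero_le_one

theorem ind_comm (D : ConjClasses L) (a m : L) : ind D (a * m) = ind D (m * a) := by
  have h : ConjClasses.mk (a * m) = ConjClasses.mk (m * a) := by
    rw [ConjClasses.mk_eq_mk_iff_isConj, isConj_iff]
    exact ⟨m, by group⟩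
  unfold ind
  rw [h]

theorem tD_ind (D : ConjClasses L) (w : E L) : tD D w = ∑' l, ind D l * w l := by
  classical
  rw [tD_apply, tsum_subtype D.carrier (fun l => w l)]
  refine tsum_congr fun l => ?_
  unfold ind
  by_cases h : l ∈ D.carrier
  · rw [Set.indicator_of_mem h, if_pos (ConjClasses.mem_carrier_iff_mk_eq.1 h), one_mul]
  · rw [Set.indicator_of_notMem h, if_neg fun h2 => h (ConjClasses.mem_carrier_iff_mk_eq.2 h2),
      zero_mul]

theorem tD_col {K : E (Y × L) →L[ℂ] E (Y × L)} (eK : Eqv K) (D : ConjClasses L) (y z : Y)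
    (m : L) : tD D (pr z (K (dl (y, m)))) =
      ∑' a, ind D (a * m) * K (dl (y, 1)) (z, a) := by
  rw [tD_ind]
  have he := (Equiv.mulRight m).tsum_eq (fun l => ind D l * pr z (K (dl (y, m))) l)
  rw [← he]
  refine tsum_congr fun a => ?_
  change ind D (a * m) * K (dl (y, m)) (z, a * m) = _
  have h := eK y 1 z a m
  rw [one_mul] at h
  rw [h]

/-- the triple series -/
def tri (K B : E (Y × L) →L[ℂ] E (Y × L)) (D : ConjClasses L) (p : (Y × (Y × L)) × L) : ℂ :=
  B (dl (p.1.1, 1)) p.1.2 * (ind D (p.2 * p.1.2.2) * K (dl (p.1.2.1, 1)) (p.1.1, p.2))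

theorem tri_le (K B : E (Y × L) →L[ℂ] E (Y × L)) (D : ConjClasses L) (p : (Y × (Y × L)) × L) :
    ‖tri K B D p‖ ≤ ‖B (dl (p.1.1, 1)) p.1.2‖ * ‖K (dl (p.1.2.1, 1)) (p.1.1, p.2)‖ := by
  unfold tri
  rw [norm_mul, norm_mul]
  refine mul_le_mul_of_nonneg_left ?_ (norm_nonneg _)
  have h := mul_le_mul_of_nonneg_right (norm_ind_le D (p.2 * p.1.2.2))
    (norm_nonneg (K (dl (p.1.2.1, 1)) (p.1.1, p.2)))
  rwa [one_mul] at h

theorem tri_summable {K : E (Y × L) →L[ℂ] E (Y × L)} (hK : NucL K)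
    (B : E (Y × L) →L[ℂ] E (Y × L)) (D : ConjClasses L) : Summable (tri K B D) := by
  have hb : ∀ z : Y, Summable fun r : Y × L => ‖B (dl (z, 1)) r‖ := fun z => E_summable _
  have hb2 : ∀ z : Y, ∑' r : Y × L, ‖B (dl (z, 1)) r‖ ≤ ‖B‖ := by
    intro z
    rw [← E_norm]
    have h2 := B.le_opNorm (dl (z, 1))
    rwa [norm_dl, mul_one] at h2
  have h0 : ∀ z : Y, Summable fun r : Y × L => ‖(pr z).comp K‖ * ‖B (dl (z, 1)) r‖ :=
    fun z => (hb z).mul_left _
  have h00 : Summable fun z : Y => ∑' r : Y × L, ‖(pr z).comp K‖ * ‖B (dl (z, 1)) r‖ := by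
    refine Summable.of_nonneg_of_le (fun z => tsum_nonneg fun y =>
      mul_nonneg (norm_nonneg _) (norm_nonneg _)) (fun z => ?_) (Summable.mul_right ‖B‖ hK)
    rw [tsum_mul_left]
    exact mul_le_mul_of_nonneg_left (hb2 z) (norm_nonneg _)
  have h1 : Summable fun q : Y × (Y × L) => ‖(pr q.1).comp K‖ * ‖B (dl (q.1, 1)) q.2‖ :=
    (summable_prod_of_nonneg
      (fun q : Y × (Y × L) => mul_nonneg (norm_nonneg _) (norm_nonneg _))).2 ⟨h0, h00⟩
  have hk : ∀ q : Y × (Y × L), HasSum (fun a : L => ‖K (dl (q.2.1, 1)) (q.1, a)‖)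
      ‖pr q.1 (K (dl (q.2.1, 1)))‖ := fun q => hasSum_nrm (pr q.1 (K (dl (q.2.1, 1))))
  have h2 : ∀ q : Y × (Y × L), Summable fun a : L =>
      ‖B (dl (q.1, 1)) q.2‖ * ‖K (dl (q.2.1, 1)) (q.1, a)‖ := fun q => (hk q).summable.mul_left _
  have h3 : Summable fun q : Y × (Y × L) => ∑' a : L,
      ‖B (dl (q.1, 1)) q.2‖ * ‖K (dl (q.2.1, 1)) (q.1, a)‖ := by
    refine Summable.of_nonneg_of_le (fun q => tsum_nonneg fun a =>
      mul_nonneg (norm_nonneg _) (norm_nonneg _)) (fun q => ?_) h1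
    rw [tsum_mul_left, (hk q).tsum_eq, mul_comm]
    refine mul_le_mul_of_nonneg_right ?_ (norm_nonneg _)
    have h := ((pr q.1).comp K).le_opNorm (dl (q.2.1, 1))
    rwa [norm_dl, mul_one] at h
  have h4 : Summable fun p : (Y × (Y × L)) × L =>
      ‖B (dl (p.1.1, 1)) p.1.2‖ * ‖K (dl (p.1.2.1, 1)) (p.1.1, p.2)‖ :=
    (summable_prod_of_nonneg
      (fun p : (Y × (Y × L)) × L => mul_nonneg (norm_nonneg _) (norm_nonneg _))).2 ⟨h2, h3⟩
  exact Summable.of_norm_bounded h4 (tri_le K B D)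

theorem trD_KB {K B : E (Y × L) →L[ℂ] E (Y × L)} (hK : NucL K) (eK : Eqv K)
    (D : ConjClasses L) : trD D (K * B) = ∑' p, tri K B D p := by
  have hs := tri_summable hK B D
  rw [hs.tsum_prod, hs.prod.tsum_prod, trD_eq]
  refine tsum_congr fun z => ?_
  have h1 := hasSum_clm (((tD D).comp (pr z)).comp K) (B (dl (z, 1)))
  change tD D (pr z (K (B (dl (z, 1))))) = _
  rw [show tD D (pr z (K (B (dl (z, 1))))) = ∑' r : Y × L,
    B (dl (z, 1)) r • (((tD D).comp (pr z)).comp K) (dl r) from h1.tsum_eq.symm]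
  refine tsum_congr fun r => ?_
  obtain ⟨y, m⟩ := r
  change B (dl (z, 1)) (y, m) * tD D (pr z (K (dl (y, m)))) = _
  rw [tD_col eK, ← tsum_mul_left]
  rfl

/-- the exchange of the indices -/
def exE : (Y × (Y × L)) × L ≃ (Y × (Y × L)) × L where
  toFun p := ((p.1.2.1, (p.1.1, p.2)), p.1.2.2)
  invFun p := ((p.1.2.1, (p.1.1, p.2)), p.1.2.2)
  left_inv _ := rfl
  right_inv _ := rfl

theorem trD_BK {K B : E (Y × L) →L[ℂ] E (Y × L)} (hK : NucL K) (eB : Eqv B)
    (D : ConjClasses L) : trD D (B * K) = ∑' p, tri K B D p := by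
  have hs := tri_summable hK B D
  have hs2 : Summable ((tri K B D) ∘ (exE : (Y × (Y × L)) × L ≃ (Y × (Y × L)) × L)) :=
    exE.summable_iff.2 hs
  rw [← exE.tsum_eq (tri K B D)]
  have h0 : ∑' p, tri K B D (exE p) =
      ∑' p, ((tri K B D) ∘ (exE : (Y × (Y × L)) × L ≃ (Y × (Y × L)) × L)) p := rfl
  rw [h0, hs2.tsum_prod, hs2.prod.tsum_prod, trD_eq]
  refine tsum_congr fun y => ?_
  have h1 := hasSum_clm (((tD D).comp (pr y)).comp B) (K (dl (y, 1)))
  change tD D (pr y (B (K (dl (y, 1))))) = _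
  rw [show tD D (pr y (B (K (dl (y, 1))))) = ∑' r : Y × L,
    K (dl (y, 1)) r • (((tD D).comp (pr y)).comp B) (dl r) from h1.tsum_eq.symm]
  refine tsum_congr fun r => ?_
  obtain ⟨z, a⟩ := r
  change K (dl (y, 1)) (z, a) * tD D (pr y (B (dl (z, a)))) = _
  rw [tD_col eB, ← tsum_mul_left]
  refine tsum_congr fun m => ?_
  change K (dl (y, 1)) (z, a) * (ind D (m * a) * B (dl (z, 1)) (y, m)) =
    B (dl (z, 1)) (y, m) * (ind D (a * m) * K (dl (y, 1)) (z, a))
  rw [ind_comm D a m]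
  ring

theorem trD_comm {K B : E (Y × L) →L[ℂ] E (Y × L)} (hK : NucL K) (eK : Eqv K) (eB : Eqv B)
    (D : ConjClasses L) : trD D (B * K) = trD D (K * B) := by
  rw [trD_KB hK eK, trD_BK hK eB]

theorem trD_anti {C B : E (Y × L) →L[ℂ] E (Y × L)} (hC : NucL C) (eC : Eqv C) (eB : Eqv B)
    (h : B * C = - (C * B)) (D : ConjClasses L) : trD D (C * B * B) = 0 := by
  have h1 := trD_comm (nucL_mul hC B) (eqv_mul eC eB) eB D
  have h2 : B * (C * B) = - (C * B * B) := by
    rw [← mul_assoc, h, neg_mul]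
  rw [h2, trD_neg] at h1
  have h3 : (2 : ℂ) * trD D (C * B * B) = 0 := by linear_combination -h1
  rcases mul_eq_zero.1 h3 with h4 | h4
  · norm_num at h4
  · exact h4

/-- two idempotents at distance `< 1` with nuclear difference have difference of trace `0` -/
theorem trD_near {P P' : E (Y × L) →L[ℂ] E (Y × L)} (hP : P * P = P) (hP' : P' * P' = P')
    (eP : Eqv P) (eP' : Eqv P') (hN : NucL (P' - P)) (h1 : ‖P' - P‖ < 1) (D : ConjClasses L) :
    trD D (P' - P) = 0 := by
  have eA : Eqv (P' - P) := eqv_sub eP' eP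
  have eB : Eqv (1 - P - P') := eqv_sub (eqv_sub eqv_one eP) eP'
  set A := P' - P with hA
  set B := 1 - P - P' with hB
  have hAB : A * A + B * B = 1 := by
    have : A * A + B * B = 1 - 2 * P - 2 * P' + 2 * (P * P) + 2 * (P' * P') := by
      rw [hA, hB]; noncomm_ring
    rw [this, hP, hP']
    noncomm_ring
  have hanti : B * A = - (A * B) := by
    have : B * A + A * B = (P' - P) - (P' - P) + (P' - P' * P') + (P' - P' * P') +
        (P * P - P) + (P * P - P) := by
      rw [hA, hB]; noncomm_ring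
    rw [hP, hP'] at this
    have h2 : B * A + A * B = 0 := by rw [this]; noncomm_ring
    exact eq_neg_of_add_eq_zero_left h2
  have hodd : ∀ n : ℕ, B * (A * (A * A) ^ n) = - (A * (A * A) ^ n * B) := by
    intro n
    have hc : Commute B (A * A) := by
      change B * (A * A) = A * A * B
      rw [← mul_assoc, hanti, neg_mul, mul_assoc, hanti, mul_neg, neg_neg, mul_assoc]
    have hc' := hc.pow_right n
    rw [← mul_assoc, hanti, neg_mul, mul_assoc, hc'.eq, mul_assoc]
  have epow : ∀ n : ℕ, Eqv (A * (A * A) ^ n) := by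
    intro n
    induction n with
    | zero => simpa using eA
    | succ n ih =>
      rw [pow_succ, ← mul_assoc]
      exact eqv_mul ih (eqv_mul eA eA)
  have hpow : ∀ n : ℕ, trD D (A * (A * A) ^ n) = trD D A := by
    intro n
    induction n with
    | zero => simp
    | succ n ih =>
      rw [← ih]
      have eC := epow n
      set C := A * (A * A) ^ n with hC
      have hCN : NucL C := nucL_mul hN _
      have h3 : A * (A * A) ^ (n + 1) = C * (A * A) := by
        rw [pow_succ, hC, mul_assoc]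
      have h4 : C = C * (A * A) + C * B * B := by
        rw [mul_assoc C B B, ← mul_add, hAB, mul_one]
      rw [h3]
      conv_rhs => rw [h4]
      rw [trD_add (nucL_mul hCN _) (nucL_mul (nucL_mul hCN B) B),
        trD_anti hCN eC eB (hodd n), add_zero]
  have hbd : ∀ n : ℕ, ‖trD D A‖ ≤ (∑' y, ‖(pr y).comp A‖) * (‖A‖ * ‖A‖) ^ n := by
    intro n
    rw [← hpow n]
    refine (trD_norm_le hN _ D).trans ?_
    refine mul_le_mul_of_nonneg_left ?_ (tsum_nonneg fun y => norm_nonneg _)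
    rcases Nat.eq_zero_or_pos n with hn | hn
    · subst hn
      rw [pow_zero, pow_zero]
      exact ContinuousLinearMap.norm_id_le
    · refine (norm_pow_le' _ hn).trans ?_
      exact pow_le_pow_left₀ (norm_nonneg _) (norm_mul_le _ _) n
  have hq : ‖A‖ * ‖A‖ < 1 := by nlinarith [norm_nonneg A]
  have ht : Tendsto (fun n : ℕ => (∑' y, ‖(pr y).comp A‖) * (‖A‖ * ‖A‖) ^ n) atTop
      (𝓝 ((∑' y, ‖(pr y).comp A‖) * 0)) :=
    (tendsto_pow_atTop_nhds_zero_of_lt_one (by positivity) hq).const_mul _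
  rw [mul_zero] at ht
  have := ge_of_tendsto' ht hbd
  exact norm_le_zero_iff.1 this

/-- **Theorem P, operator form.** -/
theorem pOp (P P' : E (Y × L) →L[ℂ] E (Y × L)) (hP : P * P = P) (hP' : P' * P' = P')
    (eP : Eqv P) (eP' : Eqv P') (hN : NucL (P' - P)) :
    ∃ (N : ℕ) (f f' : Matrix (Fin N) (Fin N) (L → ℂ)), IsIdem f ∧ IsIdem f' ∧
      ∀ D, tau D f' - tau D f = trD D (P' - P) :=
  pOp_of (fun _ _ hQ hQ' eQ eQ' hN1 h1 D => trD_near hQ hQ' eQ eQ' hN1 h1 D)
    (fun _ _ hK eK eB D => trD_comm hK eK eB D) P P' hP hP' eP eP' hN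

end Vale.Agent.P184.H856
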