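import Vale.Agent.P184.H856.LocAsm
import Vale.Agent.P184.H856.Cyc
import Vale.Agent.P184.H788.LocAd
import Vale.Agent.P184.H74.LocAD
import Vale.Agent.P184.H977.WI

/-!
# P184: locality of the difference of two cocycles
-/

noncomputable section

namespace Vale.Agent.P184.H856.Loc

open Vale.Agent.P184 (L1Bass)
open Vale.Agent.P184.H856

universe u v w

variable {S : Type w} {B : Type u} {Q : Type v} [Group S] [Group B] [Group Q]

theorem rowA (Y : Type v) (L : Type w) [Group L] : RowA Y L := fun _ _ hP hP' eP eP' hN =>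
  ⟨H74.Loc.zz_idem hP hP', H74.Loc.eqv_zz eP' (eqv_sub eP eP'), H74.Loc.nuc_zz eP' hN,
    fun D => H74.Loc.tr_zz hP' eP' (eqv_sub eP eP') hN D⟩

theorem rowD (Y : Type v) (L : Type w) [Group L] : RowD Y L := by
  intro Z z hZ hz eZ ez hn hs D
  refine trD_near hz hZ ez eZ hn ?_ D
  have h1 : 0 ≤ ‖Z - z‖ * (2 * ‖Z‖) := by positivity
  nlinarith

theorem rowB : RowB.{u, v, w} := fun _ _ _ _ he _ hδ => H788.locB' he hδ

/-- **Locality of the difference of two cocycles.** -/
theorem loc : LOC.{u, v, w} := loc_of rowA rowD rowB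

theorem locW : H977.LocW.{u, v, w} := H788.locW_of loc

/-- **Wreath products with a spectator**, no hypothesis on the torsion of `Q`. -/
theorem wreathS [Infinite Q] : L1Bass (S × H977.RW B Q) ↔ L1Bass (S × Q) ∧
    ∀ s : Q, IsOfFinOrder s → ∀ k, L1Bass (S × H977.RW (Fin k → B) (Subgroup.zpowers s)) :=
  H977.wreathS_all_inf locW

/-- the implication for all top groups -/
theorem wreath_of (hQ : L1Bass (S × Q))
    (h : ∀ s : Q, IsOfFinOrder s → ∀ k, L1Bass (S × H977.RW (Fin k → B) (Subgroup.zpowers s))) :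
    L1Bass (S × H977.RW B Q) :=
  H977.wreath_of_all locW hQ fun s hs => H977.l1Bass_Ss s (h s hs)

end Vale.Agent.P184.H856.Loc
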