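import Vale.Agent.P184.H13.Rows
import Vale.Agent.P184.Bdl.B3

/-!
# P184, row W: the `ℓ¹`-Bass conjecture for wreath products with abelian bottom group
-/

namespace Vale.Agent.P184.H856

open Vale.Agent.P184 Vale.Agent.P184.H13

section Conj

variable {A Q : Type*} [AddCommGroup A] [Group Q]

/-- the functions `g - tl s g` -/
noncomputable def bd (A : Type*) {Q : Type*} [AddCommGroup A] [Group Q] (s : Q) :
    AddSubgroup (Q →₀ A) :=
  (AddMonoidHom.id (Q →₀ A) - Finsupp.mapDomain.addMonoidHom (s * ·)).range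

theorem mem_bd {s : Q} {f : Q →₀ A} : f ∈ bd A s ↔ ∃ g, g - Wr.tl s g = f := Iff.rfl

theorem isConj_iff_bd (t : Wr A Q) : IsConj t (Wr.incl t.pt) ↔ t.fn ∈ bd A t.pt := by
  rw [isConj_comm, isConj_iff, mem_bd]
  constructor
  · rintro ⟨c, hc⟩
    rw [mul_inv_eq_iff_eq_mul] at hc
    have h1 := congrArg Wr.fn hc
    rw [Wr.mul_fn, Wr.mul_fn] at h1
    have h2 : (Wr.incl t.pt : Wr A Q).fn = 0 := rfl
    rw [h2, Wr.tl_zero, add_zero] at h1
    exact ⟨c.fn, sub_eq_of_eq_add h1⟩
  · rintro ⟨g, hg⟩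
    refine ⟨⟨g, 1⟩, ?_⟩
    rw [mul_inv_eq_iff_eq_mul]
    refine Wr.ext ?_ ?_
    · rw [Wr.mul_fn, Wr.mul_fn]
      have h2 : (Wr.incl t.pt : Wr A Q).fn = 0 := rfl
      rw [h2, Wr.tl_zero, add_zero, ← hg]
      simp
    · rw [Wr.mul_pt, Wr.mul_pt]
      change 1 * t.pt = t.pt * 1
      rw [one_mul, mul_one]

theorem D_eq (t : Wr A Q) (x : Q) :
    Wr.coc.D t x = ∑ᶠ u : Subgroup.zpowers t.pt, t.fn (u * x) := by
  have h := finsum_comp_equiv (Equiv.mulLeft (⟨t.pt, Subgroup.mem_zpowers t.pt⟩ :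
    Subgroup.zpowers t.pt)) (f := fun u : Subgroup.zpowers t.pt => t.fn (u * x))
  rw [← h]
  refine finsum_congr fun u => ?_
  change t.fn (t.pt * (u * x)) = t.fn ((t.pt * u) * x)
  rw [mul_assoc]

theorem fin_supp (f : Q →₀ A) (s x : Q) :
    (Function.support fun u : Subgroup.zpowers s => f (u * x)).Finite := by
  have hi : Function.Injective fun u : Subgroup.zpowers s => (u : Q) * x := fun u v h =>
    Subtype.ext (mul_right_cancel h)
  refine (f.support.finite_toSet.preimage hi.injOn).subset fun u hu => ?_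
  exact Finset.mem_coe.2 (Finsupp.mem_support_iff.2 hu)

theorem D_of_bd (t : Wr A Q) (h : t.fn ∈ bd A t.pt) (x : Q) : Wr.coc.D t x = 0 := by
  obtain ⟨g, hg⟩ := mem_bd.1 h
  rw [D_eq, ← hg]
  have h1 : ∀ u : Subgroup.zpowers t.pt, (g - Wr.tl t.pt g) (u * x) =
      g (u * x) - Wr.tl t.pt g (u * x) := fun u => rfl
  rw [finsum_congr h1, finsum_sub_distrib (fin_supp g _ x) (fin_supp (Wr.tl t.pt g) _ x),
    sub_eq_zero]
  have h := finsum_comp_equiv (Equiv.mulLeft (⟨t.pt, Subgroup.mem_zpowers t.pt⟩ :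
    Subgroup.zpowers t.pt)) (f := fun u : Subgroup.zpowers t.pt => Wr.tl t.pt g (u * x))
  rw [← h]
  refine finsum_congr fun u => ?_
  rw [Wr.tl_apply]
  congr 1
  change (u : Q) * x = t.pt⁻¹ * ((t.pt * u) * x)
  group

/-- elements moving point masses by boundaries -/
def mv (A : Type*) {Q : Type*} [AddCommGroup A] [Group Q] (s : Q) : Subgroup Q where
  carrier := {u | ∀ (x : Q) (a : A), Finsupp.single x a - Finsupp.single (u * x) a ∈ bd A s}
  one_mem' := fun x a => by rw [one_mul, sub_self]; exact zero_mem _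
  mul_mem' := fun {u v} hu hv x a => by
    have h := add_mem (hv x a) (hu (v * x) a)
    rwa [sub_add_sub_cancel, ← mul_assoc] at h
  inv_mem' := fun {u} hu x a => by
    have h := neg_mem (hu (u⁻¹ * x) a)
    rwa [neg_sub, mul_inv_cancel_left] at h

theorem self_mem_mv (s : Q) : s ∈ mv A s := by
  intro x a
  refine mem_bd.2 ⟨Finsupp.single x a, ?_⟩
  rw [Wr.tl, Finsupp.mapDomain_single]

theorem zpowers_le_mv (s : Q) : Subgroup.zpowers s ≤ mv A s :=
  Subgroup.zpowers_le.2 (self_mem_mv s)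

open Classical in
theorem bd_of_D (t : Wr A Q) (h : ∀ x, Wr.coc.D t x = 0) : t.fn ∈ bd A t.pt := by
  set s := t.pt with hs
  let R : Setoid Q := QuotientGroup.rightRel (Subgroup.zpowers s)
  let p : Q → Quotient R := fun x => Quotient.mk R x
  have hp : ∀ x y : Q, p x = p y ↔ y * x⁻¹ ∈ Subgroup.zpowers s := fun x y =>
    Quotient.eq.trans QuotientGroup.rightRel_apply
  have h1 : ∀ f : Q →₀ A, f - (f.mapDomain p).mapDomain Quotient.out ∈ bd A s := by
    intro f
    induction f using Finsupp.induction_linear with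
    | zero => simp
    | add f g hf hg =>
      rw [Finsupp.mapDomain_add, Finsupp.mapDomain_add, add_sub_add_comm]
      exact add_mem hf hg
    | single x a =>
      rw [Finsupp.mapDomain_single, Finsupp.mapDomain_single]
      have h2 : p x = p (p x).out := (Quotient.out_eq (p x)).symm
      have h3 := zpowers_le_mv (A := A) s ((hp _ _).1 h2) x a
      rwa [inv_mul_cancel_right] at h3
  have h2 : t.fn.mapDomain p = 0 := by
    ext c
    obtain ⟨x, rfl⟩ : ∃ x, p x = c := Quotient.exists_rep c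
    have h3 := h x
    rw [D_eq, ← hs] at h3
    have hi : Function.Injective fun u : Subgroup.zpowers s => (u : Q) * x := fun u v h =>
      Subtype.ext (mul_right_cancel h)
    rw [← finsum_mem_range (f := fun y => t.fn y) hi, finsum_mem_def,
      finsum_eq_sum_of_support_subset (s := t.fn.support) _ ?_] at h3
    · rw [Finsupp.mapDomain, Finsupp.sum_apply, Finsupp.sum, Finsupp.coe_zero, Pi.zero_apply,
        ← h3]
      refine Finset.sum_congr rfl fun y _ => ?_
      rw [Finsupp.single_apply, Set.indicator_apply]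
      refine if_congr ?_ rfl rfl
      rw [eq_comm, hp]
      constructor
      · intro hy
        exact ⟨⟨_, hy⟩, by simp⟩
      · rintro ⟨u, hu⟩
        rw [← hu]
        simp
    · intro y hy
      rw [Function.mem_support, Set.indicator_apply] at hy
      refine Finset.mem_coe.2 (Finsupp.mem_support_iff.2 fun h0 => hy ?_)
      rw [h0, ite_self]
  have h3 := h1 t.fn
  rwa [h2, Finsupp.mapDomain_zero, sub_zero] at h3

/-- The charges of `t` vanish iff `t` is conjugate to an element of the top group. -/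
theorem D_zero_iff (t : Wr A Q) : (∀ x, Wr.coc.D t x = 0) ↔ IsConj t (Wr.incl t.pt) := by
  rw [isConj_iff_bd]
  exact ⟨bd_of_D t, fun h x => D_of_bd t h x⟩

end Conj

section Bass

variable {A Q : Type*} [AddCommGroup A] [Group Q]

theorem map_proj_incl (C : ConjClasses Q) :
    ConjClasses.map (Wr.proj : Wr A Q →* Q) (ConjClasses.map Wr.incl C) = C := by
  obtain ⟨x, rfl⟩ := ConjClasses.mk_surjective C
  rfl

theorem bass_top (h : L1Bass (Wr A Q)) : L1Bass Q := by
  classical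
  intro q e he
  obtain ⟨b, hb, htau⟩ := pushforward (Wr.incl : Q →* Wr A Q) e he
  obtain ⟨F, hF1, hF2⟩ := h q b hb
  refine ⟨F.image (ConjClasses.map (Wr.proj : Wr A Q →* Q)), ?_, ?_⟩
  · intro C hC
    obtain ⟨D, hD, rfl⟩ := Finset.mem_image.mp hC
    obtain ⟨y, rfl⟩ := ConjClasses.mk_surjective D
    exact isTorsionClass_mk.mpr (Wr.proj.isOfFinOrder (isTorsionClass_mk.mp (hF1 _ hD)))
  · intro C hC
    have h1 : tau (ConjClasses.map (Wr.incl : Q →* Wr A Q) C) b = 0 :=
      hF2 _ fun h2 => hC (Finset.mem_image.mpr ⟨_, h2, map_proj_incl C⟩)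
    rw [← h1, htau]
    refine (tsum_classes_single he Wr.incl _ C rfl fun D hD hne => (hne ?_).elim).symm
    rw [← map_proj_incl (A := A) D, hD, map_proj_incl]

theorem comm_ker (a b : Wr A Q) (ha : Wr.coc.pi a = 1) (hb : Wr.coc.pi b = 1) : Commute a b := by
  have ha' : a.pt = 1 := ha
  have hb' : b.pt = 1 := hb
  refine Wr.ext ?_ ?_
  · rw [Wr.mul_fn, Wr.mul_fn, ha', hb', Wr.tl_one, Wr.tl_one, add_comm]
  · rw [Wr.mul_pt, Wr.mul_pt, ha', hb']

theorem bass_wreath
    (h1 : ∀ t : Wr A Q, ¬ IsOfFinOrder t → (∃ x, Wr.coc.D t x ≠ 0) → VanishesAt t)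
    (h2 : ∀ (q : ℕ) (e : Matrix (Fin q) (Fin q) (Wr A Q → ℂ)), IsIdem e →
      {C : ConjClasses (Wr A Q) | tau C e ≠ 0 ∧
        ∃ t, ConjClasses.mk t = C ∧ ∃ x, Wr.coc.D t x ≠ 0}.Finite)
    (hQ : L1Bass Q) : L1Bass (Wr A Q) := by
  classical
  intro q e he
  obtain ⟨b, hb, htau⟩ := pushforward (Wr.proj : Wr A Q →* Q) e he
  obtain ⟨F₁, hF1, hF2⟩ := hQ q b hb
  have hfin := h2 q e he
  set F₂ := hfin.toFinset with hF
  have hmem : ∀ t : Wr A Q, tau (ConjClasses.mk t) e ≠ 0 → (∃ x, Wr.coc.D t x ≠ 0) →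
      ConjClasses.mk t ∈ F₂ := fun t ht hx => hfin.mem_toFinset.2 ⟨ht, t, rfl, hx⟩
  have htor : ∀ C ∈ F₂, IsTorsionClass C := by
    intro C hC
    obtain ⟨hC1, t, rfl, hx⟩ := hfin.mem_toFinset.1 hC
    refine isTorsionClass_mk.mpr (by_contra fun h3 => hC1 (h1 t h3 hx q e he))
  have hconj : ∀ t : Wr A Q, (¬ ∃ x, Wr.coc.D t x ≠ 0) →
      ConjClasses.mk t = ConjClasses.mk (Wr.incl t.pt) := by
    intro t ht
    refine ConjClasses.mk_eq_mk_iff_isConj.mpr ((D_zero_iff t).1 fun x => ?_)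
    by_contra hx
    exact ht ⟨x, hx⟩
  refine ⟨F₂ ∪ (F₁ ∪ F₂.image (ConjClasses.map (Wr.proj : Wr A Q →* Q))).image
    (ConjClasses.map (Wr.incl : Q →* Wr A Q)), ?_, ?_⟩
  · intro C hC
    rcases Finset.mem_union.1 hC with hC | hC
    · exact htor C hC
    · obtain ⟨D, hD, rfl⟩ := Finset.mem_image.mp hC
      obtain ⟨y, rfl⟩ := ConjClasses.mk_surjective D
      have h3 : IsTorsionClass (ConjClasses.mk y) := by
        rcases Finset.mem_union.1 hD with hD | hD
        · exact hF1 _ hD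
        · obtain ⟨D', hD', h4⟩ := Finset.mem_image.mp hD
          obtain ⟨z, rfl⟩ := ConjClasses.mk_surjective D'
          rw [← h4]
          exact isTorsionClass_mk.mpr
            (Wr.proj.isOfFinOrder (isTorsionClass_mk.mp (htor _ hD')))
      exact isTorsionClass_mk.mpr (Wr.incl.isOfFinOrder (isTorsionClass_mk.mp h3))
  · intro C hC
    rw [Finset.mem_union, not_or] at hC
    obtain ⟨hC1, hC2⟩ := hC
    obtain ⟨t, rfl⟩ := ConjClasses.mk_surjective C
    by_cases hx : ∃ x, Wr.coc.D t x ≠ 0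
    · by_contra h3
      exact hC1 (hmem t h3 hx)
    · have h3 := hconj t hx
      have hs : ConjClasses.mk t.pt ∉ F₁ ∪ F₂.image (ConjClasses.map (Wr.proj : Wr A Q →* Q)) := by
        intro h4
        refine hC2 (Finset.mem_image.mpr ⟨_, h4, ?_⟩)
        rw [h3]
        rfl
      rw [Finset.mem_union, not_or] at hs
      have h4 := hF2 _ hs.1
      rw [htau] at h4
      rw [h3, ← h4]
      refine (tsum_classes_single he Wr.proj _ (ConjClasses.mk (Wr.incl t.pt)) rfl
        fun D hD hne => ?_).symm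
      obtain ⟨t', rfl⟩ := ConjClasses.mk_surjective D
      by_contra h5
      by_cases hx' : ∃ x, Wr.coc.D t' x ≠ 0
      · exact hs.2 (Finset.mem_image.mpr ⟨_, hmem t' h5 hx', hD⟩)
      · have h6 := hconj t' hx'
        refine hne (h6.trans ?_)
        have h7 : ConjClasses.mk t'.pt = ConjClasses.mk t.pt := hD
        exact congrArg (ConjClasses.map (Wr.incl : Q →* Wr A Q)) h7

end Bass

/-- row W -/
theorem rowWreath.{u, v} : RowWreath.{u, v} := by
  intro hM A Q _ _
  obtain ⟨h1, h2⟩ := hM (Wr.coc (A := A) (Q := Q)) comm_ker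
  refine ⟨⟨bass_top, bass_wreath h1 (h2 fun s => ⟨Wr.incl s, rfl⟩)⟩, D_zero_iff⟩

end Vale.Agent.P184.H856
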