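import Vale.Agent.P184.H788.TrF

/-!
# P184: locality of the difference of two cocycles, definitions
-/

noncomputable section

namespace Vale.Agent.P184.H856.Loc

open Vale.Agent.P184 (IsIdem tau toFn)
open Vale.Agent.P184.H13 (E dl co sm)
open Vale.Agent.P184.H856
open Vale.Agent.P184.H788 (LC lamS)

universe u v w

/-- operators on `ℓ¹(Y × L)` -/
abbrev Op (Y : Type v) (L : Type w) := E (Y × L) →L[ℂ] E (Y × L)

/-- the idempotent of the difference `K` of an idempotent with `P` -/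
def ZZ {Y : Type v} {L : Type w} (P K : Op Y L) : Op (Bool × Y) L :=
  blk true true (1 + P * K * P) + blk true false (P * K * (1 - P)) +
    blk false true ((1 - P) * K * P) + blk false false ((1 - P) * K * (1 - P))

/-- equivariant operators supported on a set `F` of indices, with entries in the subgroup `N` -/
def Cor {Y : Type v} {L : Type w} [Group L] (F : Set Y) (N : Subgroup L) : Set (Op Y L) :=
  {T | Eqv T ∧ ∀ (y z : Y) (l a : L), T (dl (y, l)) (z, a) ≠ 0 → y ∈ F ∧ z ∈ F ∧ a * l⁻¹ ∈ N}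

/-- the points where two cocycles differ -/
def dif {G : Type u} {X : Type v} {L : Type w} [Group G] [MulAction G X] [Group L]
    (α α' : LC G X L) (g : G) : Set X := {x | α.a g x ≠ α'.a g x}

/-- the hypotheses on a finite set `T` of `G`, a set `F` of points and a subgroup `N` -/
def Sup {G : Type u} {X : Type v} {L : Type w} [Group G] [MulAction G X] [Group L]
    (T : Set G) (α α' : LC G X L) (F : Set X) (N : Subgroup L) : Prop :=
  (∀ g ∈ T, ∀ x ∈ F, g • x ∈ F → α.a g x ∈ N ∧ α'.a g x ∈ N) ∧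
  ∀ g₁ ∈ T, ∀ g₂ ∈ T, ∀ g₃ ∈ T, ∀ x, α.a g₂ (g₁ • x) ≠ α'.a g₂ (g₁ • x) →
    x ∈ F ∧ g₁ • x ∈ F ∧ g₂ • g₁ • x ∈ F ∧ g₃ • g₂ • g₁ • x ∈ F

/-- **Locality.** -/
def LOC : Prop := ∀ (G : Type u) [Group G] (q : ℕ) (e : Matrix (Fin q) (Fin q) (G → ℂ)),
  IsIdem e → ∃ T : Finset G, ∀ (X : Type v) (L : Type w) [MulAction G X] [Group L]
    (α α' : LC G X L), (∀ g, (dif α α' g).Finite) →
    (Summable fun g => sm (toFn e g) * ((dif α α' g).ncard : ℝ)) →
    ∀ (F : Set X) (N : Subgroup L), Sup (T : Set G) α α' F N →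
    ∀ D : ConjClasses L, (∀ n ∈ N, ConjClasses.mk n ≠ D) →
      trD D (lamS α (fun _ => Set.univ) e - lamS α' (fun _ => Set.univ) e) = 0

end Vale.Agent.P184.H856.Loc
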