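import Vale.Agent.P184.H856.VR
import Vale.Agent.P184.H290.One

/-!
# P184: amalgams over a virtual retract of all factors but one
-/

noncomputable section

namespace Vale.Agent.P184.H856

open Monoid Monoid.PushoutI Vale.Agent.P184 Vale.Agent.P184.H290

universe u v w t

section

variable {I : Type u} {G : I → Type v} {H : Type w} [∀ i, Group (G i)] [Group H]
  {φ : ∀ i, H →* G i} {F : I → Type t} [∀ i, MulAction (G i) (F i)]

/-- the action of a factor on the product -/
def permAt [DecidableEq I] (i : I) (a : G i) : Equiv.Perm (∀ i, F i) where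
  toFun u := Function.update u i (a • u i)
  invFun u := Function.update u i (a⁻¹ • u i)
  left_inv u := by
    simp
  right_inv u := by
    simp

theorem permAt_apply [DecidableEq I] (i : I) (a : G i) (u : ∀ i, F i) :
    permAt i a u = Function.update u i (a • u i) := rfl

/-- the monomial representation of a factor -/
def monAt [DecidableEq I] (φ : ∀ i, H →* G i) (j : I) (c : ∀ i, G i → F i → H)
    (hc : ∀ i a b u, c i (a * b) u = c i a (b • u) * c i b u) (i : I) :
    G i →* Mon (∀ i, F i) (G j) :=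
  MonoidHom.mk' (fun a => ⟨permAt i a, fun u => φ j (c i a (u i))⟩) fun a b => by
    refine Mon.ext (Equiv.ext fun u => ?_) (funext fun u => ?_)
    · change permAt i (a * b) u = permAt i a (permAt i b u)
      rw [permAt_apply, permAt_apply, permAt_apply, Function.update_self,
        Function.update_idem, mul_smul]
    · change φ j (c i (a * b) (u i)) = φ j (c i a (permAt i b u i)) * φ j (c i b (u i))
      rw [permAt_apply, Function.update_self, hc, map_mul]

/-- the diagonal representation -/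
def diagM (F : Type*) (B : Type*) [Group B] : B →* Mon F B :=
  MonoidHom.mk' (fun b => ⟨1, fun _ => b⟩) fun a b => by
    refine Mon.ext ?_ (funext fun u => ?_)
    · rw [Mon.mul_s]; exact (mul_one 1).symm
    · rw [Mon.mul_k]

theorem exists_mon (j : I) (c : ∀ i, G i → F i → H)
    (hc : ∀ i a b u, c i (a * b) u = c i a (b • u) * c i b u)
    (ht : ∀ i, i ≠ j → ∀ y u, φ i y • u = u ∧ c i (φ i y) u = y) :
    ∃ ρ : PushoutI φ →* Mon (∀ i, F i) (G j), ∀ b : G j, ρ (of j b) = ⟨1, fun _ => b⟩ := by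
  classical
  let σ : ∀ i, G i →* Mon (∀ i, F i) (G j) :=
    Function.update (monAt φ j c hc) j (diagM (∀ i, F i) (G j))
  have hσ0 : σ j = diagM (∀ i, F i) (G j) := Function.update_self _ _ _
  have hσ1 : ∀ i, i ≠ j → σ i = monAt φ j c hc i := fun i hi => Function.update_of_ne hi _ _
  have hcomp : ∀ i, (σ i).comp (φ i) = (diagM (∀ i, F i) (G j)).comp (φ j) := by
    intro i
    by_cases hi : i = j
    · subst hi
      rw [hσ0]
    · rw [hσ1 i hi]
      refine MonoidHom.ext fun y => Mon.ext (Equiv.ext fun u => ?_) (funext fun u => ?_)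
      · change permAt i (φ i y) u = u
        rw [permAt_apply, (ht i hi y (u i)).1, Function.update_eq_self]
      · change φ j (c i (φ i y) (u i)) = φ j y
        rw [(ht i hi y (u i)).2]
  refine ⟨lift σ ((diagM (∀ i, F i) (G j)).comp (φ j)) hcomp, fun b => ?_⟩
  rw [lift_of, hσ0]
  rfl

theorem l1Bass_vr_fin [Finite I] [∀ i, Finite (F i)] [∀ i, Nonempty (F i)]
    (hφ : ∀ i, Function.Injective (φ i)) (j : I) (c : ∀ i, G i → F i → H)
    (hc : ∀ i a b u, c i (a * b) u = c i a (b • u) * c i b u)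
    (ht : ∀ i, i ≠ j → ∀ y u, φ i y • u = u ∧ c i (φ i y) u = y)
    (h : ∀ i, L1Bass (G i)) : L1Bass (PushoutI φ) := by
  classical
  have hI := Fintype.ofFinite I
  intro q e he
  have hF : ∀ k, ∃ S : Finset (ConjClasses (G k)), (∀ C ∈ S, IsTorsionClass C) ∧ (k ≠ j →
      ∀ a : G k, (∀ y, ¬ IsConj (φ k y) a) → ConjClasses.mk a ∉ S →
        tau (ConjClasses.mk (of k a)) e = 0) := by
    intro k
    by_cases hkj : k = j
    · exact ⟨∅, fun C hC => absurd hC (Finset.notMem_empty C), fun h => absurd hkj h⟩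
    obtain ⟨s, α, hs, hα, hco, hfin⟩ := exists_cocycle hφ k
    obtain ⟨e₁, he₁, htau, n, m, f, f', hn, hf, hf', hff⟩ := spec_vr α hco (φ k) (c k) (hc k)
      (ht k hkj) hfin q e he
    obtain ⟨S, hS1, hS2⟩ := h k m f hf
    obtain ⟨S', hS1', hS2'⟩ := h k m f' hf'
    refine ⟨S ∪ S', fun C hC => (Finset.mem_union.1 hC).elim (hS1 C) (hS1' C), ?_⟩
    intro _ a ha haS
    rw [Finset.mem_union, not_or] at haS
    have h1 := hff (ConjClasses.mk a) fun y h1 => ha y (ConjClasses.mk_eq_mk_iff_isConj.1 h1)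
    rw [hS2 _ haS.1, hS2' _ haS.2, sub_zero] at h1
    rcases mul_eq_zero.1 h1.symm with h2 | h2
    · exact absurd (Nat.cast_eq_zero.1 h2) hn
    rw [← htau, ← h2, tau_eq]
    let E : {p : PushoutI φ × (PushoutI φ ⧸ (of (φ := φ) k).range) //
        p.1 • p.2 = p.2 ∧ ConjClasses.mk (α p.1 p.2) = ConjClasses.mk a} →
        {y : PushoutI φ // ConjClasses.mk y = ConjClasses.mk (of k a)} := fun p =>
      ⟨p.1.1, (fix_iff hφ hs hα a p.1.1).1 ⟨p.1.2, p.2.1, p.2.2⟩⟩
    have hE : Function.Bijective E := by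
      constructor
      · rintro ⟨⟨g, x⟩, h2, h3⟩ ⟨⟨g', x'⟩, h4, h5⟩ h6
        obtain rfl : g = g' := congrArg Subtype.val h6
        obtain rfl : x = x' := fix_unique hφ hs hα ha h2 h3 h4
        rfl
      · rintro ⟨g, hg⟩
        obtain ⟨x, h2, h3⟩ := (fix_iff hφ hs hα a g).2 hg
        exact ⟨⟨⟨g, x⟩, h2, h3⟩, rfl⟩
    exact ((Equiv.ofBijective E hE).tsum_eq fun y => ∑ i, e₁ i i y.1).symm
  choose S hS1 hS2 using hF
  obtain ⟨ρ, hρ⟩ := exists_mon j c hc ht
  let act : MulAction (PushoutI φ) (∀ i, F i) :=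
    { smul := fun g u => (ρ g).s u
      one_smul := fun u => by
        change (ρ 1).s u = u
        rw [map_one]; rfl
      mul_smul := fun g g' u => by
        change (ρ (g * g')).s u = (ρ g).s ((ρ g').s u)
        rw [map_mul]; rfl }
  let κ : PushoutI φ → (∀ i, F i) → G j := fun g u => (ρ g).k u
  have hκ : ∀ g g' u, κ (g * g') u = κ g (g' • u) * κ g' u := by
    intro g g' u
    change (ρ (g * g')).k u = (ρ g).k ((ρ g').s u) * (ρ g').k u
    rw [map_mul]; rfl
  have hb1 : ∀ (b : G j) (u : ∀ i, F i), (of (φ := φ) j b) • u = u := by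
    intro b u
    change (ρ (of j b)).s u = u
    rw [hρ]; rfl
  have hb2 : ∀ (b : G j) (u : ∀ i, F i), κ (of j b) u = b := by
    intro b u
    change (ρ (of j b)).k u = b
    rw [hρ]
  have hnb : ∀ (D : ConjClasses (G j)) (b : G j) (C : ConjClasses (PushoutI φ)),
      C = ConjClasses.mk (of j b) → nn κ D (rp C) ≠ 0 → ConjClasses.mk b = D := by
    intro D b C hC hn
    rw [nn_conj hκ D ((mk_rp C).trans hC)] at hn
    by_contra hbD
    refine hn ?_
    unfold nn
    have : IsEmpty {u : ∀ i, F i // (of (φ := φ) j b) • u = u ∧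
        ConjClasses.mk (κ (of j b) u) = D} := ⟨fun u => hbD (by rw [← u.2.2, hb2])⟩
    exact Nat.card_of_isEmpty
  have hnb2 : ∀ b : G j, nn κ (ConjClasses.mk b) (rp (ConjClasses.mk (of (φ := φ) j b))) ≠ 0 := by
    intro b
    rw [nn_conj hκ (ConjClasses.mk b) (mk_rp _)]
    unfold nn
    have : Nonempty {u : ∀ i, F i // (of (φ := φ) j b) • u = u ∧
        ConjClasses.mk (κ (of j b) u) = ConjClasses.mk b} :=
      ⟨⟨Classical.arbitrary _, hb1 _ _, by rw [hb2]⟩⟩
    exact Nat.card_pos.ne'
  obtain ⟨m, f, f', hf, hf', hff⟩ := fin_tr κ hκ he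
  obtain ⟨F₁, hF1, hF1'⟩ := h j m f hf
  obtain ⟨F₂, hF2, hF2'⟩ := h j m f' hf'
  let EE : Finset (ConjClasses (PushoutI φ)) := Finset.univ.biUnion fun i : I =>
    (S i).image (ConjClasses.map (of (φ := φ) i))
  have hE : ∀ C ∈ EE, IsTorsionClass C := by
    intro C hC
    obtain ⟨i, _, hC⟩ := Finset.mem_biUnion.1 hC
    obtain ⟨D, hD, rfl⟩ := Finset.mem_image.mp hC
    obtain ⟨y, rfl⟩ := ConjClasses.mk_surjective D
    exact isTorsionClass_mk.mpr
      ((of (φ := φ) i).isOfFinOrder (isTorsionClass_mk.mp (hS1 i _ hD)))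
  have hD0 : ∀ C : ConjClasses (PushoutI φ), {D : ConjClasses (G j) | nn κ D (rp C) ≠ 0}.Finite := by
    intro C
    refine (Set.finite_range fun u : ∀ i, F i => ConjClasses.mk (κ (rp C) u)).subset ?_
    intro D hD
    have h1 : 0 < nn κ D (rp C) := Nat.pos_of_ne_zero hD
    obtain ⟨⟨u, hu⟩⟩ := (Nat.card_pos_iff.1 h1).1
    exact ⟨u, hu.2⟩
  let T : Finset (ConjClasses (G j)) := F₁ ∪ F₂ ∪ EE.biUnion fun C => (hD0 C).toFinset
  have hT : ∀ D ∈ T, IsTorsionClass D := by
    intro D hD
    rcases Finset.mem_union.1 hD with hD | hD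
    · exact (Finset.mem_union.1 hD).elim (hF1 D) (hF2 D)
    · obtain ⟨C, hC, hD⟩ := Finset.mem_biUnion.1 hD
      rw [Set.Finite.mem_toFinset] at hD
      have h1 : 0 < nn κ D (rp C) := Nat.pos_of_ne_zero hD
      obtain ⟨⟨u, hu⟩⟩ := (Nat.card_pos_iff.1 h1).1
      rw [← hu.2]
      refine isTorsionClass_mk.2 (coc_tors hκ hu.1 ?_)
      refine isTorsionClass_mk.1 ?_
      rw [mk_rp]
      exact hE C hC
  have key : ∀ b : G j, ConjClasses.mk b ∉ T → tau (ConjClasses.mk (of (φ := φ) j b)) e = 0 := by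
    intro b hb
    have hbT := hb
    rw [Finset.mem_union, not_or, Finset.mem_union, not_or] at hb
    have h1 := hff (ConjClasses.mk b)
    rw [hF1' _ hb.1.1, hF2' _ hb.1.2, sub_zero, sum_classes hκ he,
      tsum_eq_single (ConjClasses.mk (of (φ := φ) j b))] at h1
    · rcases mul_eq_zero.1 h1.symm with h2 | h2
      · exact absurd (Nat.cast_eq_zero.1 h2) (hnb2 b)
      · exact h2
    · intro C hC
      by_contra h0
      have h2 : nn κ (ConjClasses.mk b) (rp C) ≠ 0 := fun h2 => h0 (by
        rw [h2, Nat.cast_zero, zero_mul])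
      have h3 : tau C e ≠ 0 := right_ne_zero_of_mul h0
      rcases elliptic' hφ he C h3 with ⟨y, hy⟩ | ⟨k, a, hk, ha⟩
      · rw [← of_apply_eq_base φ j] at hy
        have h4 := hnb _ _ C hy h2
        refine hC ?_
        rw [hy]
        exact congrArg (ConjClasses.map (of (φ := φ) j)) h4
      · by_cases hkj : k = j
        · subst hkj
          have h4 := hnb _ _ C hk h2
          refine hC ?_
          rw [hk]
          exact congrArg (ConjClasses.map (of (φ := φ) k)) h4
        · have h5 : ConjClasses.mk a ∈ S k := by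
            by_contra h5
            refine h3 ?_
            rw [hk]
            exact hS2 k hkj a ha h5
          refine hbT (Finset.mem_union_right _ (Finset.mem_biUnion.2 ⟨C, ?_, ?_⟩))
          · refine Finset.mem_biUnion.2 ⟨k, Finset.mem_univ k, Finset.mem_image.2 ⟨_, h5, ?_⟩⟩
            rw [hk]
            rfl
          · rw [Set.Finite.mem_toFinset]
            exact h2
  refine ⟨T.image (ConjClasses.map (of (φ := φ) j)) ∪ EE, ?_, ?_⟩
  · intro C hC
    rcases Finset.mem_union.1 hC with hC | hC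
    · obtain ⟨D, hD, rfl⟩ := Finset.mem_image.mp hC
      obtain ⟨y, rfl⟩ := ConjClasses.mk_surjective D
      exact isTorsionClass_mk.mpr
        ((of (φ := φ) j).isOfFinOrder (isTorsionClass_mk.mp (hT _ hD)))
    · exact hE C hC
  · intro C hC
    rw [Finset.mem_union, not_or] at hC
    by_contra h0
    have hCj : ∀ b : G j, C = ConjClasses.mk (of j b) → False := by
      intro b hb
      refine h0 ?_
      rw [hb]
      refine key b fun hbT => hC.1 (Finset.mem_image.2 ⟨_, hbT, ?_⟩)
      rw [hb]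
      rfl
    rcases elliptic' hφ he C h0 with ⟨y, hy⟩ | ⟨k, a, hk, ha⟩
    · rw [← of_apply_eq_base φ j] at hy
      exact hCj _ hy
    · by_cases hkj : k = j
      · subst hkj
        exact hCj _ hk
      · refine h0 ?_
        rw [hk]
        refine hS2 k hkj a ha fun h5 => hC.2 (Finset.mem_biUnion.2 ⟨k, Finset.mem_univ k,
          Finset.mem_image.2 ⟨_, h5, ?_⟩⟩)
        rw [hk]
        rfl

end

/-- **Amalgams over a virtual retract of all factors but one.** -/
theorem amalgam_vr {I : Type u} {G : I → Type v} {H : Type w} [∀ i, Group (G i)] [Group H]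
    (φ : ∀ i, H →* G i) (hφ : ∀ i, Function.Injective (φ i)) (j : I)
    (hV : ∀ i, i ≠ j → ∃ (F : Type t) (_ : Finite F) (_ : Nonempty F) (_ : MulAction (G i) F)
      (c : G i → F → H), (∀ a b u, c (a * b) u = c a (b • u) * c b u) ∧
        ∀ y u, φ i y • u = u ∧ c (φ i y) u = y)
    (h : ∀ i, L1Bass (G i)) : L1Bass (PushoutI φ) := by
  have hV' : ∀ i, ∃ (F : Type t) (_ : Finite F) (_ : Nonempty F) (_ : MulAction (G i) F)
      (c : G i → F → H), (∀ a b u, c (a * b) u = c a (b • u) * c b u) ∧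
        (i ≠ j → ∀ y u, φ i y • u = u ∧ c (φ i y) u = y) := by
    intro i
    by_cases hi : i = j
    · refine ⟨PUnit, inferInstance, inferInstance,
        { smul := fun _ u => u, one_smul := fun _ => rfl, mul_smul := fun _ _ _ => rfl },
        fun _ _ => 1, fun a b u => (mul_one 1).symm, fun h => absurd hi h⟩
    · obtain ⟨F, h1, h2, h3, c, h4, h5⟩ := hV i hi
      exact ⟨F, h1, h2, h3, c, h4, fun _ => h5⟩
  choose F hF1 hF2 hF3 c hc ht using hV'
  refine l1Bass_of_finite_sub hφ {j} fun J hJ => ?_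
  have hj : j ∈ J := hJ (Finset.mem_singleton_self j)
  exact l1Bass_vr_fin (φ := fun i : J => φ i) (F := fun i : J => F i) (fun i => hφ i) ⟨j, hj⟩
    (fun i : J => c i) (fun i : J => hc i)
    (fun i hi => ht i fun h => hi (Subtype.ext h)) fun i => h i

end Vale.Agent.P184.H856
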