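import Vale.Agent.P184.H856.VDef
import Vale.Agent.P184.H856.VRAm
import Vale.Agent.P184.H11.VrSys

/-!
# P184: amalgams over a virtual retract of all factors but one, final forms
-/

namespace Vale.Agent.P184.H856

open Vale.Agent.P184

universe u v w x t

section

variable {G : Type v} {H : Type w} [Group G] [Group H]

theorem VirtRetract.injective {f : H →* G} (h : VirtRetract f) : Function.Injective f := by
  obtain ⟨L, ρ, _, h⟩ := h
  obtain ⟨z, h⟩ := h 1
  intro y y' hy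
  obtain ⟨h1, h2⟩ := h y
  obtain ⟨h3, h4⟩ := h y'
  have h5 : z⁻¹ * y * z = z⁻¹ * y' * z := by
    rw [← h2, ← h4]
    exact congrArg ρ (Subtype.ext (congrArg (fun a : G => 1⁻¹ * a * 1) hy))
  exact mul_left_cancel (mul_right_cancel h5)

/-- the system of a virtual retract -/
theorem VirtRetract.system {f : H →* G} (h : VirtRetract f) :
    ∃ (F : Type v) (_ : Finite F) (_ : Nonempty F) (_ : MulAction G F) (c : G → F → H),
      (∀ a b u, c (a * b) u = c a (b • u) * c b u) ∧ ∀ y u, f y • u = u ∧ c (f y) u = y := by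
  obtain ⟨L, ρ, _, h⟩ := h
  obtain ⟨z₀, h0⟩ := h 1
  have h0' : ∀ y : H, ∃ h : f y ∈ L, ρ ⟨_, h⟩ = z₀⁻¹ * y * z₀ := by
    intro y
    obtain ⟨h1, h2⟩ := h0 y
    have h3 : f y = 1⁻¹ * f y * 1 := by group
    have h4 : f y ∈ L := by rw [h3]; exact h1
    exact ⟨h4, by rw [← h2]; exact congrArg ρ (Subtype.ext h3)⟩
  refine H11.VrSys.sys_retract f L ρ fun a => ?_
  obtain ⟨z, hz⟩ := h a
  obtain ⟨hl, hl'⟩ := h0' (z₀ * z⁻¹ * z₀⁻¹)
  refine ⟨f (z₀ * z⁻¹ * z₀⁻¹), hl, fun y => ?_⟩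
  obtain ⟨h1, h2⟩ := hz y
  set l : L := ⟨_, hl⟩ with hldef
  have hρ : ρ l = z⁻¹ := by rw [hl']; group
  have h3 : (a * f (z₀ * z⁻¹ * z₀⁻¹))⁻¹ * f y * (a * f (z₀ * z⁻¹ * z₀⁻¹)) =
      ((l⁻¹ * ⟨_, h1⟩ * l : L) : G) := by
    change _ = (f (z₀ * z⁻¹ * z₀⁻¹))⁻¹ * (a⁻¹ * f y * a) * f (z₀ * z⁻¹ * z₀⁻¹)
    group
  have h4 : (a * f (z₀ * z⁻¹ * z₀⁻¹))⁻¹ * f y * (a * f (z₀ * z⁻¹ * z₀⁻¹)) ∈ L := by
    rw [h3]; exact (l⁻¹ * ⟨_, h1⟩ * l : L).2
  refine ⟨h4, ?_⟩
  have h5 : (⟨_, h4⟩ : L) = l⁻¹ * ⟨_, h1⟩ * l := Subtype.ext h3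
  rw [h5, map_mul, map_mul, map_inv, h2, hρ]
  group

/-- a system gives a virtual retract -/
theorem virtRetract_of_system {f : H →* G} {F : Type t} [Finite F] [Nonempty F] [MulAction G F]
    (c : G → F → H) (hc : ∀ a b u, c (a * b) u = c a (b • u) * c b u)
    (hf : ∀ y u, f y • u = u ∧ c (f y) u = y) : VirtRetract f := by
  classical
  obtain ⟨u₀⟩ := ‹Nonempty F›
  have hc1 : ∀ u, c 1 u = 1 := by
    intro u
    have h := hc 1 1 u
    rw [one_mul, one_smul] at h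
    exact (mul_eq_left.1 h.symm)
  refine ⟨MulAction.stabilizer G u₀, MonoidHom.mk' (fun l => c l u₀) fun a b => ?_, ?_, ?_⟩
  · change c (a * b) u₀ = c a u₀ * c b u₀
    rw [hc, show (b : G) • u₀ = u₀ from b.2]
  · have : Finite (MulAction.orbit G u₀) := inferInstance
    have h1 : Finite (G ⧸ MulAction.stabilizer G u₀) :=
      Finite.of_equiv _ (MulAction.orbitEquivQuotientStabilizer G u₀)
    exact Subgroup.finiteIndex_of_finite_quotient
  · intro a
    refine ⟨c a u₀, fun y => ?_⟩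
    have h1 : a⁻¹ * f y * a ∈ MulAction.stabilizer G u₀ := by
      rw [MulAction.mem_stabilizer_iff, mul_smul, mul_smul, (hf y (a • u₀)).1, inv_smul_smul]
    refine ⟨h1, ?_⟩
    change c (a⁻¹ * f y * a) u₀ = (c a u₀)⁻¹ * y * c a u₀
    rw [hc, hc, (hf y (a • u₀)).1, (hf y (a • u₀)).2]
    have h2 : c a⁻¹ (a • u₀) * c a u₀ = 1 := by rw [← hc, inv_mul_cancel, hc1]
    rw [eq_inv_of_mul_eq_one_left h2]

/-- retracts -/
theorem virtRetract_of_retract {f : H →* G} (r : G →* H) (hr : ∀ y, r (f y) = y) :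
    VirtRetract f :=
  ⟨⊤, r.comp (Subgroup.subtype ⊤), inferInstance, fun a => ⟨r a, fun y =>
    ⟨Subgroup.mem_top _, by
      change r (a⁻¹ * f y * a) = _
      rw [map_mul, map_mul, map_inv, hr]⟩⟩⟩

/-- subgroups detected by a finitely generated abelian quotient -/
theorem virtRetract_abelian {f : H →* G} {K : Type x} [AddCommGroup K] [Module.Finite ℤ K]
    (χ : G →* Multiplicative K) (hχ : Function.Injective (χ.comp f)) : VirtRetract f := by
  obtain ⟨F, h1, h2, h3, c, h4, h5⟩ := H11.VrSys.sys_abelian f χ hχ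
  exact virtRetract_of_system c h4 h5

end

/-- **Amalgams over a virtual retract of all factors but one.** -/
theorem amalgam_virtRetract {I : Type u} {G : I → Type v} {H : Type w} [∀ i, Group (G i)]
    [Group H] (φ : ∀ i, H →* G i) (j : I) (hj : Function.Injective (φ j))
    (hV : ∀ i, i ≠ j → VirtRetract (φ i)) (h : ∀ i, L1Bass (G i)) :
    L1Bass (Monoid.PushoutI φ) := by
  refine amalgam_vr.{u, v, w, v} φ (fun i => ?_) j (fun i hi => (hV i hi).system) h
  by_cases hi : i = j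
  · subst hi; exact hj
  · exact (hV i hi).injective

/-- the abelian form -/
theorem amalgam_abelian {I : Type u} {G : I → Type v} {H : Type w} [∀ i, Group (G i)]
    [Group H] (φ : ∀ i, H →* G i) (j : I) (hj : Function.Injective (φ j))
    (hV : ∀ i, i ≠ j → ∃ (K : Type x) (_ : AddCommGroup K) (_ : Module.Finite ℤ K)
      (χ : G i →* Multiplicative K), Function.Injective (χ.comp (φ i)))
    (h : ∀ i, L1Bass (G i)) : L1Bass (Monoid.PushoutI φ) := by
  refine amalgam_virtRetract φ j hj (fun i hi => ?_) h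
  obtain ⟨K, h1, h2, χ, h3⟩ := hV i hi
  exact virtRetract_abelian χ h3

end Vale.Agent.P184.H856
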