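import Vale.Agent.P184.H856.LocDef
import Vale.Agent.P184.H856.LocC

/-!
# P184: locality of the difference of two cocycles, assembly
-/

noncomputable section

namespace Vale.Agent.P184.H856.Loc

open Filter Topology
open Vale.Agent.P184 (IsIdem tau toFn)
open Vale.Agent.P184.H13 (E dl co sm E_ext sm_nonneg)
open Vale.Agent.P184.H847 (hasSum_clm)
open Vale.Agent.P184.H856
open Vale.Agent.P184.H788 (LC lamS Tm norm_Tm sm_summable Tm_summable lamS_idem eqv_lamS lamS_add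
  nucL_lamS)

universe u v w

/-- row A -/
def RowA (Y : Type v) (L : Type w) [Group L] : Prop := ∀ P P' : Op Y L, P * P = P → P' * P' = P' →
  Eqv P → Eqv P' → NucL (P - P') → ZZ P' (P - P') * ZZ P' (P - P') = ZZ P' (P - P') ∧
    Eqv (ZZ P' (P - P')) ∧ NucL (ZZ P' (P - P') - blk true true 1) ∧
    ∀ D : ConjClasses L, trD D (ZZ P' (P - P') - blk true true 1) = trD D (P - P')

/-- row D -/
def RowD (Y : Type v) (L : Type w) [Group L] : Prop := ∀ Z z : Op Y L, Z * Z = Z → z * z = z →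
  Eqv Z → Eqv z → NucL (Z - z) → ‖Z - z‖ * (1 + 2 * ‖Z‖) < 1 →
    ∀ D : ConjClasses L, trD D (Z - z) = 0

/-- row B -/
def RowB : Prop := ∀ (G : Type u) [Group G] (q : ℕ) (e : Matrix (Fin q) (Fin q) (G → ℂ)),
  IsIdem e → ∀ δ : ℝ, 0 < δ → ∃ T : Finset G, ∀ (X : Type v) (L : Type w) [MulAction G X]
    [Group L] (α α' : LC G X L) (F : Set X) (N : Subgroup L), Sup (T : Set G) α α' F N →
    ∃ S ∈ Cor {p : Bool × (X × Fin q) | p.2.1 ∈ F} N,
      ‖ZZ (lamS α' (fun _ => Set.univ) e)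
        (lamS α (fun _ => Set.univ) e - lamS α' (fun _ => Set.univ) e) -
          (blk true true 1 + S)‖ ≤ δ

section

variable {Y : Type v} {L : Type w}

theorem norm_blk_le (b c : Bool) (T : Op Y L) : ‖blk b c T‖ ≤ ‖T‖ := by
  have h1 : ‖(io b : E (Y × L) →L[ℂ] E ((Bool × Y) × L))‖ ≤ 1 :=
    LinearMap.mkContinuous_norm_le _ zero_le_one _
  have h2 : ‖(pi2 c : E ((Bool × Y) × L) →L[ℂ] E (Y × L))‖ ≤ 1 :=
    LinearMap.mkContinuous_norm_le _ zero_le_one _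
  have h3 := ContinuousLinearMap.opNorm_comp_le (io b : E (Y × L) →L[ℂ] E ((Bool × Y) × L))
    (T.comp (pi2 c))
  have h4 := ContinuousLinearMap.opNorm_comp_le T (pi2 c : E ((Bool × Y) × L) →L[ℂ] E (Y × L))
  have h5 : ‖T.comp (pi2 c : E ((Bool × Y) × L) →L[ℂ] E (Y × L))‖ ≤ ‖T‖ :=
    h4.trans (mul_le_of_le_one_right (norm_nonneg _) h2)
  exact h3.trans ((mul_le_of_le_one_left (norm_nonneg _) h1).trans h5)

theorem norm_one_op : ‖(1 : Op Y L)‖ ≤ 1 := ContinuousLinearMap.norm_id_le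

/-- bound for the norm -/
theorem norm_ZZ_le {P K : Op Y L} {M : ℝ} (hM : 0 ≤ M) (hP : ‖P‖ ≤ M) (hK : ‖K‖ ≤ M) :
    ‖ZZ P K‖ ≤ 1 + 4 * (1 + M) ^ 3 := by
  have h1 : ‖(1 : Op Y L) - P‖ ≤ 1 + M :=
    (norm_sub_le _ _).trans (add_le_add norm_one_op hP)
  have hP' : ‖P‖ ≤ 1 + M := hP.trans (by linarith)
  have hK' : ‖K‖ ≤ 1 + M := hK.trans (by linarith)
  have h0 : 0 ≤ 1 + M := by linarith
  have h3 : ∀ A B : Op Y L, ‖A‖ ≤ 1 + M → ‖B‖ ≤ 1 + M → ‖A * K * B‖ ≤ (1 + M) ^ 3 := by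
    intro A B hA hB
    have h4 := norm_mul_le (A * K) B
    have h5 := norm_mul_le A K
    calc ‖A * K * B‖ ≤ ‖A * K‖ * ‖B‖ := h4
      _ ≤ ((1 + M) * (1 + M)) * (1 + M) :=
          mul_le_mul (h5.trans (mul_le_mul hA hK' (norm_nonneg _) h0)) hB (norm_nonneg _)
            (mul_nonneg h0 h0)
      _ = (1 + M) ^ 3 := by ring
  unfold ZZ
  have e1 : ‖blk true true (1 + P * K * P)‖ ≤ 1 + (1 + M) ^ 3 :=
    (norm_blk_le _ _ _).trans ((norm_add_le _ _).trans (add_le_add norm_one_op (h3 P P hP' hP')))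
  have e2 : ‖blk true false (P * K * (1 - P))‖ ≤ (1 + M) ^ 3 :=
    (norm_blk_le _ _ _).trans (h3 P (1 - P) hP' h1)
  have e3 : ‖blk false true ((1 - P) * K * P)‖ ≤ (1 + M) ^ 3 :=
    (norm_blk_le _ _ _).trans (h3 (1 - P) P h1 hP')
  have e4 : ‖blk false false ((1 - P) * K * (1 - P))‖ ≤ (1 + M) ^ 3 :=
    (norm_blk_le _ _ _).trans (h3 (1 - P) (1 - P) h1 h1)
  calc _ ≤ ‖blk true true (1 + P * K * P)‖ + ‖blk true false (P * K * (1 - P))‖ +
        ‖blk false true ((1 - P) * K * P)‖ + ‖blk false false ((1 - P) * K * (1 - P))‖ := by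
        refine (norm_add_le _ _).trans (add_le_add ?_ le_rfl)
        refine (norm_add_le _ _).trans (add_le_add ?_ le_rfl)
        exact norm_add_le _ _
    _ ≤ 1 + 4 * (1 + M) ^ 3 := by linarith

end

section

variable {Y : Type v} {L : Type w} [Group L]

/-- operators supported on finitely many indices are nuclear -/
theorem nucL_cor {F : Set Y} (hF : F.Finite) {N : Subgroup L} {S : Op Y L} (hS : S ∈ Cor F N) :
    NucL S := by
  classical
  refine summable_of_ne_finset_zero (s := hF.toFinset) fun y hy => ?_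
  have h : (pr y).comp S = 0 := by
    refine ContinuousLinearMap.ext fun v => E_ext fun l => ?_
    change ((co (y, l)).comp S) v = 0
    rw [← (hasSum_clm ((co (y, l)).comp S) v).tsum_eq]
    refine (tsum_congr fun r => ?_).trans tsum_zero
    obtain ⟨z, a⟩ := r
    by_contra h1
    exact hy ((Set.Finite.mem_toFinset _).2 (hS.2 z y a l (right_ne_zero_of_mul h1)).2.1)
  change ‖(pr y).comp S‖ = 0
  rw [h, norm_zero]

/-- the trace at a class not meeting the subgroup -/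
theorem trD_cor {F : Set Y} {N : Subgroup L} {S : Op Y L} (hS : S ∈ Cor F N)
    {D : ConjClasses L} (hD : ∀ n ∈ N, ConjClasses.mk n ≠ D) : trD D S = 0 := by
  refine (tsum_congr fun y => ?_).trans tsum_zero
  refine (tsum_congr fun l => ?_).trans tsum_zero
  by_contra h
  obtain ⟨_, _, h3⟩ := hS.2 y y 1 l h
  rw [inv_one, mul_one] at h3
  exact hD _ h3 (ConjClasses.mem_carrier_iff_mk_eq.1 l.2)

theorem cor_iff {F : Set Y} {N : Subgroup L} {S : Op (Bool × Y) L} :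
    S ∈ Cor {p : Bool × Y | p.2 ∈ F} N ↔ S ∈ cornerG F N := by
  constructor
  · rintro ⟨h1, h2⟩
    refine ⟨h1, fun b c y z l h => ?_⟩
    have h3 := h2 (b, y) (c, z) 1 l h
    rw [inv_one, mul_one] at h3
    exact h3
  · intro h
    refine ⟨h.1, ?_⟩
    rintro ⟨b, y⟩ ⟨c, z⟩ l a h3
    exact cornerG_entry h h3

end

theorem norm_lamS_le {G : Type u} {X : Type v} {L : Type w} [Group G] [MulAction G X] [Group L]
    {q : ℕ} {e : Matrix (Fin q) (Fin q) (G → ℂ)} (he : IsIdem e) (α : LC G X L)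
    (S : G → Set X) : ‖lamS α S e‖ ≤ ∑' g, sm (toFn e g) := by
  have h1 : Summable fun g => ‖Tm α (S g) g (toFn e g)‖ :=
    Summable.of_nonneg_of_le (fun _ => norm_nonneg _) (fun g => norm_Tm α (S g) g _)
      (sm_summable he)
  exact (norm_tsum_le_tsum_norm h1).trans
    (h1.tsum_le_tsum (fun g => norm_Tm α (S g) g _) (sm_summable he))

/-- shrinking the set of points to a finite one -/
theorem shrink {G : Type u} {X : Type v} {L : Type w} [Group G] [MulAction G X] [Group L]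
    (T : Finset G) (α α' : LC G X L) (hfin : ∀ g, (dif α α' g).Finite) {F : Set X}
    {N : Subgroup L} (h : Sup (T : Set G) α α' F N) :
    ∃ F' : Set X, F'.Finite ∧ Sup (T : Set G) α α' F' N := by
  classical
  let D : G → G → Set X := fun g₁ g₂ => (fun x => g₁ • x) ⁻¹' dif α α' g₂
  have hD : ∀ g₁ g₂, (D g₁ g₂).Finite := fun g₁ g₂ =>
    (hfin g₂).preimage ((MulAction.injective g₁).injOn)
  let W : G → G → G → Set X := fun g₁ g₂ g₃ => D g₁ g₂ ∪ (fun x => g₁ • x) '' D g₁ g₂ ∪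
    (fun x => g₂ • g₁ • x) '' D g₁ g₂ ∪ (fun x => g₃ • g₂ • g₁ • x) '' D g₁ g₂
  have hW : ∀ g₁ g₂ g₃, (W g₁ g₂ g₃).Finite := fun g₁ g₂ g₃ =>
    (((hD g₁ g₂).union ((hD g₁ g₂).image _)).union ((hD g₁ g₂).image _)).union
      ((hD g₁ g₂).image _)
  let F' : Set X := ⋃ g₁ ∈ T, ⋃ g₂ ∈ T, ⋃ g₃ ∈ T, W g₁ g₂ g₃
  have hmem : ∀ g₁ ∈ T, ∀ g₂ ∈ T, ∀ g₃ ∈ T, ∀ x ∈ W g₁ g₂ g₃, x ∈ F' := by
    intro g₁ h1 g₂ h2 g₃ h3 x hx
    exact Set.mem_biUnion h1 (Set.mem_biUnion h2 (Set.mem_biUnion h3 hx))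
  have hsub : F' ⊆ F := by
    intro x hx
    obtain ⟨g₁, h1, hx⟩ := Set.mem_iUnion₂.1 hx
    obtain ⟨g₂, h2, hx⟩ := Set.mem_iUnion₂.1 hx
    obtain ⟨g₃, h3, hx⟩ := Set.mem_iUnion₂.1 hx
    rcases hx with ((hx | ⟨y, hy, rfl⟩) | ⟨y, hy, rfl⟩) | ⟨y, hy, rfl⟩
    · exact (h.2 g₁ h1 g₂ h2 g₃ h3 x hx).1
    · exact (h.2 g₁ h1 g₂ h2 g₃ h3 y hy).2.1
    · exact (h.2 g₁ h1 g₂ h2 g₃ h3 y hy).2.2.1
    · exact (h.2 g₁ h1 g₂ h2 g₃ h3 y hy).2.2.2
  refine ⟨F', ?_, ?_, ?_⟩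
  · exact T.finite_toSet.biUnion fun g₁ _ => T.finite_toSet.biUnion fun g₂ _ =>
      T.finite_toSet.biUnion fun g₃ _ => hW g₁ g₂ g₃
  · intro g hg x hx hgx
    exact h.1 g hg x (hsub hx) (hsub hgx)
  · intro g₁ h1 g₂ h2 g₃ h3 x hx
    have hx' : x ∈ D g₁ g₂ := hx
    refine ⟨hmem g₁ h1 g₂ h2 g₃ h3 _ (Or.inl (Or.inl (Or.inl hx'))),
      hmem g₁ h1 g₂ h2 g₃ h3 _ (Or.inl (Or.inl (Or.inr ⟨x, hx', rfl⟩))),
      hmem g₁ h1 g₂ h2 g₃ h3 _ (Or.inl (Or.inr ⟨x, hx', rfl⟩)),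
      hmem g₁ h1 g₂ h2 g₃ h3 _ (Or.inr ⟨x, hx', rfl⟩)⟩

/-- **Locality**, over the rows. -/
theorem loc_of (hA : ∀ (Y : Type v) (L : Type w) [Group L], RowA Y L)
    (hD : ∀ (Y : Type v) (L : Type w) [Group L], RowD Y L) (hB : RowB.{u, v, w}) :
    LOC.{u, v, w} := by
  intro G _ q e he
  set s : ℝ := ∑' g, sm (toFn e g) with hs
  have hs0 : 0 ≤ s := tsum_nonneg fun g => sm_nonneg _
  set C₀ : ℝ := 1 + 4 * (1 + 2 * s) ^ 3 with hC0
  have hC1 : 1 ≤ C₀ := by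
    rw [hC0]
    have : 0 ≤ 4 * (1 + 2 * s) ^ 3 := by positivity
    linarith
  set C₁ : ℝ := 1 + 3 * (2 * C₀ + 3) * (2 * C₀ + 2) with hC1'
  have hC2 : 1 ≤ C₁ := by
    rw [hC1']
    have : 0 ≤ 3 * (2 * C₀ + 3) * (2 * C₀ + 2) := by positivity
    linarith
  set δ : ℝ := (32 * (C₁ * (1 + 2 * C₀)))⁻¹ with hδ
  have hW0 : 0 < C₁ * (1 + 2 * C₀) := by positivity
  have hδ0 : 0 < δ := by rw [hδ]; positivity
  have hδ1 : δ * (C₁ * (1 + 2 * C₀)) = 1 / 32 := by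
    rw [hδ]
    field_simp
  have hδ2 : δ * (1 + 2 * C₀) ≤ 1 / 32 := by
    have h1 : δ * (1 + 2 * C₀) ≤ δ * (C₁ * (1 + 2 * C₀)) := by
      refine mul_le_mul_of_nonneg_left ?_ hδ0.le
      have : 0 ≤ 1 + 2 * C₀ := by linarith
      nlinarith
    linarith
  have hδ3 : δ ≤ 1 := by nlinarith
  obtain ⟨T, hT⟩ := hB G q e he δ hδ0
  refine ⟨T, ?_⟩
  intro X L _ _ α α' hfin hsum F N hSup D hDN
  obtain ⟨F', hF', hSup'⟩ := shrink T α α' hfin hSup
  obtain ⟨S, hS, hSn⟩ := hT X L α α' F' N hSup'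
  set P := lamS α (fun _ => Set.univ) e with hP
  set P' := lamS α' (fun _ => Set.univ) e with hP'
  have hPP : P * P = P := lamS_idem α he
  have hPP' : P' * P' = P' := lamS_idem α' he
  have eP : Eqv P := eqv_lamS α _ he
  have eP' : Eqv P' := eqv_lamS α' _ he
  have nP : ‖P‖ ≤ s := norm_lamS_le he α _
  have nP' : ‖P'‖ ≤ s := norm_lamS_le he α' _
  have hnuc : NucL (P - P') := by
    have h1 := lamS_add α (fun g => dif α α' g) he (fun g => (dif α α' g)ᶜ) fun g => rfl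
    have h2 := lamS_add α' (fun g => dif α α' g) he (fun g => (dif α α' g)ᶜ) fun g => rfl
    have h3 : lamS α (fun g => (dif α α' g)ᶜ) e = lamS α' (fun g => (dif α α' g)ᶜ) e := by
      classical
      refine tsum_congr fun g => ?_
      refine ContinuousLinearMap.ext fun v => ?_
      have h4 : ∀ p, Tm α (dif α α' g)ᶜ g (toFn e g) (dl p) =
          Tm α' (dif α α' g)ᶜ g (toFn e g) (dl p) := by
        intro p
        refine E_ext fun r => ?_
        obtain ⟨⟨x, j⟩, l⟩ := p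
        obtain ⟨⟨z, i⟩, k⟩ := r
        rw [H788.Tm_dl, H788.Tm_dl]
        by_cases hx : x ∈ (dif α α' g)ᶜ
        · have h5 : α.a g x = α'.a g x := by
            by_contra h5
            exact hx h5
          rw [h5]
        · rw [if_neg fun h => hx h.1, if_neg fun h => hx h.1]
      rw [← (hasSum_clm _ v).tsum_eq, ← (hasSum_clm (Tm α' (dif α α' g)ᶜ g (toFn e g)) v).tsum_eq]
      exact tsum_congr fun p => by rw [h4]
    have h4 : P - P' = lamS α (fun g => dif α α' g) e - lamS α' (fun g => dif α α' g) e := by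
      rw [hP, hP', h1, h2, h3]
      abel
    rw [h4]
    exact nucL_sub (nucL_lamS he hfin hsum) (nucL_lamS he hfin hsum)
  obtain ⟨hZ, eZ, nZ, tZ⟩ := hA (X × Fin q) L P P' hPP hPP' eP eP' hnuc
  set Z := ZZ P' (P - P') with hZdef
  have nZ' : ‖Z‖ ≤ C₀ := by
    refine norm_ZZ_le (by positivity) (nP'.trans (by linarith)) ?_
    refine (norm_sub_le _ _).trans ?_
    linarith
  have hS' : S ∈ cornerG {p : X × Fin q | p.1 ∈ F'} N :=
    cor_iff.1 (by exact hS)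
  set z := blk true true 1 + S with hz
  have hzn : ‖z‖ ≤ C₀ + 1 := by
    have h1 : z = Z - (Z - z) := by abel
    rw [h1]
    refine (norm_sub_le _ _).trans ?_
    linarith
  have hdz : ‖z * z - z‖ ≤ δ * (2 * C₀ + 2) := by
    have h1 : z * z - z = (z - Z) * z + Z * (z - Z) - (z - Z) := by
      have : z * z - z = (z - Z) * z + Z * (z - Z) - (z - Z) + (Z * Z - Z) := by noncomm_ring
      rw [this, hZ, sub_self, add_zero]
    have h2 : ‖z - Z‖ ≤ δ := by rw [norm_sub_rev]; exact hSn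
    rw [h1]
    have h3 : ‖(z - Z) * z‖ ≤ δ * (C₀ + 1) :=
      (norm_mul_le _ _).trans (mul_le_mul h2 hzn (norm_nonneg _) hδ0.le)
    have h4 : ‖Z * (z - Z)‖ ≤ C₀ * δ :=
      (norm_mul_le _ _).trans (mul_le_mul nZ' h2 (norm_nonneg _) (by linarith))
    calc _ ≤ ‖(z - Z) * z‖ + ‖Z * (z - Z)‖ + ‖z - Z‖ :=
          (norm_sub_le _ _).trans (add_le_add (norm_add_le _ _) le_rfl)
      _ ≤ δ * (2 * C₀ + 2) := by linarith
  have hdz' : ‖z * z - z‖ ≤ 1 / 16 := by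
    refine hdz.trans ?_
    nlinarith
  obtain ⟨S', hS1, hS2, hS3⟩ := newt_corner {p : X × Fin q | p.1 ∈ F'} N hS' hdz'
  set z' := blk true true 1 + S' with hz'
  have hS1' : S' ∈ Cor {p : Bool × (X × Fin q) | p.2 ∈ {p : X × Fin q | p.1 ∈ F'}} N :=
    cor_iff.2 hS1
  have hFf : {p : Bool × (X × Fin q) | p.2 ∈ {p : X × Fin q | p.1 ∈ F'}}.Finite := by
    have h1 : {p : X × Fin q | p.1 ∈ F'} = F' ×ˢ (Set.univ : Set (Fin q)) := by
      ext p
      simp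
    have h2 : {p : Bool × (X × Fin q) | p.2 ∈ {p : X × Fin q | p.1 ∈ F'}} =
        (Set.univ : Set Bool) ×ˢ {p : X × Fin q | p.1 ∈ F'} := by
      ext p
      simp
    rw [h2, h1]
    exact Set.finite_univ.prod (hF'.prod Set.finite_univ)
  have ez' : Eqv z' := eqv_add eqv_E0 hS1.1
  have nS' : NucL S' := nucL_cor hFf hS1'
  have h5 : Z - z' = (Z - blk true true 1) - S' := by
    rw [hz']; abel
  have hnear : ‖Z - z'‖ * (1 + 2 * ‖Z‖) < 1 := by
    have h1 : z' - z = S' - S := by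
      rw [hz', hz]; abel
    have h2 : ‖z' - z‖ ≤ 3 * (2 * C₀ + 3) * (δ * (2 * C₀ + 2)) := by
      rw [h1]
      refine hS3.trans ?_
      refine mul_le_mul ?_ hdz (norm_nonneg _) (by positivity)
      linarith
    have h3 : ‖Z - z'‖ ≤ δ * C₁ := by
      have h4 : Z - z' = (Z - z) - (z' - z) := by abel
      rw [h4]
      refine (norm_sub_le _ _).trans ?_
      refine (add_le_add hSn h2).trans (le_of_eq ?_)
      rw [hC1']
      ring
    have h6 : 1 + 2 * ‖Z‖ ≤ 1 + 2 * C₀ := by linarith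
    calc ‖Z - z'‖ * (1 + 2 * ‖Z‖) ≤ (δ * C₁) * (1 + 2 * C₀) :=
          mul_le_mul h3 h6 (by positivity) (by positivity)
      _ = 1 / 32 := by rw [mul_assoc]; exact hδ1
      _ < 1 := by norm_num
  have h6 := hD (Bool × (X × Fin q)) L Z z' hZ hS2 eZ ez' (h5 ▸ nucL_sub nZ nS') hnear D
  rw [h5, sub_eq_add_neg, trD_add nZ (nucL_neg nS'), trD_neg, trD_cor hS1' hDN, neg_zero,
    add_zero, tZ] at h6
  exact h6

end Vale.Agent.P184.H856.Loc
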