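import Vale.Agent.P184.H847.Nuc
import Vale.Agent.P184.H13.Op

/-!
# P184: right equivariant operators on `ℓ¹(Y × L)` and their traces
-/

noncomputable section

namespace Vale.Agent.P184.H856

open Filter Topology
open Vale.Agent.P184 (IsIdem tau)
open Vale.Agent.P184.H13 (E dl co E_summable E_norm Emk Emk_apply E_ext dl_apply dl_self
  norm_apply_le)
open Vale.Agent.P184.H847 (hasSum_dl hasSum_clm hasSum_nrm norm_dl)

universe u v

variable {Y : Type u} {L : Type v}

theorem inj_fib (y : Y) : Function.Injective fun l : L => (y, l) :=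
  fun _ _ h => (Prod.mk.inj h).2

/-- restriction to the fiber over `y` -/
def pr (y : Y) : E (Y × L) →L[ℂ] E L :=
  LinearMap.mkContinuous
    { toFun := fun v => Emk (fun l => v (y, l)) ((E_summable v).comp_injective (inj_fib y))
      map_add' := fun _ _ => rfl
      map_smul' := fun _ _ => rfl } 1 (fun v => by
        rw [one_mul]
        change ‖Emk (fun l => v (y, l)) ((E_summable v).comp_injective (inj_fib y))‖ ≤ _
        rw [E_norm, E_norm]
        exact ((E_summable v).comp_injective (inj_fib y)).tsum_le_tsum_of_inj _ (inj_fib y)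
          (fun _ _ => norm_nonneg _) (fun _ => le_rfl) (E_summable v))

theorem pr_apply (y : Y) (v : E (Y × L)) (l : L) : pr y v l = v (y, l) := rfl

theorem norm_pr (y : Y) : ‖(pr y : E (Y × L) →L[ℂ] E L)‖ ≤ 1 :=
  LinearMap.mkContinuous_norm_le _ zero_le_one _

theorem norm_pr_apply_le (y : Y) (v : E (Y × L)) : ‖pr y v‖ ≤ ‖v‖ := by
  have h := (pr y : E (Y × L) →L[ℂ] E L).le_of_opNorm_le (norm_pr y) v
  rwa [one_mul] at h

theorem hasSum_pr (v : E (Y × L)) : HasSum (fun y => ‖pr y v‖) ‖v‖ := by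
  have h := hasSum_nrm v
  have h2 := h.prod_fiberwise (fun y => (hasSum_nrm (pr y v)))
  exact h2

/-- equivariance under the right translations, in terms of the entries -/
def Eqv [Group L] (K : E (Y × L) →L[ℂ] E (Y × L)) : Prop :=
  ∀ (y : Y) (l : L) (z : Y) (a m : L), K (dl (y, l * m)) (z, a * m) = K (dl (y, l)) (z, a)

/-- nuclear operators over `ℓ¹(L)` -/
def NucL (K : E (Y × L) →L[ℂ] E (Y × L)) : Prop := Summable fun y : Y => ‖(pr y).comp K‖

/-- sum over the conjugacy class `D` -/
def tD [Group L] (D : ConjClasses L) : E L →L[ℂ] ℂ :=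
  LinearMap.mkContinuous
    { toFun := fun w => ∑' l : D.carrier, w l
      map_add' := fun v w => by
        have h1 : Summable fun l : D.carrier => v l :=
          ((E_summable v).comp_injective Subtype.val_injective).of_norm
        have h2 : Summable fun l : D.carrier => w l :=
          ((E_summable w).comp_injective Subtype.val_injective).of_norm
        exact h1.tsum_add h2
      map_smul' := fun c v => tsum_mul_left } 1 (fun v => by
        rw [one_mul]
        have h1 : Summable fun l : D.carrier => ‖v l‖ :=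
          (E_summable v).comp_injective Subtype.val_injective
        change ‖∑' l : D.carrier, v l‖ ≤ ‖v‖
        rw [E_norm]
        exact (norm_tsum_le_tsum_norm h1).trans (h1.tsum_le_tsum_of_inj _
          Subtype.val_injective (fun _ _ => norm_nonneg _) (fun _ => le_rfl) (E_summable v)))

theorem tD_apply [Group L] (D : ConjClasses L) (w : E L) : tD D w = ∑' l : D.carrier, w l := rfl

theorem norm_tD_le [Group L] (D : ConjClasses L) (w : E L) : ‖tD D w‖ ≤ ‖w‖ := by
  have h := (tD D).le_of_opNorm_le (LinearMap.mkContinuous_norm_le _ zero_le_one _) w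
  rwa [one_mul] at h

/-- the trace at the conjugacy class `D` -/
def trD [Group L] (D : ConjClasses L) (K : E (Y × L) →L[ℂ] E (Y × L)) : ℂ :=
  ∑' y : Y, ∑' l : D.carrier, K (dl (y, 1)) (y, l)

theorem trD_eq [Group L] (D : ConjClasses L) (K : E (Y × L) →L[ℂ] E (Y × L)) :
    trD D K = ∑' y : Y, tD D (pr y (K (dl (y, 1)))) := rfl

theorem mul_entry (K T : E (Y × L) →L[ℂ] E (Y × L)) (p q : Y × L) :
    HasSum (fun r => T (dl p) r * K (dl r) q) ((K * T) (dl p) q) := by
  have h := hasSum_clm ((co q).comp K) (T (dl p))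
  exact h

section Group

variable [Group L]

theorem eqv_mul {K T : E (Y × L) →L[ℂ] E (Y × L)} (hK : Eqv K) (hT : Eqv T) : Eqv (K * T) := by
  intro y l z a m
  rw [← (mul_entry K T (y, l * m) (z, a * m)).tsum_eq, ← (mul_entry K T (y, l) (z, a)).tsum_eq]
  have e := (Equiv.prodCongr (Equiv.refl Y) (Equiv.mulRight m)).tsum_eq
    (fun r => T (dl (y, l * m)) r * K (dl r) (z, a * m))
  rw [← e]
  refine tsum_congr fun r => ?_
  obtain ⟨w, b⟩ := r
  change T (dl (y, l * m)) (w, b * m) * K (dl (w, b * m)) (z, a * m) = _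
  rw [hT, hK]

theorem eqv_add {K T : E (Y × L) →L[ℂ] E (Y × L)} (hK : Eqv K) (hT : Eqv T) : Eqv (K + T) := by
  intro y l z a m
  change K (dl (y, l * m)) (z, a * m) + T (dl (y, l * m)) (z, a * m) =
    K (dl (y, l)) (z, a) + T (dl (y, l)) (z, a)
  rw [hK, hT]

theorem eqv_neg {K : E (Y × L) →L[ℂ] E (Y × L)} (hK : Eqv K) : Eqv (-K) := by
  intro y l z a m
  change -K (dl (y, l * m)) (z, a * m) = -K (dl (y, l)) (z, a)
  rw [hK]

theorem eqv_sub {K T : E (Y × L) →L[ℂ] E (Y × L)} (hK : Eqv K) (hT : Eqv T) : Eqv (K - T) := by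
  rw [sub_eq_add_neg]
  exact eqv_add hK (eqv_neg hT)

theorem eqv_one : Eqv (1 : E (Y × L) →L[ℂ] E (Y × L)) := by
  classical
  intro y l z a m
  change (dl (y, l * m) : E (Y × L)) (z, a * m) = (dl (y, l) : E (Y × L)) (z, a)
  rw [dl_apply, dl_apply]
  simp only [Prod.mk.injEq, mul_left_inj]

theorem eqv_closed : IsClosed {K : E (Y × L) →L[ℂ] E (Y × L) | Eqv K} := by
  have h : {K : E (Y × L) →L[ℂ] E (Y × L) | Eqv K} = ⋂ (y : Y) (l : L) (z : Y) (a : L) (m : L),
      {K : E (Y × L) →L[ℂ] E (Y × L) | K (dl (y, l * m)) (z, a * m) = K (dl (y, l)) (z, a)} := by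
    ext K
    simp [Eqv]
  rw [h]
  refine isClosed_iInter fun y => isClosed_iInter fun l => isClosed_iInter fun z =>
    isClosed_iInter fun a => isClosed_iInter fun m => ?_
  refine isClosed_eq ?_ ?_
  · exact (co (z, a * m)).continuous.comp
      (ContinuousLinearMap.apply ℂ (E (Y × L)) (dl (y, l * m))).continuous
  · exact (co (z, a)).continuous.comp
      (ContinuousLinearMap.apply ℂ (E (Y × L)) (dl (y, l))).continuous

/-- the fibers of the columns of an equivariant operator have the same norm -/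
theorem norm_col {B : E (Y × L) →L[ℂ] E (Y × L)} (hB : Eqv B) (y z : Y) (a : L) :
    ‖pr y (B (dl (z, a)))‖ = ‖pr y (B (dl (z, 1)))‖ := by
  rw [E_norm, E_norm]
  rw [← (Equiv.mulRight a).tsum_eq (fun l => ‖pr y (B (dl (z, a))) l‖)]
  refine tsum_congr fun l => ?_
  change ‖B (dl (z, a)) (y, l * a)‖ = ‖B (dl (z, 1)) (y, l)‖
  have := hB z 1 y l a
  rw [one_mul] at this
  rw [this]

end Group


/-! ### right translations -/

/-- right translation of the indices -/
def mulE [Group L] (m : L) : Y × L ≃ Y × L :=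
  Equiv.prodCongr (Equiv.refl Y) (Equiv.mulRight m⁻¹)

theorem rt_summable [Group L] (m : L) (v : E (Y × L)) :
    Summable fun p : Y × L => ‖v (p.1, p.2 * m⁻¹)‖ := by
  have h : Summable ((fun p => ‖v p‖) ∘ (mulE m : Y × L ≃ Y × L)) :=
    (mulE m).summable_iff.2 (E_summable v)
  exact h

theorem rt_tsum [Group L] (m : L) (v : E (Y × L)) :
    ∑' p : Y × L, ‖v (p.1, p.2 * m⁻¹)‖ = ‖v‖ := by
  have h := (mulE m : Y × L ≃ Y × L).tsum_eq (fun p => ‖v p‖)
  rw [E_norm]
  exact h

/-- right translation by `m` as a linear map -/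
def RtL [Group L] (m : L) : E (Y × L) →ₗ[ℂ] E (Y × L) where
  toFun v := Emk (fun p => v (p.1, p.2 * m⁻¹)) (rt_summable m v)
  map_add' _ _ := rfl
  map_smul' _ _ := rfl

/-- right translation by `m` -/
def Rt [Group L] (m : L) : E (Y × L) →L[ℂ] E (Y × L) :=
  LinearMap.mkContinuous (RtL m) 1 (fun v => by
    rw [one_mul]
    have h : ‖RtL m v‖ = ∑' p : Y × L, ‖v (p.1, p.2 * m⁻¹)‖ := E_norm _
    rw [h, rt_tsum])

theorem Rt_apply [Group L] (m : L) (v : E (Y × L)) (p : Y × L) :
    Rt m v p = v (p.1, p.2 * m⁻¹) := rfl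

theorem Rt_dl [Group L] (m : L) (y : Y) (l : L) :
    Rt m (dl (y, l) : E (Y × L)) = dl (y, l * m) := by
  classical
  refine E_ext fun p => ?_
  obtain ⟨z, a⟩ := p
  rw [Rt_apply, dl_apply, dl_apply]
  simp only [Prod.mk.injEq, mul_inv_eq_iff_eq_mul]

theorem eqv_iff [Group L] (K : E (Y × L) →L[ℂ] E (Y × L)) :
    Eqv K ↔ ∀ y l m, K (dl (y, l * m)) = Rt m (K (dl (y, l))) := by
  constructor
  · intro h y l m
    refine E_ext fun p => ?_
    obtain ⟨z, a⟩ := p
    rw [Rt_apply]
    have := h y l z (a * m⁻¹) m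
    rwa [inv_mul_cancel_right] at this
  · intro h y l z a m
    rw [h, Rt_apply, mul_inv_cancel_right]

end Vale.Agent.P184.H856
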