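import Vale.Agent.P184.H856.PDefs
import Vale.Agent.P184.H13.Rep

/-!
# P184: the representation of `ℓ¹(G)` on `ℓ¹((X × Fin q) × L)` attached to a cocycle
-/

noncomputable section

namespace Vale.Agent.P184.H856

open Vale.Agent.P184 (IsIdem tau)
open Vale.Agent.P184.H13 (E dl co E_summable E_norm Emk Emk_apply E_ext dl_apply dl_self
  norm_apply_le Bd U U_apply norm_U sm sm_nonneg)

/-! ### change of the index set -/

section Re

variable {A B : Type*}

theorem re_summable (e : A ≃ B) (v : E B) : Summable fun a => ‖v (e a)‖ := by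
  have h : Summable ((fun b => ‖v b‖) ∘ e) := e.summable_iff.2 (E_summable v)
  exact h

/-- change of the index set, linear -/
def reL (e : A ≃ B) : E B →ₗ[ℂ] E A where
  toFun v := Emk (fun a => v (e a)) (re_summable e v)
  map_add' _ _ := rfl
  map_smul' _ _ := rfl

/-- change of the index set -/
def reE (e : A ≃ B) : E B →L[ℂ] E A :=
  LinearMap.mkContinuous (reL e) 1 (fun v => by
    rw [one_mul]
    have h : ‖reL e v‖ = ∑' a, ‖v (e a)‖ := E_norm _
    have h2 : ∑' a, ‖v (e a)‖ = ∑' b, ‖v b‖ := e.tsum_eq (fun b => ‖v b‖)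
    rw [h, h2, E_norm])

theorem reE_apply (e : A ≃ B) (v : E B) (a : A) : reE e v a = v (e a) := rfl

theorem norm_reE (e : A ≃ B) : ‖(reE e : E B →L[ℂ] E A)‖ ≤ 1 :=
  LinearMap.mkContinuous_norm_le _ zero_le_one _

end Re

variable {G X L : Type*} [Group L] {q : ℕ}

/-- the indices -/
def idx : (X × Fin q) × L ≃ (X × L) × Fin q where
  toFun p := ((p.1.1, p.2), p.1.2)
  invFun p := ((p.1.1, p.2), p.1.2)
  left_inv _ := rfl
  right_inv _ := rfl

/-- the permutation of `X × L` -/
def permXL (a : X → L) (s : Equiv.Perm X) : Equiv.Perm (X × L) where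
  toFun p := (s p.1, a p.1 * p.2)
  invFun p := (s.symm p.1, (a (s.symm p.1))⁻¹ * p.2)
  left_inv p := by
    obtain ⟨x, l⟩ := p
    simp
  right_inv p := by
    obtain ⟨x, l⟩ := p
    simp

open Classical in
/-- the indicator function of the set `b` -/
def bdS (b : Set X) : Bd (X × L) :=
  ⟨fun p => if p.1 ∈ b then 1 else 0, 1, fun p => by
    split_ifs
    · rw [norm_one]
    · rw [norm_zero]; exact zero_le_one, zero_le_one⟩

/-- the monomial operator -/
def VL (a : X → L) (b : Set X) (s : Equiv.Perm X) (m : Matrix (Fin q) (Fin q) ℂ) :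
    E ((X × Fin q) × L) →L[ℂ] E ((X × Fin q) × L) :=
  (reE idx).comp ((U (bdS b) (permXL a s) m).comp (reE idx.symm))

open Classical in
theorem VL_apply (a : X → L) (b : Set X) (s : Equiv.Perm X) (m : Matrix (Fin q) (Fin q) ℂ)
    (v : E ((X × Fin q) × L)) (z : X) (i : Fin q) (l : L) :
    VL a b s m v ((z, i), l) = if s.symm z ∈ b then
      ∑ j, m i j * v ((s.symm z, j), (a (s.symm z))⁻¹ * l) else 0 := by
  have h : VL a b s m v ((z, i), l) = (if s.symm z ∈ b then (1 : ℂ) else 0) *
      ∑ j, m i j * v ((s.symm z, j), (a (s.symm z))⁻¹ * l) := rfl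
  rw [h]
  split_ifs
  · rw [one_mul]
  · rw [zero_mul]

theorem norm_VL (a : X → L) (b : Set X) (s : Equiv.Perm X) (m : Matrix (Fin q) (Fin q) ℂ) :
    ‖VL a b s m‖ ≤ sm m := by
  have h1 := norm_U (bdS b) (permXL a s) m
  rw [show (bdS b : Bd (X × L)).B = 1 from rfl, one_mul] at h1
  refine (ContinuousLinearMap.opNorm_comp_le _ _).trans ?_
  have h2 : ‖(U (bdS b) (permXL a s) m).comp (reE (idx (X := X) (L := L) (q := q)).symm)‖ ≤
      sm m := by
    refine (ContinuousLinearMap.opNorm_comp_le _ _).trans ?_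
    refine (mul_le_mul h1 (norm_reE _) (norm_nonneg _) (sm_nonneg m)).trans ?_
    rw [mul_one]
  refine (mul_le_mul (norm_reE _) h2 (norm_nonneg _) zero_le_one).trans ?_
  rw [one_mul]

/-- the part of the representation in which `g` only acts on `S g` -/
def lamS [Group G] [MulAction G X] (α : G → X → L) (S : G → Set X)
    (F : G → Matrix (Fin q) (Fin q) ℂ) : E ((X × Fin q) × L) →L[ℂ] E ((X × Fin q) × L) :=
  ∑' g, VL (α g) (S g) (MulAction.toPerm g) (F g)

/-- the representation -/
def lam [Group G] [MulAction G X] (α : G → X → L) (F : G → Matrix (Fin q) (Fin q) ℂ) :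
    E ((X × Fin q) × L) →L[ℂ] E ((X × Fin q) × L) := lamS α (fun _ => Set.univ) F

theorem VL_summable [Group G] [MulAction G X] (α : G → X → L) (S : G → Set X)
    {F : G → Matrix (Fin q) (Fin q) ℂ} (hF : Summable fun g => sm (F g)) :
    Summable fun g => ‖VL (α g) (S g) (MulAction.toPerm g) (F g)‖ :=
  Summable.of_nonneg_of_le (fun _ => norm_nonneg _)
    (fun g => norm_VL (α g) (S g) (MulAction.toPerm g) (F g)) hF

theorem lamS_apply [Group G] [MulAction G X] (α : G → X → L) (S : G → Set X)
    {F : G → Matrix (Fin q) (Fin q) ℂ} (hF : Summable fun g => sm (F g))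
    (v : E ((X × Fin q) × L)) (p : (X × Fin q) × L) :
    HasSum (fun g => VL (α g) (S g) (MulAction.toPerm g) (F g) v p) (lamS α S F v p) := by
  have h := (VL_summable α S hF).of_norm.hasSum
  have h2 := ((co p).comp (ContinuousLinearMap.apply ℂ (E ((X × Fin q) × L)) v)).hasSum h
  exact h2

end Vale.Agent.P184.H856
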