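import Vale.Agent.P184.H856.RepD
import Vale.Agent.P184.H856.Cyc

/-!
# P184: nuclearity and traces of the operators `lamS`
-/

noncomputable section

namespace Vale.Agent.P184.H856

open Filter Topology
open Vale.Agent.P184 (IsIdem tau toFn)
open Vale.Agent.P184.H13 (E dl co E_summable E_norm Emk Emk_apply E_ext dl_apply dl_self
  norm_apply_le Bd U U_apply norm_U sm sm_nonneg sm_le)
open Vale.Agent.P184.H847 (hasSum_dl hasSum_clm hasSum_nrm norm_dl)

section One

variable {X L : Type*} [Group L] {q : ℕ}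

theorem VL_dl_pos (a : X → L) (b : Set X) (s : Equiv.Perm X) (m : Matrix (Fin q) (Fin q) ℂ)
    {x z : X} (j i : Fin q) {l r : L} (h1 : s x = z) (h3 : x ∈ b) (h4 : a x * l = r) :
    VL a b s m (dl ((x, j), l)) ((z, i), r) = m i j := by
  classical
  have h2 : s.symm z = x := by rw [Equiv.symm_apply_eq, h1]
  have h5 : (a x)⁻¹ * r = l := by rw [← h4, inv_mul_cancel_left]
  rw [VL_apply, h2, if_pos h3, h5, Finset.sum_eq_single j]
  · rw [dl_self, mul_one]
  · intro k _ hk
    rw [dl_apply, if_neg, mul_zero]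
    intro h
    exact hk (Prod.mk.inj (Prod.mk.inj h).1).2
  · intro h
    exact absurd (Finset.mem_univ j) h

theorem VL_dl_neg (a : X → L) (b : Set X) (s : Equiv.Perm X) (m : Matrix (Fin q) (Fin q) ℂ)
    {x z : X} (j i : Fin q) {l r : L} (h : ¬ (s x = z ∧ x ∈ b ∧ a x * l = r)) :
    VL a b s m (dl ((x, j), l)) ((z, i), r) = 0 := by
  classical
  rw [VL_apply]
  by_cases h3 : s.symm z ∈ b
  · rw [if_pos h3]
    refine Finset.sum_eq_zero fun k _ => ?_
    rw [dl_apply, if_neg, mul_zero]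
    intro h2
    have h4 : s.symm z = x := (Prod.mk.inj (Prod.mk.inj h2).1).1
    have h5 : (a (s.symm z))⁻¹ * r = l := (Prod.mk.inj h2).2
    rw [h4] at h3 h5
    refine h ⟨?_, h3, ?_⟩
    · rw [← h4, Equiv.apply_symm_apply]
    · rw [← h5, mul_inv_cancel_left]
  · rw [if_neg h3]

/-- the rows of `VL` -/
theorem norm_pr_VL (a : X → L) (b : Set X) (s : Equiv.Perm X) (m : Matrix (Fin q) (Fin q) ℂ)
    (z : X) (i : Fin q) : ‖(pr (z, i)).comp (VL a b s m)‖ ≤ sm m := by
  refine (ContinuousLinearMap.opNorm_comp_le _ _).trans ?_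
  refine (mul_le_mul (norm_pr _) (norm_VL a b s m) (norm_nonneg _) zero_le_one).trans ?_
  rw [one_mul]

theorem norm_pr_VL_zero (a : X → L) (b : Set X) (s : Equiv.Perm X)
    (m : Matrix (Fin q) (Fin q) ℂ) {z : X} (i : Fin q) (h : s.symm z ∉ b) :
    ‖(pr (z, i)).comp (VL a b s m)‖ = 0 := by
  have h0 : (pr (z, i)).comp (VL a b s m) = 0 := by
    refine ContinuousLinearMap.ext fun v => E_ext fun l => ?_
    change VL a b s m v ((z, i), l) = 0
    rw [VL_apply, if_neg h]
  rw [h0, norm_zero]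

/-- the diagonal entries at a class -/
theorem tD_VL (D : ConjClasses L) (a : X → L) (b : Set X) (s : Equiv.Perm X)
    (m : Matrix (Fin q) (Fin q) ℂ) (z : X) (i : Fin q)
    (h : s z = z ∧ ConjClasses.mk (a z) = D ∧ z ∈ b) :
    tD D (pr (z, i) (VL a b s m (dl ((z, i), 1)))) = m i i := by
  rw [tD_ind, tsum_eq_single (a z)]
  · rw [pr_apply, VL_dl_pos a b s m i i h.1 h.2.2 (mul_one _)]
    have : ind D (a z) = 1 := by
      unfold ind
      exact if_pos h.2.1
    rw [this, one_mul]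
  · intro l hl
    rw [pr_apply, VL_dl_neg, mul_zero]
    rintro ⟨_, _, h3⟩
    exact hl (by rw [← h3, mul_one])

theorem tD_VL_zero (D : ConjClasses L) (a : X → L) (b : Set X) (s : Equiv.Perm X)
    (m : Matrix (Fin q) (Fin q) ℂ) (z : X) (i : Fin q)
    (h : ¬ (s z = z ∧ ConjClasses.mk (a z) = D ∧ z ∈ b)) :
    tD D (pr (z, i) (VL a b s m (dl ((z, i), 1)))) = 0 := by
  rw [tD_ind]
  refine (tsum_congr fun l => ?_).trans tsum_zero
  rw [pr_apply]
  by_cases h2 : s z = z ∧ z ∈ b ∧ a z * 1 = l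
  · have : ind D l = 0 := by
      unfold ind
      refine if_neg fun h3 => h ⟨h2.1, ?_, h2.2.1⟩
      rw [← h3, ← h2.2.2, mul_one]
    rw [this, zero_mul]
  · rw [VL_dl_neg a b s m i i h2, mul_zero]

end One

variable {G X L : Type*} [Group G] [MulAction G X] [Group L] {q : ℕ}
  {α : G → X → L} {B : G → Set X} {F : G → Matrix (Fin q) (Fin q) ℂ}

/-- row norms of the terms -/
def rnL (α : G → X → L) (B : G → Set X) (F : G → Matrix (Fin q) (Fin q) ℂ) (g : G)
    (y : X × Fin q) : ℝ :=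
  ‖(pr y).comp (VL (α g) (B g) (MulAction.toPerm g) (F g))‖

theorem rnL_nonneg (g : G) (y : X × Fin q) : 0 ≤ rnL α B F g y := norm_nonneg _

theorem rnL_row (hB : ∀ g, (B g).Finite) (g : G) :
    (Summable fun y => rnL α B F g y) ∧ ∑' y, rnL α B F g y ≤
      ((B g).ncard : ℝ) * (q * sm (F g)) := by
  classical
  set D : Finset X := (hB g).toFinset with hD
  have hmem : ∀ x, x ∈ D ↔ x ∈ B g := fun x => by rw [hD, Set.Finite.mem_toFinset]
  let φ : X × Fin q ≃ X × Fin q := Equiv.prodCongr (MulAction.toPerm g) (Equiv.refl _)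
  have hb : ∀ y : X × Fin q, rnL α B F g (φ y) ≤ if y.1 ∈ D then sm (F g) else 0 := by
    intro y
    by_cases hy : y.1 ∈ D
    · rw [if_pos hy]
      exact norm_pr_VL _ _ _ _ _ _
    · rw [if_neg hy]
      refine le_of_eq ?_
      refine norm_pr_VL_zero _ _ _ _ y.2 ?_
      intro h
      refine hy ((hmem _).2 ?_)
      have h2 : (MulAction.toPerm g : Equiv.Perm X).symm (g • y.1) = y.1 := by
        rw [Equiv.symm_apply_eq]; rfl
      rw [← h2]
      exact h
  have hz : ∀ y ∉ D ×ˢ (Finset.univ : Finset (Fin q)),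
      (if y.1 ∈ D then sm (F g) else (0 : ℝ)) = 0 := by
    intro y hy
    refine if_neg fun h => hy ?_
    exact Finset.mem_product.2 ⟨h, Finset.mem_univ _⟩
  have hs : Summable fun y : X × Fin q => if y.1 ∈ D then sm (F g) else (0 : ℝ) :=
    summable_of_ne_finset_zero hz
  have hs2 : Summable fun y => rnL α B F g (φ y) :=
    Summable.of_nonneg_of_le (fun _ => norm_nonneg _) hb hs
  refine ⟨φ.summable_iff.1 hs2, ?_⟩
  rw [← φ.tsum_eq (fun y => rnL α B F g y)]
  refine (hs2.tsum_le_tsum hb hs).trans ?_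
  rw [tsum_eq_sum hz, Finset.sum_product]
  have h5 : ∀ x ∈ D, ∑ _i : Fin q, (if x ∈ D then sm (F g) else (0 : ℝ)) = q * sm (F g) := by
    intro x hx
    rw [if_pos hx, Finset.sum_const, Finset.card_univ, Fintype.card_fin, nsmul_eq_mul]
  rw [Finset.sum_congr rfl h5, Finset.sum_const, nsmul_eq_mul]
  refine le_of_eq ?_
  congr 1
  rw [Set.ncard_eq_toFinset_card _ (hB g)]

variable (hB : ∀ g, (B g).Finite) (hF : Summable fun g => sm (F g))
  (hFl : Summable fun g => sm (F g) * ((B g).ncard : ℝ))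

include hB hFl in
theorem rnL_summable : Summable fun p : G × (X × Fin q) => rnL α B F p.1 p.2 := by
  refine (summable_prod_of_nonneg (f := fun p : G × (X × Fin q) => rnL α B F p.1 p.2)
    fun _ => norm_nonneg _).2 ⟨fun g => (rnL_row hB g).1, ?_⟩
  refine Summable.of_nonneg_of_le (fun g => tsum_nonneg fun _ => norm_nonneg _)
    (fun g => ((rnL_row hB g).2.trans ?_)) (hFl.mul_left (q : ℝ))
  refine le_of_eq ?_
  ring

include hB hF hFl in
/-- the operators `lamS` over finite sets are nuclear -/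
theorem nucL_lamS : NucL (lamS α B F) := by
  have h1 := rnL_summable (α := α) hB hFl
  have h2 : Summable fun p : (X × Fin q) × G => rnL α B F p.2 p.1 := h1.prod_symm
  refine Summable.of_nonneg_of_le (fun _ => norm_nonneg _) (fun y => ?_) h2.prod
  have h3 := (ContinuousLinearMap.compL ℂ (E ((X × Fin q) × L)) (E ((X × Fin q) × L)) (E L)
    (pr y)).map_tsum (VL_summable α B hF).of_norm
  change ‖(ContinuousLinearMap.compL ℂ (E ((X × Fin q) × L)) (E ((X × Fin q) × L)) (E L)
    (pr y)) (∑' g, VL (α g) (B g) (MulAction.toPerm g) (F g))‖ ≤ _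
  rw [h3]
  exact norm_tsum_le_tsum_norm (h2.prod_factor y)

/-- the terms of the trace -/
def tmL (D : ConjClasses L) (α : G → X → L) (B : G → Set X)
    (F : G → Matrix (Fin q) (Fin q) ℂ) (g : G) (y : X × Fin q) : ℂ :=
  tD D (pr y (VL (α g) (B g) (MulAction.toPerm g) (F g) (dl (y, 1))))

theorem tmL_le (D : ConjClasses L) (g : G) (y : X × Fin q) :
    ‖tmL D α B F g y‖ ≤ rnL α B F g y := by
  refine (norm_tD_le D _).trans ?_
  have h := ((pr y).comp (VL (α g) (B g) (MulAction.toPerm g) (F g))).le_opNorm (dl (y, 1))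
  rw [norm_dl, mul_one] at h
  exact h

open Classical in
theorem tmL_eq (D : ConjClasses L) (g : G) (z : X) (i : Fin q) :
    tmL D α B F g (z, i) =
      if g • z = z ∧ ConjClasses.mk (α g z) = D ∧ z ∈ B g then F g i i else 0 := by
  by_cases h : g • z = z ∧ ConjClasses.mk (α g z) = D ∧ z ∈ B g
  · rw [if_pos h]
    exact tD_VL D _ _ _ _ z i h
  · rw [if_neg h]
    exact tD_VL_zero D _ _ _ _ z i h

open Classical in
include hB hF hFl in
theorem trD_lamS_aux (D : ConjClasses L) :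
    (Summable fun p : G × X => if p.1 • p.2 = p.2 ∧ ConjClasses.mk (α p.1 p.2) = D ∧
      p.2 ∈ B p.1 then ∑ i, F p.1 i i else 0) ∧
    trD D (lamS α B F) = ∑' p : G × X, if p.1 • p.2 = p.2 ∧
      ConjClasses.mk (α p.1 p.2) = D ∧ p.2 ∈ B p.1 then ∑ i, F p.1 i i else 0 := by
  have h1 := rnL_summable (α := α) hB hFl
  have ht : Summable fun p : G × (X × Fin q) => tmL D α B F p.1 p.2 :=
    Summable.of_norm_bounded h1 fun p => tmL_le D p.1 p.2
  have ht' : Summable fun p : (G × X) × Fin q => tmL D α B F p.1.1 (p.1.2, p.2) := by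
    have := (Equiv.prodAssoc G X (Fin q)).summable_iff.2 ht
    exact this
  have hin : ∀ p : G × X, ∑' i, tmL D α B F p.1 (p.2, i) = if p.1 • p.2 = p.2 ∧
      ConjClasses.mk (α p.1 p.2) = D ∧ p.2 ∈ B p.1 then ∑ i, F p.1 i i else 0 := by
    intro p
    rw [tsum_fintype]
    by_cases h : p.1 • p.2 = p.2 ∧ ConjClasses.mk (α p.1 p.2) = D ∧ p.2 ∈ B p.1
    · rw [if_pos h]
      exact Finset.sum_congr rfl fun i _ => by rw [tmL_eq, if_pos h]
    · rw [if_neg h]
      exact Finset.sum_eq_zero fun i _ => by rw [tmL_eq, if_neg h]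
  refine ⟨ht'.prod.congr hin, ?_⟩
  have h2 : trD D (lamS α B F) = ∑' y, ∑' g, tmL D α B F g y := by
    rw [trD_eq]
    refine tsum_congr fun y => ?_
    have h3 := (((tD D).comp (pr y)).comp (ContinuousLinearMap.apply ℂ
      (E ((X × Fin q) × L)) (dl (y, (1 : L))))).map_tsum (VL_summable α B hF).of_norm
    exact h3
  have h4 : ∑' y, ∑' g, tmL D α B F g y = ∑' g, ∑' y, tmL D α B F g y :=
    Summable.tsum_comm (f := fun g y => tmL D α B F g y) ht
  have h5 : ∑' p : G × (X × Fin q), tmL D α B F p.1 p.2 =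
      ∑' p : (G × X) × Fin q, tmL D α B F p.1.1 (p.1.2, p.2) :=
    ((Equiv.prodAssoc G X (Fin q)).tsum_eq
      (fun p : G × (X × Fin q) => tmL D α B F p.1 p.2)).symm
  rw [h2, h4, ← ht.tsum_prod, h5, ht'.tsum_prod]
  exact tsum_congr hin

include hB hF hFl in
/-- the family in the trace formula is summable -/
theorem sm_trD (D : ConjClasses L) :
    Summable fun p : {p : G × X // p.1 • p.2 = p.2 ∧ ConjClasses.mk (α p.1 p.2) = D ∧
      p.2 ∈ B p.1} => ∑ i, F p.1.1 i i := by
  classical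
  have h := (trD_lamS_aux (α := α) hB hF hFl D).1.comp_injective
    (i := fun p : {p : G × X // p.1 • p.2 = p.2 ∧ ConjClasses.mk (α p.1 p.2) = D ∧
      p.2 ∈ B p.1} => p.1) Subtype.val_injective
  exact h.congr fun p => if_pos p.2

include hB hF hFl in
/-- **The trace of `lamS`.** -/
theorem trD_lamS (D : ConjClasses L) :
    trD D (lamS α B F) = ∑' p : {p : G × X // p.1 • p.2 = p.2 ∧
      ConjClasses.mk (α p.1 p.2) = D ∧ p.2 ∈ B p.1}, ∑ i, F p.1.1 i i := by
  classical
  rw [(trD_lamS_aux (α := α) hB hF hFl D).2]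
  have h := tsum_subtype {p : G × X | p.1 • p.2 = p.2 ∧ ConjClasses.mk (α p.1 p.2) = D ∧
      p.2 ∈ B p.1} (fun p => ∑ i, F p.1 i i)
  refine Eq.trans ?_ h.symm
  refine tsum_congr fun p => ?_
  rw [Set.indicator_apply]
  rfl

end Vale.Agent.P184.H856
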