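import Vale.Agent.P184.H788.TrF

/-!
# P184: two actions and two cocycles which almost agree
-/

noncomputable section

namespace Vale.Agent.P184.H856

open Vale.Agent.P184 (IsIdem tau toFn)
open Vale.Agent.P184.H13 (sm sm_nonneg)
open Vale.Agent.P184.H788 (LC lamS exists_dec sm_dec eqv_ext Tm_dl lamS_dl nucTr lamS_add
  lamS_idem eqv_lamS)

universe u v w

section

variable {G : Type u} {X : Type v} {L : Type w} [Group G] [MulAction G X] [Group L] {q : ℕ}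

theorem tm_pos (α : LC G X L) (b : Set X) (g : G) (m : Matrix (Fin q) (Fin q) ℂ)
    {x z : X} (j i : Fin q) {l k : L} (h : x ∈ b ∧ g • x = z ∧ α.a g x * l = k) :
    H788.Tm α b g m (H13.dl ((x, j), l)) ((z, i), k) = m i j := by
  rw [Tm_dl]
  exact if_pos h

theorem tm_neg (α : LC G X L) (b : Set X) (g : G) (m : Matrix (Fin q) (Fin q) ℂ)
    {x z : X} (j i : Fin q) {l k : L} (h : ¬ (x ∈ b ∧ g • x = z ∧ α.a g x * l = k)) :
    H788.Tm α b g m (H13.dl ((x, j), l)) ((z, i), k) = 0 := by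
  rw [Tm_dl]
  exact if_neg h

end

/-- Row P for two actions `a₁`, `a₂` of `G` on the same set. -/
theorem rowP2 {G : Type u} {X : Type v} {L : Type w} [Group G] [Group L]
    (a₁ a₂ : MulAction G X) (α α' : G → X → L)
    (hα : ∀ g h x, α (g * h) x = α g (a₁.toSMul.smul h x) * α h x)
    (hα' : ∀ g h x, α' (g * h) x = α' g (a₂.toSMul.smul h x) * α' h x)
    (hfin : ∀ g, {x | ¬ (a₁.toSMul.smul g x = a₂.toSMul.smul g x ∧ α g x = α' g x)}.Finite)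
    (q : ℕ) (e : Matrix (Fin q) (Fin q) (G → ℂ)) (he : IsIdem e) :
    ∃ e₁ : Matrix (Fin q) (Fin q) (G → ℂ), IsIdem e₁ ∧ (∀ C, tau C e₁ = tau C e) ∧
      ∃ (m : ℕ) (f f' : Matrix (Fin m) (Fin m) (L → ℂ)), IsIdem f ∧ IsIdem f' ∧
        ∀ D : ConjClasses L, (∀ g x, ConjClasses.mk (α' g x) ≠ D) → tau D f' - tau D f =
          ∑' p : {p : G × X // a₁.toSMul.smul p.1 p.2 = p.2 ∧ ConjClasses.mk (α p.1 p.2) = D},
            ∑ i, e₁ i i p.1.1 := by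
  classical
  let c : G → Set X := fun g =>
    {x | ¬ (a₁.toSMul.smul g x = a₂.toSMul.smul g x ∧ α g x = α' g x)}
  have hinv : ∀ (g : G) (x : X), a₁.toSMul.smul g⁻¹ (a₁.toSMul.smul g x) = x := fun g x =>
    @inv_smul_smul G X _ a₁ g x
  have hm1 : ∀ (g h : G) (x : X), a₁.toSMul.smul (g * h) x =
      a₁.toSMul.smul g (a₁.toSMul.smul h x) := fun g h x => a₁.mul_smul g h x
  have hm2 : ∀ (g h : G) (x : X), a₂.toSMul.smul (g * h) x =
      a₂.toSMul.smul g (a₂.toSMul.smul h x) := fun g h x => a₂.mul_smul g h x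
  have hlen : ∀ g h : G, (c (g * h)).ncard ≤ (c g).ncard + (c h).ncard := by
    intro g h
    have hsub : c (g * h) ⊆ (fun x => a₁.toSMul.smul h⁻¹ x) '' (c g) ∪ c h := by
      intro x hx
      by_cases h1 : a₁.toSMul.smul h x = a₂.toSMul.smul h x ∧ α h x = α' h x
      · refine Or.inl ⟨a₁.toSMul.smul h x, ?_, hinv h x⟩
        intro h2
        refine hx ⟨?_, ?_⟩
        · rw [hm1, hm2, h2.1, h1.1]
        · rw [hα, hα', h2.2, h1.2, h1.1]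
      · exact Or.inr h1
    refine (Set.ncard_le_ncard hsub (((hfin g).image _).union (hfin h))).trans ?_
    refine (Set.ncard_union_le _ _).trans (Nat.add_le_add_right ?_ _)
    exact Set.ncard_image_le (hfin g)
  obtain ⟨e₁, he₁, hdec, htau⟩ := exists_dec (fun g => (c g).ncard) hlen e he
  let Z : @LC G X L _ a₁ _ := @LC.mk G X L _ a₁ _ α hα
  let Z' : @LC G X L _ a₂ _ := @LC.mk G X L _ a₂ _ α' hα'
  obtain ⟨hN, htr⟩ := @nucTr G X L _ a₁ _ Z c q e₁ he₁ hfin (sm_dec hdec)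
  obtain ⟨hN', htr'⟩ := @nucTr G X L _ a₂ _ Z' c q e₁ he₁ hfin (sm_dec hdec)
  have hadd := @lamS_add G X L _ a₁ _ q Z (fun g => (c g)ᶜ) e₁ he₁ c
    (fun g => (compl_compl (c g)).symm)
  have hadd' := @lamS_add G X L _ a₂ _ q Z' (fun g => (c g)ᶜ) e₁ he₁ c
    (fun g => (compl_compl (c g)).symm)
  have heq : @lamS G X L _ a₁ _ q Z (fun g => (c g)ᶜ) e₁ =
      @lamS G X L _ a₂ _ q Z' (fun g => (c g)ᶜ) e₁ := by
    refine eqv_ext (@eqv_lamS G X L _ a₁ _ q Z _ e₁ he₁) (@eqv_lamS G X L _ a₂ _ q Z' _ e₁ he₁)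
      fun y z l => ?_
    rw [@lamS_dl G X L _ a₁ _ q Z _ e₁ he₁, @lamS_dl G X L _ a₂ _ q Z' _ e₁ he₁]
    refine tsum_congr fun g => ?_
    obtain ⟨x, j⟩ := y
    obtain ⟨z, i⟩ := z
    by_cases h0 : x ∈ (c g)ᶜ ∧ a₁.toSMul.smul g x = z ∧ α g x * 1 = l
    · have h1 : a₁.toSMul.smul g x = a₂.toSMul.smul g x ∧ α g x = α' g x := not_not.1 h0.1
      have h2 : x ∈ (c g)ᶜ ∧ a₂.toSMul.smul g x = z ∧ α' g x * 1 = l :=
        ⟨h0.1, by rw [← h1.1]; exact h0.2.1, by rw [← h1.2]; exact h0.2.2⟩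
      exact (@tm_pos G X L _ a₁ _ q Z _ g _ x z j i 1 l h0).trans
        (@tm_pos G X L _ a₂ _ q Z' _ g _ x z j i 1 l h2).symm
    · have h2 : ¬ (x ∈ (c g)ᶜ ∧ a₂.toSMul.smul g x = z ∧ α' g x * 1 = l) := by
        intro h3
        have h1 : a₁.toSMul.smul g x = a₂.toSMul.smul g x ∧ α g x = α' g x := not_not.1 h3.1
        exact h0 ⟨h3.1, by rw [h1.1]; exact h3.2.1, by rw [h1.2]; exact h3.2.2⟩
      exact (@tm_neg G X L _ a₁ _ q Z _ g _ x z j i 1 l h0).trans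
        (@tm_neg G X L _ a₂ _ q Z' _ g _ x z j i 1 l h2).symm
  have h1 : @lamS G X L _ a₁ _ q Z (fun _ => Set.univ) e₁ -
      @lamS G X L _ a₂ _ q Z' (fun _ => Set.univ) e₁ =
      @lamS G X L _ a₁ _ q Z c e₁ + -@lamS G X L _ a₂ _ q Z' c e₁ := by
    rw [hadd, hadd', heq]; abel
  obtain ⟨m, f, f', h2, h3, h4⟩ := pOp (@lamS G X L _ a₂ _ q Z' (fun _ => Set.univ) e₁)
    (@lamS G X L _ a₁ _ q Z (fun _ => Set.univ) e₁) (@lamS_idem G X L _ a₂ _ q Z' e₁ he₁)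
    (@lamS_idem G X L _ a₁ _ q Z e₁ he₁)
    (@eqv_lamS G X L _ a₂ _ q Z' _ e₁ he₁) (@eqv_lamS G X L _ a₁ _ q Z _ e₁ he₁)
    (h1 ▸ nucL_add hN (nucL_neg hN'))
  refine ⟨e₁, he₁, htau, m, f, f', h2, h3, fun D hD => ?_⟩
  rw [h4, h1, trD_add hN (nucL_neg hN'), trD_neg, htr D, htr' D]
  have hz : ∑' p : {p : G × X // (a₂.toSMul.smul p.1 p.2 = p.2 ∧
      ConjClasses.mk (α' p.1 p.2) = D) ∧ p.2 ∈ c p.1}, ∑ i, e₁ i i p.1.1 = 0 := by
    have : IsEmpty {p : G × X // (a₂.toSMul.smul p.1 p.2 = p.2 ∧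
      ConjClasses.mk (α' p.1 p.2) = D) ∧ p.2 ∈ c p.1} := ⟨fun p => hD _ _ p.2.1.2⟩
    exact tsum_empty
  have hiff : ∀ p : G × X, ((a₁.toSMul.smul p.1 p.2 = p.2 ∧ ConjClasses.mk (α p.1 p.2) = D) ∧
      p.2 ∈ c p.1) ↔ (a₁.toSMul.smul p.1 p.2 = p.2 ∧ ConjClasses.mk (α p.1 p.2) = D) := by
    intro p
    refine ⟨fun h => h.1, fun h => ⟨h, fun h4 => ?_⟩⟩
    refine hD p.1 p.2 ?_
    rw [← h4.2]
    exact h.2
  have h5 := (Equiv.subtypeEquivRight hiff).tsum_eq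
    (fun p : {p : G × X // a₁.toSMul.smul p.1 p.2 = p.2 ∧ ConjClasses.mk (α p.1 p.2) = D} =>
      ∑ i, e₁ i i p.1.1)
  refine Eq.trans ?_ h5
  refine Eq.trans (congrArg₂ (· + ·) rfl (congrArg Neg.neg hz)) ?_
  rw [neg_zero, add_zero]
  rfl

end Vale.Agent.P184.H856
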