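import Vale.Agent.P184.H856.Eqv
import Vale.Agent.P184.H847.RowI

/-!
# P184: idempotents which are nuclear perturbations of a coordinate projection
-/

noncomputable section

namespace Vale.Agent.P184.H856

open Filter Topology
open Vale.Agent.P184 (IsIdem tau)
open Vale.Agent.P184.H13 (E dl co E_summable E_norm Emk Emk_apply E_ext dl_apply dl_self
  norm_apply_le)
open Vale.Agent.P184.H847 (hasSum_dl hasSum_clm hasSum_nrm norm_dl nw exists_idem_near close_idem)

universe u v

variable {Y : Type u} {L : Type v}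

/-! ### the coordinate projection -/

open Classical in
/-- the values of the coordinate projection -/
def P0fn (Z : Set Y) (v : Y × L → ℂ) (p : Y × L) : ℂ := if p.1 ∈ Z then v p else 0

theorem norm_P0fn_le (Z : Set Y) (v : Y × L → ℂ) (p : Y × L) : ‖P0fn Z v p‖ ≤ ‖v p‖ := by
  unfold P0fn
  split_ifs
  · exact le_rfl
  · rw [norm_zero]; exact norm_nonneg _

theorem P0_summable (Z : Set Y) (v : E (Y × L)) : Summable fun p => ‖P0fn Z v p‖ :=
  Summable.of_nonneg_of_le (fun _ => norm_nonneg _) (norm_P0fn_le Z v) (E_summable v)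

/-- the coordinate projection as a linear map -/
def P0L (Z : Set Y) : E (Y × L) →ₗ[ℂ] E (Y × L) where
  toFun v := Emk (P0fn Z v) (P0_summable Z v)
  map_add' v w := E_ext fun p => by
    change P0fn Z (v + w) p = P0fn Z v p + P0fn Z w p
    unfold P0fn
    split_ifs
    · rfl
    · rw [add_zero]
  map_smul' c v := E_ext fun p => by
    change P0fn Z (c • v) p = c * P0fn Z v p
    unfold P0fn
    split_ifs
    · rfl
    · rw [mul_zero]

/-- the coordinate projection -/
def P0 (Z : Set Y) : E (Y × L) →L[ℂ] E (Y × L) :=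
  LinearMap.mkContinuous (P0L Z) 1 (fun v => by
    rw [one_mul]
    have h : ‖P0L Z v‖ = ∑' p : Y × L, ‖P0fn Z v p‖ := E_norm _
    rw [h, E_norm]
    exact (P0_summable Z v).tsum_le_tsum (norm_P0fn_le Z v) (E_summable v))

open Classical in
theorem P0_apply (Z : Set Y) (v : E (Y × L)) (p : Y × L) :
    P0 Z v p = if p.1 ∈ Z then v p else 0 := rfl

theorem P0_mul (Z : Set Y) : (P0 Z : E (Y × L) →L[ℂ] E (Y × L)) * P0 Z = P0 Z := by
  classical
  refine ContinuousLinearMap.ext fun v => E_ext fun p => ?_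
  change P0 Z (P0 Z v) p = P0 Z v p
  rw [P0_apply, P0_apply]
  split_ifs <;> rfl

open Classical in
theorem pr_P0 (Z : Set Y) (y : Y) (v : E (Y × L)) :
    pr y (P0 Z v) = if y ∈ Z then pr y v else 0 := by
  refine E_ext fun l => ?_
  rw [pr_apply, P0_apply]
  by_cases h : y ∈ Z
  · rw [if_pos h, if_pos h]; rfl
  · rw [if_neg h, if_neg h]; rfl

theorem eqv_P0 [Group L] (Z : Set Y) : Eqv (P0 Z : E (Y × L) →L[ℂ] E (Y × L)) := by
  classical
  intro y l z a m
  rw [P0_apply, P0_apply, dl_apply, dl_apply]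
  simp only [Prod.mk.injEq, mul_left_inj]

/-! ### rows -/

open Classical in
/-- the values of the row operator -/
def rowfn (y : Y) (v : Y × L → ℂ) (p : Y × L) : ℂ := if p.1 = y then v p else 0

/-- the row `y` of `K` -/
def rwL (K : E (Y × L) →L[ℂ] E (Y × L)) (y : Y) : E (Y × L) →L[ℂ] E (Y × L) := P0 {y} * K

open Classical in
theorem rwL_apply (K : E (Y × L) →L[ℂ] E (Y × L)) (y : Y) (v : E (Y × L)) (p : Y × L) :
    rwL K y v p = if p.1 = y then K v p else 0 := by
  change P0 {y} (K v) p = _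
  rw [P0_apply]
  simp only [Set.mem_singleton_iff]

open Classical in
theorem pr_rwL (K : E (Y × L) →L[ℂ] E (Y × L)) (y z : Y) (v : E (Y × L)) :
    pr z (rwL K y v) = if z = y then pr z (K v) else 0 := by
  change pr z (P0 {y} (K v)) = _
  rw [pr_P0]
  simp only [Set.mem_singleton_iff]

theorem norm_rwL (K : E (Y × L) →L[ℂ] E (Y × L)) (y : Y) : ‖rwL K y‖ ≤ ‖(pr y).comp K‖ := by
  classical
  refine ContinuousLinearMap.opNorm_le_bound _ (norm_nonneg _) fun v => ?_
  have h1 := hasSum_pr (rwL K y v)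
  have h2 : HasSum (fun z => ‖pr z (rwL K y v)‖) ‖pr y (K v)‖ := by
    have h3 := hasSum_single (f := fun z => ‖pr z (rwL K y v)‖) y (fun z hz => by
      rw [pr_rwL, if_neg hz, norm_zero])
    rwa [pr_rwL, if_pos rfl] at h3
  rw [h1.unique h2]
  exact ((pr y).comp K).le_opNorm v

theorem hasSum_rowsL {K : E (Y × L) →L[ℂ] E (Y × L)} (hK : NucL K) : HasSum (rwL K) K := by
  classical
  have h1 : Summable (rwL K) := Summable.of_norm_bounded hK (norm_rwL K)
  obtain ⟨T, hT⟩ := h1
  have h2 : T = K := by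
    refine ContinuousLinearMap.ext fun v => E_ext fun p => ?_
    have h3 : HasSum (fun y => rwL K y v p) (T v p) := by
      have h4 := (ContinuousLinearMap.apply ℂ (E (Y × L)) v).hasSum hT
      have h5 := (co p).hasSum h4
      exact h5
    have h6 : HasSum (fun y => rwL K y v p) (K v p) := by
      have h7 := hasSum_single (f := fun y => rwL K y v p) p.1 (fun y hy => by
        rw [rwL_apply, if_neg (Ne.symm hy)])
      rwa [rwL_apply, if_pos rfl] at h7
    exact h3.unique h6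
  rwa [h2] at hT

/-! ### the closed class -/

/-- equivariant operators whose rows outside `S` are those of `P0 Z` -/
def clsL [Group L] (Z : Set Y) (S : Finset Y) : Set (E (Y × L) →L[ℂ] E (Y × L)) :=
  {T | Eqv T ∧ ∀ y ∉ S, ∀ v, pr y (T v) = pr y (P0 Z v)}

theorem clsL_closed [Group L] (Z : Set Y) (S : Finset Y) :
    IsClosed (clsL Z S : Set (E (Y × L) →L[ℂ] E (Y × L))) := by
  have h : (clsL Z S : Set (E (Y × L) →L[ℂ] E (Y × L))) = {T | Eqv T} ∩
      ⋂ (y : Y) (_ : y ∉ S) (v : E (Y × L)), {T | pr y (T v) = pr y (P0 Z v)} := by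
    ext T
    simp [clsL]
  rw [h]
  refine eqv_closed.inter ?_
  refine isClosed_iInter fun y => isClosed_iInter fun _ => isClosed_iInter fun v => ?_
  exact isClosed_eq ((pr y).continuous.comp
    (ContinuousLinearMap.apply ℂ (E (Y × L)) v).continuous) continuous_const

theorem clsL_P0 [Group L] (Z : Set Y) (S : Finset Y) :
    (P0 Z : E (Y × L) →L[ℂ] E (Y × L)) ∈ clsL Z S := ⟨eqv_P0 Z, fun _ _ _ => rfl⟩

theorem clsL_mul [Group L] {Z : Set Y} {S : Finset Y} {T W : E (Y × L) →L[ℂ] E (Y × L)}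
    (hT : T ∈ clsL Z S) (hW : W ∈ clsL Z S) : T * W ∈ clsL Z S := by
  classical
  refine ⟨eqv_mul hT.1 hW.1, fun y hy v => ?_⟩
  change pr y (T (W v)) = _
  rw [hT.2 y hy, pr_P0, hW.2 y hy, pr_P0]
  split_ifs <;> rfl

theorem clsL_nw [Group L] {Z : Set Y} {S : Finset Y} {T : E (Y × L) →L[ℂ] E (Y × L)}
    (hT : T ∈ clsL Z S) : nw T ∈ clsL Z S := by
  have h2 := clsL_mul hT hT
  have h3 := clsL_mul h2 hT
  have h1 : nw T = (T * T + T * T + T * T) - (T * T * T + T * T * T) := by
    unfold nw; noncomm_ring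
  rw [h1]
  refine ⟨eqv_sub (eqv_add (eqv_add h2.1 h2.1) h2.1) (eqv_add h3.1 h3.1), fun y hy v => ?_⟩
  have h4 := h2.2 y hy v
  have h5 := h3.2 y hy v
  change pr y (((T * T) v + (T * T) v + (T * T) v) - ((T * T * T) v + (T * T * T) v)) = _
  rw [map_sub, map_add, map_add, map_add, h4, h5]
  abel

theorem clsL_nuc [Group L] {Z : Set Y} {S : Finset Y} {T : E (Y × L) →L[ℂ] E (Y × L)}
    (hT : T ∈ clsL Z S) : NucL (T - P0 Z) := by
  refine summable_of_ne_finset_zero (s := S) fun y hy => ?_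
  have h : (pr y).comp (T - P0 Z) = 0 := by
    refine ContinuousLinearMap.ext fun v => ?_
    change pr y (T v - P0 Z v) = 0
    rw [map_sub, hT.2 y hy, sub_self]
  rw [h, norm_zero]

/-! ### the finite matrix -/

/-- the finite block of `T` -/
def mt [Group L] (S : Finset Y) (T : E (Y × L) →L[ℂ] E (Y × L)) :
    Matrix (Fin S.card) (Fin S.card) (L → ℂ) :=
  fun i j l => T (dl ((S.equivFin.symm j : Y), 1)) ((S.equivFin.symm i : Y), l)

theorem mt_sum (S : Finset Y) (F : Y → ℂ) :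
    ∑ i : Fin S.card, F (S.equivFin.symm i : Y) = ∑ y ∈ S, F y := by
  rw [Equiv.sum_comp S.equivFin.symm (fun y : S => F y)]
  exact Finset.sum_coe_sort S F

theorem mt_summable [Group L] (S : Finset Y) (T : E (Y × L) →L[ℂ] E (Y × L))
    (i j : Fin S.card) : Summable fun g => ‖mt S T i j g‖ :=
  E_summable (pr (S.equivFin.symm i : Y) (T (dl ((S.equivFin.symm j : Y), 1))))

theorem mt_idem [Group L] {Z : Set Y} {S : Finset Y} {T : E (Y × L) →L[ℂ] E (Y × L)}
    (hT : T ∈ clsL Z S) (hi : T * T = T) : IsIdem (mt S T) := by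
  classical
  refine ⟨mt_summable S T, fun i j g => ?_⟩
  set y := (S.equivFin.symm j : Y) with hy
  set z := (S.equivFin.symm i : Y) with hz
  have hyS : y ∈ S := (S.equivFin.symm j).2
  have h1 := mul_entry T T (y, 1) (z, g)
  rw [hi] at h1
  have h2 : ∑' w : Y, ∑' m : L, T (dl (y, 1)) (w, m) * T (dl (w, m)) (z, g) =
      T (dl (y, 1)) (z, g) := by
    rw [← h1.summable.tsum_prod]
    exact h1.tsum_eq
  have h3 : ∀ w ∉ S, ∑' m : L, T (dl (y, 1)) (w, m) * T (dl (w, m)) (z, g) = 0 := by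
    intro w hw
    have h4 : ∀ m, T (dl (y, 1)) (w, m) = 0 := by
      intro m
      have h5 := congrArg (fun u : E L => u m) (hT.2 w hw (dl (y, 1)))
      have h6 : T (dl (y, 1)) (w, m) = P0 Z (dl (y, 1)) (w, m) := h5
      rw [h6, P0_apply, dl_apply]
      have : (w, m) ≠ (y, (1 : L)) := fun h => hw ((Prod.mk.inj h).1 ▸ hyS)
      rw [if_neg this, ite_self]
    rw [tsum_congr fun m => by rw [h4 m, zero_mul], tsum_zero]
  rw [tsum_eq_sum (s := S) (fun w hw => h3 w hw)] at h2
  have h7 : ∀ w : Y, ∑' m : L, T (dl (y, 1)) (w, m) * T (dl (w, m)) (z, g) =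
      ∑' h : L, T (dl (w, 1)) (z, h) * T (dl (y, 1)) (w, h⁻¹ * g) := by
    intro w
    have e : L ≃ L := (Equiv.inv L).trans (Equiv.mulRight g)
    have he := ((Equiv.inv L).trans (Equiv.mulRight g)).tsum_eq
      (fun m => T (dl (y, 1)) (w, m) * T (dl (w, m)) (z, g))
    rw [← he]
    refine tsum_congr fun h => ?_
    change T (dl (y, 1)) (w, h⁻¹ * g) * T (dl (w, h⁻¹ * g)) (z, g) = _
    have h8 := hT.1 w 1 z h (h⁻¹ * g)
    rw [one_mul, mul_inv_cancel_left] at h8
    rw [h8, mul_comm]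
  rw [Finset.sum_congr rfl fun w _ => h7 w] at h2
  have h9 := mt_sum S (fun w => ∑' h : L, T (dl (w, 1)) (z, h) * T (dl (y, 1)) (w, h⁻¹ * g))
  rw [← h9] at h2
  exact h2

theorem tau_mt [Group L] (S : Finset Y) (T : E (Y × L) →L[ℂ] E (Y × L)) (D : ConjClasses L) :
    tau D (mt S T) = ∑ y ∈ S, tD D (pr y (T (dl (y, 1)))) := by
  rw [← mt_sum S (fun y => tD D (pr y (T (dl (y, 1)))))]
  unfold tau
  rw [Summable.tsum_finsetSum fun i _ => ?_]
  · rfl
  · exact ((mt_summable S T i i).comp_injective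
      (Subtype.val_injective (p := fun g => g ∈ D.carrier))).of_norm

theorem trD_cls [Group L] {Z : Set Y} {S : Finset Y} {T : E (Y × L) →L[ℂ] E (Y × L)}
    (hT : T ∈ clsL Z S) (D : ConjClasses L) :
    trD D (T - P0 Z) = tau D (mt S T) - tau D (mt S (P0 Z : E (Y × L) →L[ℂ] E (Y × L))) := by
  rw [tau_mt, tau_mt, ← Finset.sum_sub_distrib, trD_eq, tsum_eq_sum (s := S)]
  · refine Finset.sum_congr rfl fun y _ => ?_
    rw [← map_sub, ← map_sub]
    rfl
  · intro y hy
    change tD D (pr y (T (dl (y, 1)) - P0 Z (dl (y, 1)))) = 0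
    rw [map_sub, hT.2 y hy, sub_self, map_zero]

/-- the hypothesis: near idempotents have the same trace -/
def Near (Y : Type u) (L : Type v) [Group L] : Prop :=
  ∀ P P' : E (Y × L) →L[ℂ] E (Y × L), P * P = P → P' * P' = P' → Eqv P → Eqv P' →
    NucL (P' - P) → ‖P' - P‖ < 1 → ∀ D : ConjClasses L, trD D (P' - P) = 0

theorem pOp1 [Group L] (hnear : Near Y L) (Z : Set Y) (Q : E (Y × L) →L[ℂ] E (Y × L))
    (hQ : Q * Q = Q) (eQ : Eqv Q) (hN : NucL (Q - P0 Z)) :
    ∃ (N : ℕ) (f f' : Matrix (Fin N) (Fin N) (L → ℂ)), IsIdem f ∧ IsIdem f' ∧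
      ∀ D, tau D f' - tau D f = trD D (Q - P0 Z) := by
  classical
  rcases isEmpty_or_nonempty Y with hY | ⟨⟨y0⟩⟩
  · refine ⟨0, fun i => i.elim0, fun i => i.elim0, ⟨fun i => i.elim0, fun i => i.elim0⟩,
      ⟨fun i => i.elim0, fun i => i.elim0⟩, fun D => ?_⟩
    rw [sub_self, trD_eq, tsum_empty]
  have : Nontrivial (E (Y × L)) := ⟨⟨dl (y0, 1), 0, fun h => by
    have := norm_dl (y0, (1 : L))
    rw [h, norm_zero] at this
    norm_num at this⟩⟩
  set K := Q - P0 Z with hK
  have hs : Tendsto (fun S : Finset Y => P0 Z + ∑ y ∈ S, rwL K y) atTop (𝓝 Q) := by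
    have h := (hasSum_rowsL hN).const_add (P0 Z)
    have h2 : P0 Z + K = Q := by rw [hK]; abel
    rw [h2] at h
    exact h
  obtain ⟨S, h16, hlt⟩ := (hs.eventually (close_idem hQ)).exists
  set x := P0 Z + ∑ y ∈ S, rwL K y with hx
  have hxv : ∀ v, x v = P0 Z v + ∑ y ∈ S, rwL K y v := by
    intro v
    rw [hx, add_apply, sum_apply]
  have eK : Eqv K := eqv_sub eQ (eqv_P0 Z)
  have hxC : x ∈ clsL Z S := by
    refine ⟨?_, fun y hy v => ?_⟩
    · have h5 : ∀ S' : Finset Y, Eqv (∑ y ∈ S', rwL K y) := by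
        intro S'
        induction S' using Finset.induction_on with
        | empty =>
          rw [Finset.sum_empty]
          intro y l z a m
          rfl
        | insert y S' hy ih =>
          rw [Finset.sum_insert hy]
          exact eqv_add (eqv_mul (eqv_P0 _) eK) ih
      exact eqv_add (eqv_P0 Z) (h5 S)
    · rw [hxv, map_add, map_sum, Finset.sum_eq_zero, add_zero]
      intro z hz
      have hne : y ≠ z := fun h => hy (by rw [h]; exact hz)
      rw [pr_rwL, if_neg hne]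
  obtain ⟨f, hfC, hf, hfx⟩ := exists_idem_near (clsL_closed Z S) (fun a ha => clsL_nw ha) x hxC h16
  refine ⟨S.card, mt S (P0 Z), mt S f, mt_idem (clsL_P0 Z S) (P0_mul Z), mt_idem hfC hf,
    fun D => ?_⟩
  have hN2 : NucL (Q - f) := by
    have : Q - f = K - (f - P0 Z) := by rw [hK]; abel
    rw [this]
    exact nucL_sub hN (clsL_nuc hfC)
  have h1 : ‖Q - f‖ < 1 := by
    have h2 : Q - f = -((f - x) + (x - Q)) := by abel
    rw [h2, norm_neg]
    exact (norm_add_le _ _).trans_lt (by linarith)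
  have h0 := hnear f Q hf hQ hfC.1 eQ hN2 h1 D
  have h3 : K = (Q - f) + (f - P0 Z) := by rw [hK]; abel
  rw [h3, trD_add hN2 (clsL_nuc hfC), h0, zero_add, trD_cls hfC]

end Vale.Agent.P184.H856
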