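import Mathlib.GroupTheory.Index

/-!
# P184: virtual retracts
-/

namespace Vale.Agent.P184.H856

/-- `f : H → G` is virtually a retract: `ρ` is a homomorphism to `H` from a subgroup `L` of
finite index of `G`, and for every `x` in `G` the map `y ↦ ρ (x⁻¹ f(y) x)` is defined on all of
`H` and is an inner automorphism of `H`. -/
def VirtRetract {G H : Type*} [Group G] [Group H] (f : H →* G) : Prop :=
  ∃ (L : Subgroup G) (ρ : L →* H), L.FiniteIndex ∧
    ∀ x : G, ∃ z : H, ∀ y : H, ∃ h : x⁻¹ * f y * x ∈ L, ρ ⟨_, h⟩ = z⁻¹ * y * z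

end Vale.Agent.P184.H856
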