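import Vale.Agent.P184.H856.RowP2
import Vale.Agent.P184.H290.One

/-!
# P184: cocycles with almost all values in a subgroup which maps onto a subgroup of finite index
-/

noncomputable section

namespace Vale.Agent.P184.H856

open Vale.Agent.P184

universe u v w x

theorem tsum_prod_const {P F : Type*} [Finite F] [Nonempty F] (h : P → ℂ) :
    ∑' p : P × F, h p.1 = (Nat.card F : ℂ) * ∑' p, h p := by
  classical
  have := Fintype.ofFinite F
  by_cases hs : Summable h
  · have h1 : ∀ u : F, HasSum (fun p : P × F => if p.2 = u then h p.1 else 0) (∑' p, h p) := by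
      intro u
      have hinj : Function.Injective fun p : P => (p, u) := fun a b hab => (Prod.mk.inj hab).1
      refine (hinj.hasSum_iff (f := fun p : P × F => if p.2 = u then h p.1 else 0) ?_).1 ?_
      · rintro ⟨p, u'⟩ hp
        refine if_neg fun hu => hp ⟨p, ?_⟩
        change (p, u) = (p, u')
        rw [show u' = u from hu]
      · have h2 : ((fun p : P × F => if p.2 = u then h p.1 else 0) ∘ fun p : P => (p, u)) = h := by
          funext p
          exact if_pos rfl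
        rw [h2]
        exact hs.hasSum
    have h2 := hasSum_sum (s := (Finset.univ : Finset F)) fun u _ => h1 u
    have h3 : (fun p : P × F => ∑ u : F, if p.2 = u then h p.1 else 0) = fun p => h p.1 := by
      funext p
      rw [Finset.sum_ite_eq, if_pos (Finset.mem_univ _)]
    rw [h3] at h2
    rw [h2.tsum_eq, Finset.sum_const, Finset.card_univ, nsmul_eq_mul, Nat.card_eq_fintype_card]
  · have h1 : ¬ Summable fun p : P × F => h p.1 := by
      intro h2
      obtain ⟨u⟩ := (inferInstance : Nonempty F)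
      have hinj : Function.Injective fun p : P => (p, u) := fun a b hab => (Prod.mk.inj hab).1
      exact hs (h2.comp_injective hinj)
    rw [tsum_eq_zero_of_not_summable h1, tsum_eq_zero_of_not_summable hs, mul_zero]

section Virt

variable {G : Type u} {X : Type v} {L : Type w} {Γ : Type x} [Group G] [MulAction G X] [Group L]
  [Group Γ]

theorem spec_virt (α : G → X → L) (hα : ∀ g h x, α (g * h) x = α g (h • x) * α h x)
    (C : Subgroup L) (hfin : ∀ g, {x | α g x ∉ C}.Finite) (χ : L →* Γ)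
    (hχ : ∀ c ∈ C, χ c = 1 → c = 1) (hidx : (C.map χ).FiniteIndex)
    (hcen : ∀ γ : Γ, ∃ c ∈ C, ∃ z : Γ, (∀ d ∈ C, χ d * z = z * χ d) ∧ γ = χ c * z)
    (q : ℕ) (e : Matrix (Fin q) (Fin q) (G → ℂ)) (he : IsIdem e) :
    ∃ e₁ : Matrix (Fin q) (Fin q) (G → ℂ), IsIdem e₁ ∧ (∀ D, tau D e₁ = tau D e) ∧
      ∃ (n m : ℕ) (f f' : Matrix (Fin m) (Fin m) (L → ℂ)), n ≠ 0 ∧ IsIdem f ∧ IsIdem f' ∧
        ∀ D : ConjClasses L, (∀ c ∈ C, ConjClasses.mk c ≠ D) → tau D f' - tau D f =
          n * ∑' p : {p : G × X // p.1 • p.2 = p.2 ∧ ConjClasses.mk (α p.1 p.2) = D},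
            ∑ i, e₁ i i p.1.1 := by
  classical
  have hone : ∀ x, α 1 x = 1 := by
    intro x
    have h := hα 1 1 x
    rw [mul_one, one_smul] at h
    exact mul_eq_left.1 h.symm
  have hinj : ∀ c ∈ C, ∀ d ∈ C, χ c = χ d → c = d := by
    intro c hc d hd hcd
    have h1 := hχ (c * d⁻¹) (C.mul_mem hc (C.inv_mem hd)) (by
      rw [map_mul, map_inv, hcd, mul_inv_cancel])
    exact mul_inv_eq_one.1 h1
  have hF : Finite (Γ ⧸ C.map χ) := (C.map χ).finite_quotient_of_finiteIndex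
  have hr : ∀ u : Γ ⧸ C.map χ, ∃ z : Γ, (∀ d ∈ C, χ d * z = z * χ d) ∧
      (z : Γ ⧸ C.map χ) = u := by
    intro u
    obtain ⟨γ, rfl⟩ := QuotientGroup.mk_surjective u
    obtain ⟨c, hc, z, hz, rfl⟩ := hcen γ
    refine ⟨z, hz, ?_⟩
    rw [hz c hc, QuotientGroup.eq, inv_mul_cancel_left]
    exact ⟨c, hc, rfl⟩
  choose r hr1 hr2 using hr
  have hfix : ∀ d ∈ C, ∀ u : Γ ⧸ C.map χ, χ d • u = u := by
    intro d hd u
    conv_lhs => rw [← hr2 u]
    rw [MulAction.Quotient.smul_coe, smul_eq_mul, hr1 u d hd]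
    conv_rhs => rw [← hr2 u]
    rw [QuotientGroup.eq, mul_inv_rev, inv_mul_cancel_right]
    exact (C.map χ).inv_mem ⟨d, hd, rfl⟩
  have hj : ∀ (γ : Γ) (u : Γ ⧸ C.map χ), ∃ c ∈ C, χ c = (r (γ • u))⁻¹ * (γ * r u) := by
    intro γ u
    have h1 : ((r (γ • u) : Γ) : Γ ⧸ C.map χ) = ((γ * r u : Γ) : Γ ⧸ C.map χ) := by
      rw [hr2, ← smul_eq_mul, ← MulAction.Quotient.smul_coe, hr2]
    obtain ⟨c, hc, hc2⟩ := QuotientGroup.eq.1 h1
    exact ⟨c, hc, hc2⟩
  choose j hj1 hj2 using hj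
  let a₁ : MulAction G (X × (Γ ⧸ C.map χ)) :=
    { smul := fun g p => (g • p.1, p.2)
      one_smul := fun p => Prod.ext (one_smul G p.1) rfl
      mul_smul := fun g h p => Prod.ext (mul_smul g h p.1) rfl }
  let a₂ : MulAction G (X × (Γ ⧸ C.map χ)) :=
    { smul := fun g p => (g • p.1, χ (α g p.1) • p.2)
      one_smul := fun p => Prod.ext (one_smul G p.1) (by
        change χ (α 1 p.1) • p.2 = p.2
        rw [hone, map_one, one_smul])
      mul_smul := fun g h p => Prod.ext (mul_smul g h p.1) (by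
        change χ (α (g * h) p.1) • p.2 = χ (α g (h • p.1)) • χ (α h p.1) • p.2
        rw [hα, map_mul, mul_smul]) }
  obtain ⟨e₁, he₁, htau, m, f, f', hf, hf', hff⟩ := rowP2 a₁ a₂
    (fun g p => α g p.1) (fun g p => j (χ (α g p.1)) p.2) (fun g h p => hα g h p.1) (by
      intro g h p
      change j (χ (α (g * h) p.1)) p.2 = j (χ (α g (h • p.1))) (χ (α h p.1) • p.2) *
        j (χ (α h p.1)) p.2
      refine hinj _ (hj1 _ _) _ (C.mul_mem (hj1 _ _) (hj1 _ _)) ?_
      rw [map_mul, hj2, hj2, hj2, hα, map_mul, mul_smul]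
      group) (by
      intro g
      refine ((hfin g).prod (Set.finite_univ (α := Γ ⧸ C.map χ))).subset ?_
      rintro ⟨x, u⟩ hp
      refine ⟨fun hx => hp ?_, Set.mem_univ _⟩
      have h1 : χ (α g x) • u = u := hfix _ hx u
      refine ⟨?_, ?_⟩
      · change (g • x, u) = (g • x, χ (α g x) • u)
        rw [h1]
      · change α g x = j (χ (α g x)) u
        refine hinj _ hx _ (hj1 _ _) ?_
        rw [hj2, h1, hr1 u _ hx, inv_mul_cancel_left]) q e he
  refine ⟨e₁, he₁, htau, Nat.card (Γ ⧸ C.map χ), m, f, f', Nat.card_pos.ne', hf, hf',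
    fun D hD => ?_⟩
  rw [hff D fun g p => hD _ (hj1 _ _), ← tsum_prod_const]
  let E : {p : G × (X × (Γ ⧸ C.map χ)) // a₁.toSMul.smul p.1 p.2 = p.2 ∧
      ConjClasses.mk (α p.1 p.2.1) = D} ≃
      {p : G × X // p.1 • p.2 = p.2 ∧ ConjClasses.mk (α p.1 p.2) = D} × (Γ ⧸ C.map χ) :=
    { toFun := fun p => (⟨(p.1.1, p.1.2.1), congrArg Prod.fst p.2.1, p.2.2⟩, p.1.2.2)
      invFun := fun p => ⟨(p.1.1.1, (p.1.1.2, p.2)), Prod.ext p.1.2.1 rfl, p.1.2.2⟩
      left_inv := fun _ => rfl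
      right_inv := fun _ => rfl }
  exact E.tsum_eq (fun p : {p : G × X // p.1 • p.2 = p.2 ∧ ConjClasses.mk (α p.1 p.2) = D} ×
    (Γ ⧸ C.map χ) => ∑ i, e₁ i i p.1.1.1)

end Virt

end Vale.Agent.P184.H856
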