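import Vale.Agent.P184.H856.RowP2
import Vale.Agent.P184.H856.Virt

/-!
# P184: virtual retracts and transfer
-/

noncomputable section

namespace Vale.Agent.P184.H856

open Vale.Agent.P184
open Vale.Agent.P184.H13 (E dl)

universe u v w x y

/-! ### cocycles with almost all values in a virtual retract -/

section Spec

variable {G : Type u} {X : Type v} {L : Type w} {H : Type x} {F : Type y} [Group G]
  [MulAction G X] [Group L] [Group H] [MulAction L F] [Finite F] [Nonempty F]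

theorem spec_vr (α : G → X → L) (hα : ∀ g h x, α (g * h) x = α g (h • x) * α h x)
    (φ : H →* L) (c : L → F → H) (hc : ∀ a b u, c (a * b) u = c a (b • u) * c b u)
    (ht : ∀ y u, φ y • u = u ∧ c (φ y) u = y) (hfin : ∀ g, {x | α g x ∉ φ.range}.Finite)
    (q : ℕ) (e : Matrix (Fin q) (Fin q) (G → ℂ)) (he : IsIdem e) :
    ∃ e₁ : Matrix (Fin q) (Fin q) (G → ℂ), IsIdem e₁ ∧ (∀ D, tau D e₁ = tau D e) ∧
      ∃ (n m : ℕ) (f f' : Matrix (Fin m) (Fin m) (L → ℂ)), n ≠ 0 ∧ IsIdem f ∧ IsIdem f' ∧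
        ∀ D : ConjClasses L, (∀ y, ConjClasses.mk (φ y) ≠ D) → tau D f' - tau D f =
          n * ∑' p : {p : G × X // p.1 • p.2 = p.2 ∧ ConjClasses.mk (α p.1 p.2) = D},
            ∑ i, e₁ i i p.1.1 := by
  classical
  have hone : ∀ x, α 1 x = 1 := by
    intro x
    have h := hα 1 1 x
    rw [mul_one, one_smul] at h
    exact mul_eq_left.1 h.symm
  let a₁ : MulAction G (X × F) :=
    { smul := fun g p => (g • p.1, p.2)
      one_smul := fun p => Prod.ext (one_smul G p.1) rfl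
      mul_smul := fun g h p => Prod.ext (mul_smul g h p.1) rfl }
  let a₂ : MulAction G (X × F) :=
    { smul := fun g p => (g • p.1, α g p.1 • p.2)
      one_smul := fun p => Prod.ext (one_smul G p.1) (by
        change α 1 p.1 • p.2 = p.2
        rw [hone, one_smul])
      mul_smul := fun g h p => Prod.ext (mul_smul g h p.1) (by
        change α (g * h) p.1 • p.2 = α g (h • p.1) • α h p.1 • p.2
        rw [hα, mul_smul]) }
  obtain ⟨e₁, he₁, htau, m, f, f', hf, hf', hff⟩ := rowP2 a₁ a₂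
    (fun g p => α g p.1) (fun g p => φ (c (α g p.1) p.2)) (fun g h p => hα g h p.1) (by
      intro g h p
      change φ (c (α (g * h) p.1) p.2) = φ (c (α g (h • p.1)) (α h p.1 • p.2)) *
        φ (c (α h p.1) p.2)
      rw [hα, hc, map_mul]) (by
      intro g
      refine ((hfin g).prod (Set.finite_univ (α := F))).subset ?_
      rintro ⟨x, u⟩ hp
      refine ⟨?_, Set.mem_univ _⟩
      rintro ⟨y, hy⟩
      refine hp ⟨?_, ?_⟩
      · change (g • x, u) = (g • x, α g x • u)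
        rw [← hy, (ht y u).1]
      · change α g x = φ (c (α g x) u)
        rw [← hy, (ht y u).2]) q e he
  refine ⟨e₁, he₁, htau, Nat.card F, m, f, f', Nat.card_pos.ne', hf, hf', fun D hD => ?_⟩
  rw [hff D fun g p => hD _, ← tsum_prod_const]
  let E : {p : G × (X × F) // a₁.toSMul.smul p.1 p.2 = p.2 ∧
      ConjClasses.mk (α p.1 p.2.1) = D} ≃
      {p : G × X // p.1 • p.2 = p.2 ∧ ConjClasses.mk (α p.1 p.2) = D} × F :=
    { toFun := fun p => (⟨(p.1.1, p.1.2.1), congrArg Prod.fst p.2.1, p.2.2⟩, p.1.2.2)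
      invFun := fun p => ⟨(p.1.1.1, (p.1.1.2, p.2)), Prod.ext p.1.2.1 rfl, p.1.2.2⟩
      left_inv := fun _ => rfl
      right_inv := fun _ => rfl }
  exact E.tsum_eq (fun p : {p : G × X // p.1 • p.2 = p.2 ∧ ConjClasses.mk (α p.1 p.2) = D} ×
    F => ∑ i, e₁ i i p.1.1.1)

end Spec

/-! ### transfer -/

section Tr

variable {G : Type u} {F : Type v} {L : Type w} [Group G] [MulAction G F] [Group L]

theorem fin_tr [Finite F] (κ : G → F → L) (hκ : ∀ g h u, κ (g * h) u = κ g (h • u) * κ h u)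
    {q : ℕ} {e : Matrix (Fin q) (Fin q) (G → ℂ)} (he : IsIdem e) :
    ∃ (m : ℕ) (f f' : Matrix (Fin m) (Fin m) (L → ℂ)), IsIdem f ∧ IsIdem f' ∧
      ∀ D : ConjClasses L, tau D f' - tau D f =
        ∑' p : {p : G × F // p.1 • p.2 = p.2 ∧ ConjClasses.mk (κ p.1 p.2) = D},
          ∑ i, e i i p.1.1 := by
  let Z : H788.LC G F L := ⟨κ, hκ⟩
  obtain ⟨hN, htr⟩ := H788.nucTr Z (fun _ => Set.univ) e he (fun _ => Set.finite_univ)
    ((H788.sm_summable he).mul_right _)
  have e0 : Eqv (0 : E ((F × Fin q) × L) →L[ℂ] E ((F × Fin q) × L)) := fun _ _ _ _ _ => rfl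
  obtain ⟨m, f, f', h1, h2, h3⟩ := pOp 0 (H788.lamS Z (fun _ => Set.univ) e) (mul_zero 0)
    (H788.lamS_idem Z he) e0 (H788.eqv_lamS Z _ he) (by rw [sub_zero]; exact hN)
  refine ⟨m, f, f', h1, h2, fun D => ?_⟩
  rw [h3, sub_zero, htr D]
  have hiff : ∀ p : G × F, ((p.1 • p.2 = p.2 ∧ ConjClasses.mk (Z.a p.1 p.2) = D) ∧
      p.2 ∈ (Set.univ : Set F)) ↔ (p.1 • p.2 = p.2 ∧ ConjClasses.mk (κ p.1 p.2) = D) :=
    fun p => ⟨fun h => h.1, fun h => ⟨h, Set.mem_univ _⟩⟩
  exact (Equiv.subtypeEquivRight hiff).tsum_eq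
    (fun p : {p : G × F // p.1 • p.2 = p.2 ∧ ConjClasses.mk (κ p.1 p.2) = D} =>
      ∑ i, e i i p.1.1)

/-- the number of fixed points with value in `D` -/
def nn (κ : G → F → L) (D : ConjClasses L) (g : G) : ℕ :=
  Nat.card {u : F // g • u = u ∧ ConjClasses.mk (κ g u) = D}

theorem coc_one {κ : G → F → L} (hκ : ∀ g h u, κ (g * h) u = κ g (h • u) * κ h u) (u : F) :
    κ 1 u = 1 := by
  have h := hκ 1 1 u
  rw [mul_one, one_smul] at h
  exact mul_eq_left.1 h.symm

theorem coc_conj {κ : G → F → L} (hκ : ∀ g h u, κ (g * h) u = κ g (h • u) * κ h u)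
    (a g : G) {u : F} (hu : g • u = u) :
    ConjClasses.mk (κ (a * g * a⁻¹) (a • u)) = ConjClasses.mk (κ g u) := by
  have h1 : κ a⁻¹ (a • u) * κ a u = 1 := by
    rw [← hκ, inv_mul_cancel, coc_one hκ]
  have h2 : κ (a * g * a⁻¹) (a • u) = κ a u * κ g u * (κ a u)⁻¹ := by
    rw [hκ, hκ, inv_smul_smul, hu, eq_inv_of_mul_eq_one_left h1]
  rw [h2, ConjClasses.mk_eq_mk_iff_isConj]
  exact (isConj_iff.2 ⟨κ a u, rfl⟩).symm

theorem nn_le {κ : G → F → L} (hκ : ∀ g h u, κ (g * h) u = κ g (h • u) * κ h u) [Finite F]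
    (D : ConjClasses L) (a g : G) : nn κ D g ≤ nn κ D (a * g * a⁻¹) := by
  let f : {u : F // g • u = u ∧ ConjClasses.mk (κ g u) = D} →
      {u : F // (a * g * a⁻¹) • u = u ∧ ConjClasses.mk (κ (a * g * a⁻¹) u) = D} := fun u =>
    ⟨a • u.1, by rw [mul_smul, mul_smul, inv_smul_smul, u.2.1],
      by rw [coc_conj hκ a g u.2.1]; exact u.2.2⟩
  refine Nat.card_le_card_of_injective f fun u u' h => Subtype.ext ?_
  exact smul_left_cancel a (congrArg Subtype.val h)

theorem nn_conj {κ : G → F → L} (hκ : ∀ g h u, κ (g * h) u = κ g (h • u) * κ h u) [Finite F]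
    (D : ConjClasses L) {g g' : G} (h : ConjClasses.mk g = ConjClasses.mk g') :
    nn κ D g = nn κ D g' := by
  obtain ⟨a, rfl⟩ := isConj_iff.1 (ConjClasses.mk_eq_mk_iff_isConj.1 h)
  refine le_antisymm (nn_le hκ D a g) ?_
  have h1 := nn_le hκ D a⁻¹ (a * g * a⁻¹)
  have h2 : a⁻¹ * (a * g * a⁻¹) * a⁻¹⁻¹ = g := by group
  rwa [h2] at h1

/-- a representative of a class -/
def rp (C : ConjClasses G) : G := Function.surjInv ConjClasses.mk_surjective C

theorem mk_rp (C : ConjClasses G) : ConjClasses.mk (rp C) = C :=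
  Function.surjInv_eq ConjClasses.mk_surjective C

theorem sum_classes [Finite F] {κ : G → F → L}
    (hκ : ∀ g h u, κ (g * h) u = κ g (h • u) * κ h u) {q : ℕ}
    {e : Matrix (Fin q) (Fin q) (G → ℂ)} (he : IsIdem e) (D : ConjClasses L) :
    ∑' p : {p : G × F // p.1 • p.2 = p.2 ∧ ConjClasses.mk (κ p.1 p.2) = D}, ∑ i, e i i p.1.1 =
      ∑' C : ConjClasses G, (nn κ D (rp C) : ℂ) * tau C e := by
  classical
  have := Fintype.ofFinite F
  set w : G → ℂ := fun g => ∑ i, e i i g with hw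
  have hs : Summable fun g => ‖w g‖ := by
    refine Summable.of_nonneg_of_le (fun g => norm_nonneg _) (fun g => norm_sum_le _ _)
      (summable_sum fun i _ => he.1 i i)
  let W : G × F → ℂ := fun p =>
    if p.1 • p.2 = p.2 ∧ ConjClasses.mk (κ p.1 p.2) = D then w p.1 else 0
  have hs2 : Summable fun p : G × F => ‖w p.1‖ := by
    refine (summable_prod_of_nonneg (f := fun p : G × F => ‖w p.1‖) fun _ => norm_nonneg _).2
      ⟨fun g => Summable.of_finite, ?_⟩
    have h1 : (fun g : G => ∑' _u : F, ‖w g‖) = fun g => (Fintype.card F : ℝ) * ‖w g‖ := by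
      funext g
      rw [tsum_fintype, Finset.sum_const, Finset.card_univ, nsmul_eq_mul]
    change Summable fun g : G => ∑' _u : F, ‖w g‖
    rw [h1]
    exact hs.mul_left _
  have hW : Summable W := by
    refine Summable.of_norm_bounded hs2 fun p => ?_
    change ‖if p.1 • p.2 = p.2 ∧ ConjClasses.mk (κ p.1 p.2) = D then w p.1 else 0‖ ≤ _
    split_ifs
    · exact le_rfl
    · rw [norm_zero]; exact norm_nonneg _
  have hin : ∀ g, ∑' u, W (g, u) = (nn κ D g : ℂ) * w g := by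
    intro g
    rw [tsum_fintype]
    change ∑ u, (if g • u = u ∧ ConjClasses.mk (κ g u) = D then w g else 0) = _
    rw [← Finset.sum_filter, Finset.sum_const, nsmul_eq_mul]
    congr 2
    unfold nn
    rw [Nat.card_eq_fintype_card, Fintype.card_subtype]
  have h1 : ∑' p : {p : G × F // p.1 • p.2 = p.2 ∧ ConjClasses.mk (κ p.1 p.2) = D}, w p.1.1 =
      ∑' p, W p := by
    have h := tsum_subtype {p : G × F | p.1 • p.2 = p.2 ∧ ConjClasses.mk (κ p.1 p.2) = D}
      (fun p => w p.1)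
    refine h.trans (tsum_congr fun p => ?_)
    rw [Set.indicator_apply]
    rfl
  rw [h1, hW.tsum_prod, tsum_congr hin]
  have hg : Summable fun g => (nn κ D g : ℂ) * w g := hW.prod.congr hin
  have h2 := (Equiv.sigmaFiberEquiv (ConjClasses.mk : G → ConjClasses G)).tsum_eq
    (fun g => (nn κ D g : ℂ) * w g)
  have hg2 := (Equiv.sigmaFiberEquiv (ConjClasses.mk : G → ConjClasses G)).summable_iff.2 hg
  rw [← h2]
  refine (hg2.tsum_sigma).trans (tsum_congr fun C => ?_)
  rw [tau_eq, ← tsum_mul_left]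
  refine tsum_congr fun g => ?_
  change (nn κ D g.1 : ℂ) * w g.1 = (nn κ D (rp C) : ℂ) * w g.1
  rw [nn_conj hκ D (g.2.trans (mk_rp C).symm)]

theorem coc_tors {κ : G → F → L} (hκ : ∀ g h u, κ (g * h) u = κ g (h • u) * κ h u) {g : G}
    {u : F} (hu : g • u = u) (hg : IsOfFinOrder g) : IsOfFinOrder (κ g u) := by
  have hp : ∀ n : ℕ, g ^ n • u = u ∧ κ (g ^ n) u = κ g u ^ n := by
    intro n
    induction n with
    | zero => rw [pow_zero, one_smul, pow_zero, coc_one hκ]; exact ⟨rfl, rfl⟩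
    | succ n ih =>
      rw [pow_succ, mul_smul, hu, hκ, hu, ih.2, pow_succ]
      exact ⟨ih.1, rfl⟩
  obtain ⟨n, hn, hgn⟩ := isOfFinOrder_iff_pow_eq_one.1 hg
  refine isOfFinOrder_iff_pow_eq_one.2 ⟨n, hn, ?_⟩
  rw [← (hp n).2, hgn, coc_one hκ]

end Tr

/-! ### monomial groups -/

/-- permutations of `F` together with functions to `B` -/
@[ext] structure Mon (F : Type*) (B : Type*) where
  /-- the permutation -/
  s : Equiv.Perm F
  /-- the function -/
  k : F → B

namespace Mon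

variable {F B : Type*} [Group B]

instance : Mul (Mon F B) := ⟨fun a b => ⟨a.s * b.s, fun u => a.k (b.s u) * b.k u⟩⟩
instance : One (Mon F B) := ⟨⟨1, fun _ => 1⟩⟩
instance : Inv (Mon F B) := ⟨fun a => ⟨a.s⁻¹, fun u => (a.k (a.s⁻¹ u))⁻¹⟩⟩

theorem mul_s (a b : Mon F B) : (a * b).s = a.s * b.s := rfl
theorem mul_k (a b : Mon F B) (u : F) : (a * b).k u = a.k (b.s u) * b.k u := rfl
theorem one_s : (1 : Mon F B).s = 1 := rfl
theorem one_k (u : F) : (1 : Mon F B).k u = 1 := rfl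
theorem inv_s (a : Mon F B) : (a⁻¹).s = a.s⁻¹ := rfl
theorem inv_k (a : Mon F B) (u : F) : (a⁻¹).k u = (a.k (a.s⁻¹ u))⁻¹ := rfl

instance : Group (Mon F B) :=
  Group.ofLeftAxioms
    (fun a b c => Mon.ext (by rw [mul_s, mul_s, mul_s, mul_s, mul_assoc])
      (funext fun u => by rw [mul_k, mul_k, mul_k, mul_k, mul_s, mul_assoc]; rfl))
    (fun a => Mon.ext (by rw [mul_s, one_s, one_mul])
      (funext fun u => by rw [mul_k, one_k, one_mul]))
    (fun a => Mon.ext (by rw [mul_s, inv_s, one_s, inv_mul_cancel])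
      (funext fun u => by
        rw [mul_k, inv_k, one_k]
        change (a.k (a.s.symm (a.s u)))⁻¹ * a.k u = 1
        rw [Equiv.symm_apply_apply, inv_mul_cancel]))

end Mon

end Vale.Agent.P184.H856
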