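import Vale.Agent.P184.H856.Virt

/-!
# P184: amalgams over a subgroup which is a virtual retract
-/

noncomputable section

namespace Vale.Agent.P184.H856

open Monoid Monoid.PushoutI Vale.Agent.P184 Vale.Agent.P184.H290

universe u v w x

section

variable {I : Type u} {G : I → Type v} {H : Type w} {Γ : Type x} [∀ i, Group (G i)] [Group H]
  [Group Γ] {φ : ∀ i, H →* G i}

theorem l1Bass_virt_fin [Finite I] (hφ : ∀ i, Function.Injective (φ i))
    (χ : PushoutI φ →* Γ) (hχ : ∀ y, χ (base φ y) = 1 → y = 1)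
    (hidx : (χ.comp (base φ)).range.FiniteIndex)
    (hcen : ∀ γ : Γ, ∃ (y : H) (z : Γ), (∀ y', χ (base φ y') * z = z * χ (base φ y')) ∧
      γ = χ (base φ y) * z) (hΓ : L1Bass Γ) (h : ∀ i, L1Bass (G i)) : L1Bass (PushoutI φ) := by
  classical
  have hI := Fintype.ofFinite I
  have hinj : ∀ y y', χ (base φ y) = χ (base φ y') → y = y' := by
    intro y y' hy
    have h1 := hχ (y * y'⁻¹) (by rw [map_mul, map_mul, map_inv, map_inv, hy, mul_inv_cancel])
    exact mul_inv_eq_one.1 h1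
  have hconj : ∀ y y', ConjClasses.mk (χ (base φ y)) = ConjClasses.mk (χ (base φ y')) →
      ConjClasses.mk (base φ y) = ConjClasses.mk (base φ y') := by
    intro y y' hy
    obtain ⟨γ, hγ⟩ := isConj_iff.1 (ConjClasses.mk_eq_mk_iff_isConj.1 hy)
    obtain ⟨w, z, hz, rfl⟩ := hcen γ
    refine ConjClasses.mk_eq_mk_iff_isConj.2 (isConj_iff.2 ⟨base φ w, ?_⟩)
    rw [← map_inv, ← map_mul, ← map_mul]
    congr 1
    refine hinj _ _ ?_
    rw [← hγ, map_mul, map_mul, map_mul, map_mul, map_inv, map_inv, mul_inv_rev]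
    have h1 : z * χ (base φ y) * z⁻¹ = χ (base φ y) := by
      rw [← hz y, mul_inv_cancel_right]
    calc χ (base φ w) * χ (base φ y) * (χ (base φ w))⁻¹
        = χ (base φ w) * (z * χ (base φ y) * z⁻¹) * (χ (base φ w))⁻¹ := by rw [h1]
      _ = χ (base φ w) * z * χ (base φ y) * (z⁻¹ * (χ (base φ w))⁻¹) := by group
  intro q e he
  have hF : ∀ k, ∃ F : Finset (ConjClasses (G k)), (∀ C ∈ F, IsTorsionClass C) ∧
      ∀ a : G k, (∀ y, ¬ IsConj (φ k y) a) → ConjClasses.mk a ∉ F →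
        tau (ConjClasses.mk (of k a)) e = 0 := by
    intro k
    obtain ⟨s, α, hs, hα, hc, hfin⟩ := exists_cocycle hφ k
    have hk : ∀ y, (χ.comp (of k)) (φ k y) = χ (base φ y) := fun y => by
      rw [MonoidHom.comp_apply, of_apply_eq_base]
    have hmap : (φ k).range.map (χ.comp (of k)) = (χ.comp (base φ)).range := by
      ext γ
      constructor
      · rintro ⟨_, ⟨y, rfl⟩, rfl⟩
        exact ⟨y, (hk y).symm⟩
      · rintro ⟨y, rfl⟩
        exact ⟨φ k y, ⟨y, rfl⟩, hk y⟩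
    obtain ⟨e₁, he₁, htau, n, m, f, f', hn, hf, hf', hff⟩ := spec_virt α hc (φ k).range hfin
      (χ.comp (of k)) (by
        rintro _ ⟨y, rfl⟩ hy
        rw [hk] at hy
        rw [hχ y hy, map_one]) (by rw [hmap]; exact hidx) (by
        intro γ
        obtain ⟨y, z, hz, hγ⟩ := hcen γ
        refine ⟨φ k y, ⟨y, rfl⟩, z, ?_, by rw [hk]; exact hγ⟩
        rintro _ ⟨y', rfl⟩
        rw [hk]
        exact hz y') q e he
    obtain ⟨F, hF1, hF2⟩ := h k m f hf
    obtain ⟨F', hF1', hF2'⟩ := h k m f' hf'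
    refine ⟨F ∪ F', fun C hC => (Finset.mem_union.1 hC).elim (hF1 C) (hF1' C), ?_⟩
    intro a ha haF
    rw [Finset.mem_union, not_or] at haF
    have h1 := hff (ConjClasses.mk a) (by
      rintro _ ⟨y, rfl⟩ h1
      exact ha y (ConjClasses.mk_eq_mk_iff_isConj.1 h1))
    rw [hF2 _ haF.1, hF2' _ haF.2, sub_zero] at h1
    rcases mul_eq_zero.1 h1.symm with h2 | h2
    · exact absurd (Nat.cast_eq_zero.1 h2) hn
    rw [← htau, ← h2, tau_eq]
    let E : {p : PushoutI φ × (PushoutI φ ⧸ (of (φ := φ) k).range) //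
        p.1 • p.2 = p.2 ∧ ConjClasses.mk (α p.1 p.2) = ConjClasses.mk a} →
        {y : PushoutI φ // ConjClasses.mk y = ConjClasses.mk (of k a)} := fun p =>
      ⟨p.1.1, (fix_iff hφ hs hα a p.1.1).1 ⟨p.1.2, p.2.1, p.2.2⟩⟩
    have hE : Function.Bijective E := by
      constructor
      · rintro ⟨⟨g, x⟩, h2, h3⟩ ⟨⟨g', x'⟩, h4, h5⟩ h6
        obtain rfl : g = g' := congrArg Subtype.val h6
        obtain rfl : x = x' := fix_unique hφ hs hα ha h2 h3 h4
        rfl
      · rintro ⟨g, hg⟩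
        obtain ⟨x, h2, h3⟩ := (fix_iff hφ hs hα a g).2 hg
        exact ⟨⟨⟨g, x⟩, h2, h3⟩, rfl⟩
    exact ((Equiv.ofBijective E hE).tsum_eq fun y => ∑ i, e₁ i i y.1).symm
  choose F hF1 hF2 using hF
  obtain ⟨b, hb, htau⟩ := pushforward χ e he
  obtain ⟨F₀, hF0, hF0'⟩ := hΓ q b hb
  let T : Finset (ConjClasses Γ) := F₀ ∪ Finset.univ.biUnion fun i : I =>
    (F i).image (ConjClasses.map (χ.comp (of i)))
  have hT : ∀ D ∈ T, IsTorsionClass D := by
    intro D hD
    rcases Finset.mem_union.1 hD with hD | hD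
    · exact hF0 _ hD
    · obtain ⟨i, _, hD⟩ := Finset.mem_biUnion.1 hD
      obtain ⟨D', hD', rfl⟩ := Finset.mem_image.mp hD
      obtain ⟨y, rfl⟩ := ConjClasses.mk_surjective D'
      exact isTorsionClass_mk.mpr
        ((χ.comp (of i)).isOfFinOrder (isTorsionClass_mk.mp (hF1 i _ hD')))
  have hB : {D : ConjClasses (PushoutI φ) | (∃ y, D = ConjClasses.mk (base φ y)) ∧
      ConjClasses.map χ D ∈ T}.Finite := by
    refine Set.Finite.of_injOn (f := ConjClasses.map χ) (t := (T : Set (ConjClasses Γ)))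
      (fun D hD => hD.2) ?_ T.finite_toSet
    rintro _ ⟨⟨y, rfl⟩, _⟩ _ ⟨⟨y', rfl⟩, _⟩ hyy
    exact hconj y y' hyy
  refine ⟨hB.toFinset ∪ Finset.univ.biUnion fun i =>
    (F i).image (ConjClasses.map (of (φ := φ) i)), ?_, ?_⟩
  · intro C hC
    rcases Finset.mem_union.1 hC with hC | hC
    · rw [Set.Finite.mem_toFinset] at hC
      obtain ⟨⟨y, rfl⟩, hy⟩ := hC
      have h1 : IsOfFinOrder (χ (base φ y)) := isTorsionClass_mk.1 (hT _ hy)
      refine isTorsionClass_mk.mpr ((base φ).isOfFinOrder ?_)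
      have hinj' : Function.Injective (χ.comp (base φ)) := fun a b hab => hinj a b hab
      exact (hinj'.isOfFinOrder_iff).1 h1
    · obtain ⟨i, _, hC⟩ := Finset.mem_biUnion.1 hC
      obtain ⟨D, hD, rfl⟩ := Finset.mem_image.mp hC
      obtain ⟨y, rfl⟩ := ConjClasses.mk_surjective D
      exact isTorsionClass_mk.mpr
        ((of (φ := φ) i).isOfFinOrder (isTorsionClass_mk.mp (hF1 i _ hD)))
  · intro C hC
    rw [Finset.mem_union, not_or] at hC
    by_contra h0
    rcases elliptic' hφ he C h0 with ⟨y, rfl⟩ | ⟨k, a, rfl, ha⟩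
    · have h1 : ConjClasses.map χ (ConjClasses.mk (base φ y)) ∉ T := fun h2 =>
        hC.1 ((Set.Finite.mem_toFinset hB).2 ⟨⟨y, rfl⟩, h2⟩)
      have h2 : tau (ConjClasses.map χ (ConjClasses.mk (base φ y))) b = 0 :=
        hF0' _ fun h2 => h1 (Finset.mem_union_left _ h2)
      refine h0 ?_
      rw [← h2, htau]
      refine (tsum_classes_single he χ _ (ConjClasses.mk (base φ y)) rfl
        fun D hD hne => ?_).symm
      by_contra h3
      rcases elliptic' hφ he D h3 with ⟨y', rfl⟩ | ⟨j, c, rfl, hc⟩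
      · exact hne (hconj y' y hD)
      · have h5 : ConjClasses.mk c ∈ F j := by
          by_contra h5
          exact h3 (hF2 j c hc h5)
        exact h1 (Finset.mem_union_right _ (Finset.mem_biUnion.2 ⟨j, Finset.mem_univ j,
          Finset.mem_image.2 ⟨_, h5, hD⟩⟩))
    · exact h0 (hF2 k a ha fun h2 => hC.2 (Finset.mem_biUnion.2
        ⟨k, Finset.mem_univ k, Finset.mem_image.2 ⟨_, h2, rfl⟩⟩))

end

/-- **Amalgams over a virtual retract.** -/
theorem amalgam_virt {I : Type u} {G : I → Type v} {H : Type w} {Γ : Type x}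
    [∀ i, Group (G i)] [Group H] [Group Γ] (φ : ∀ i, H →* G i)
    (hφ : ∀ i, Function.Injective (φ i)) (χ : PushoutI φ →* Γ)
    (hχ : ∀ y, χ (base φ y) = 1 → y = 1) (hidx : (χ.comp (base φ)).range.FiniteIndex)
    (hcen : ∀ γ : Γ, ∃ (y : H) (z : Γ), (∀ y', χ (base φ y') * z = z * χ (base φ y')) ∧
      γ = χ (base φ y) * z) (hΓ : L1Bass Γ) (h : ∀ i, L1Bass (G i)) : L1Bass (PushoutI φ) := by
  refine l1Bass_of_finite_sub hφ ∅ fun J _ => ?_
  have hb : ∀ y, (χ.comp (inc φ J)) (base (fun i : J => φ i) y) = χ (base φ y) := by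
    intro y
    rw [MonoidHom.comp_apply]
    congr 1
  have hr : ((χ.comp (inc φ J)).comp (base (fun i : J => φ i))).range =
      (χ.comp (base φ)).range := by
    ext γ
    constructor
    · rintro ⟨y, rfl⟩
      exact ⟨y, (hb y).symm⟩
    · rintro ⟨y, rfl⟩
      exact ⟨y, hb y⟩
  exact l1Bass_virt_fin (fun i : J => hφ i) (χ.comp (inc φ J))
    (fun y hy => hχ y (by rw [← hb]; exact hy)) (by rw [hr]; exact hidx)
    (fun γ => by
      obtain ⟨y, z, hz, hγ⟩ := hcen γ
      exact ⟨y, z, fun y' => by rw [hb]; exact hz y', by rw [hb]; exact hγ⟩) hΓ fun i => h i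

end Vale.Agent.P184.H856
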